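import Vale.Agent.P124.Space

/-! P124: atoms (the basic test functions) and their Lipschitz bounds. -/

open Filter Topology

namespace Vale.Agent.P124

noncomputable def th (q : ℕ) : ℝ := th0 / 4 ^ q

theorem th_pos (q : ℕ) : 0 < th q := div_pos th0_pos (by positivity)

theorem th_le (q : ℕ) : th q ≤ th0 :=
  div_le_self th0_pos.le (one_le_pow₀ (by norm_num))

theorem th_succ (q : ℕ) : th (q + 1) = th q / 4 := by
  unfold th; rw [pow_succ, div_div]

theorem th_zero : th 0 = th0 := by simp [th]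

/-- data of an atom of level `n` -/
structure AD (n : ℕ) : Type where
  A : Finset ℕ
  f : ℕ → ℝ → ℝ
  D : Finset (Cell n)
  m : ℕ
  g : Cell n → ℕ → ℝ → ℝ
  p : ℝ → ℝ
  φ : ℕ → ℝ → ℝ

namespace AD

variable {n : ℕ}

noncomputable def tt (d : AD n) (σ : Cell n) (y : Co → ℝ) : ℝ :=
  max (d.p (y (Sum.inr n))) (rho σ.2 / bb ^ 3)

noncomputable def cc (d : AD n) (y : Co → ℝ) : ℕ → ℝ := fun κ => d.φ κ (y (en κ))

noncomputable def GG (d : AD n) (y : Co → ℝ) (σ' : Cell n) : ℝ :=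
  ∑ i ∈ Finset.range d.m, d.g σ' i (y (Sum.inl (⟨n, σ'⟩, i)))

noncomputable def base (d : AD n) (σ : Cell n) (y : Co → ℝ) : ℝ :=
  uu σ (d.tt σ y) (d.cc y) * ∑ σ' ∈ d.D, lam σ' (d.tt σ y) (d.cc y) * d.GG y σ'

noncomputable def pre (d : AD n) (y : Co → ℝ) : ℝ := ∏ M ∈ d.A, d.f M (y (Sum.inr M))

noncomputable def ev (d : AD n) (σ : Cell n) (y : Co → ℝ) : ℝ := d.pre y * d.base σ y

structure Good (q : ℕ) (σ : Cell n) (d : AD n) : Prop where
  card : d.A.card ≤ q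
  f1 : ∀ M s, |d.f M s| ≤ 1
  f2 : ∀ M s t, |d.f M s - d.f M t| * (th q * rho σ.2) ≤ |s - t|
  f3 : ∀ M s t, s ≤ th q * rho σ.2 → t ≤ th q * rho σ.2 → d.f M s = d.f M t
  f4 : ∀ M s t, (1 - th q) * rho σ.2 ≤ s → (1 - th q) * rho σ.2 ≤ t → d.f M s = d.f M t
  g1 : ∀ σ' i s t, |d.g σ' i s - d.g σ' i t| ≤ |s - t|
  g0 : ∀ σ' i, d.g σ' i 0 = 0
  p1 : ∀ s t, |d.p s - d.p t| ≤ |s - t|
  p2 : ∀ s, |d.p s - s| ≤ (th0 - th q) * rho σ.2
  p3 : ∀ κ s t, |d.φ κ s - d.φ κ t| ≤ |s - t|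
  p4 : ∀ κ s, |d.φ κ s - s| ≤ (th0 - th q) * rho σ.2

theorem tt_pos (d : AD n) (σ : Cell n) (y : Co → ℝ) : 0 < d.tt σ y :=
  lt_max_of_lt_right (div_pos (rho_pos _) (pow_pos (zero_lt_one.trans one_lt_bb) _))

variable {q : ℕ} {σ : Cell n} {d : AD n}

theorem Good.disp (_h : Good q σ d) : (th0 - th q) * rho σ.2 ≤ th0 * rho σ.2 :=
  mul_le_mul_of_nonneg_right (by linarith [th_pos q]) (rho_pos _).le

theorem Good.box (h : Good q σ d) {y : Co → ℝ} (hu : uu σ (d.tt σ y) (d.cc y) ≠ 0) :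
    Box σ (y (Sum.inr n)) (fun κ => y (en κ)) := by
  obtain ⟨h1, h2, h3⟩ := uu_supp (d.tt_pos σ y) hu
  have hb := one_lt_bb
  have hρ := rho_pos σ.2
  have hb2 : 1 ≤ bb ^ 2 := one_le_pow₀ hb.le
  have hlt : rho σ.2 / bb ^ 3 < rho σ.2 / bb ^ 2 :=
    div_lt_div_of_pos_left hρ (by positivity) (pow_lt_pow_right₀ hb (by norm_num))
  have he : d.tt σ y = d.p (y (Sum.inr n)) := by
    unfold tt at h1 ⊢
    rcases le_total (d.p (y (Sum.inr n))) (rho σ.2 / bb ^ 3) with hh | hh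
    · rw [max_eq_right hh] at h1; linarith
    · exact max_eq_left hh
  rw [he] at h1 h2
  have hp := abs_le.1 ((h.p2 (y (Sum.inr n))).trans h.disp)
  have hth : rho σ.2 / bb ^ 2 = 2 * (th0 * rho σ.2) := by
    unfold th0; field_simp
  have hth2 : th0 * rho σ.2 ≤ rho σ.2 := by nlinarith [th0_le, th0_pos]
  refine ⟨by linarith [hp.1, hp.2], by nlinarith [hp.1, hp.2], fun κ => ?_⟩
  have h4 := h3 κ
  have h5 := (h.p4 κ (y (en κ))).trans h.disp
  have h6 : rho σ.2 ≤ wt κ * rho σ.2 := le_mul_of_one_le_left hρ.le (one_le_wt κ)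
  unfold cc at h4
  rw [abs_le] at h4 h5 ⊢
  constructor <;> linarith [h4.1, h4.2, h5.1, h5.2]

theorem Good.supp (h : Good q σ d) {y : Co → ℝ} (hy : d.ev σ y ≠ 0) :
    Box σ (y (Sum.inr n)) (fun κ => y (en κ)) :=
  h.box (fun hu => hy (by unfold ev base; rw [hu]; simp))

theorem Good.GG_sub (h : Good q σ d) (η η' : EE) (σ' : Cell n) :
    |d.GG (XX η) σ' - d.GG (XX η') σ'| ≤ ‖η ⟨n, σ'⟩ - η' ⟨n, σ'⟩‖ := by
  unfold GG
  rw [← Finset.sum_sub_distrib]
  refine (Finset.abs_sum_le_sum_abs _ _).trans (le_trans ?_ (sum_abs_le _ d.m))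
  refine Finset.sum_le_sum fun i _ => (h.g1 _ _ _ _).trans (le_of_eq ?_)
  simp [XX]

theorem Good.GG_zero (h : Good q σ d) (σ' : Cell n) : d.GG (XX 0) σ' = 0 := by
  unfold GG
  refine Finset.sum_eq_zero fun i _ => ?_
  simp [XX, h.g0]

theorem Good.GG_le (h : Good q σ d) (η : EE) (σ' : Cell n) : |d.GG (XX η) σ'| ≤ tl n η := by
  have := h.GG_sub η 0 σ'
  rw [h.GG_zero] at this
  simp only [sub_zero, ZeroAtInftyContinuousMap.zero_apply] at this
  exact this.trans (le_tl le_rfl η σ')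

theorem abs_sum_lam_le (D : Finset (Cell n)) (t : ℝ) (c : ℕ → ℝ) (G : Cell n → ℝ) {B : ℝ}
    (hB : 0 ≤ B) (hG : ∀ σ', |G σ'| ≤ B) : |∑ σ' ∈ D, lam σ' t c * G σ'| ≤ B := by
  refine (Finset.abs_sum_le_sum_abs _ _).trans ?_
  calc ∑ σ' ∈ D, |lam σ' t c * G σ'| ≤ ∑ σ' ∈ D, lam σ' t c * B := by
        refine Finset.sum_le_sum fun σ' _ => ?_
        rw [abs_mul, abs_of_nonneg (lam_nonneg _ _ _)]
        exact mul_le_mul_of_nonneg_left (hG σ') (lam_nonneg _ _ _)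
    _ = (∑ σ' ∈ D, lam σ' t c) * B := by rw [Finset.sum_mul]
    _ ≤ B := mul_le_of_le_one_left hB (sum_lam_le D t c)

theorem Good.base_le (h : Good q σ d) (η : EE) :
    |d.base σ (XX η)| ≤ 2 * bb ^ 2 * rho σ.2 := by
  by_cases hu : uu σ (d.tt σ (XX η)) (d.cc (XX η)) = 0
  · unfold base; rw [hu]
    have := rho_pos σ.2
    simp only [zero_mul, abs_zero]; positivity
  · have hb := (h.box hu).2.1
    have h1 := abs_sum_lam_le d.D (d.tt σ (XX η)) (d.cc (XX η)) _ (tl_nonneg n η) (h.GG_le η)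
    unfold base
    rw [abs_mul, abs_of_nonneg (uu_nonneg _ _ _)]
    refine (mul_le_of_le_one_left (abs_nonneg _) (uu_le_one _ _ _)).trans (h1.trans hb)

theorem Good.base_lip_aux (h : Good q σ d) (η η' : EE)
    (hle : d.tt σ (XX η') ≤ d.tt σ (XX η)) :
    |d.base σ (XX η) - d.base σ (XX η')| ≤ (2 + bb ^ 3) * ‖η - η'‖ := by
  set δ := ‖η - η'‖ with hδ
  have hδ0 : 0 ≤ δ := norm_nonneg _
  set t := d.tt σ (XX η) with ht
  set t' := d.tt σ (XX η') with ht'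
  set c := d.cc (XX η)
  set c' := d.cc (XX η')
  have ht0 : 0 < t' := d.tt_pos σ _
  have hb := one_lt_bb
  have hb3 : 1 ≤ bb ^ 3 := one_le_pow₀ hb.le
  have hρ := rho_pos σ.2
  have htt : |t - t'| ≤ δ := by
    refine (abs_max_sub_max_le_abs _ _ _).trans ((h.p1 _ _).trans ?_)
    simpa using XX_lip (Sum.inr n) η η'
  have hcc : ∀ κ, |c κ - c' κ| ≤ δ := fun κ =>
    (h.p3 _ _ _).trans (by simpa using XX_lip (en κ) η η')
  have hl := lam_diff d.D ht0.le hle le_rfl htt hcc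
  have hu := uu_diff σ ht0.le hle le_rfl htt hcc
  have hT : tl n η' ≤ (1 + bb ^ 3) * t' := by
    have h1 := abs_le.1 ((h.p2 (tl n η')).trans h.disp)
    have h2 : d.p (tl n η') ≤ t' := le_max_left _ _
    have h3 : rho σ.2 / bb ^ 3 ≤ t' := le_max_right _ _
    rw [div_le_iff₀ (by positivity)] at h3
    have h4 : th0 * rho σ.2 ≤ rho σ.2 := by nlinarith [th0_le, th0_pos]
    nlinarith [h1.1]
  have hT0 := tl_nonneg n η'
  have e1 : |∑ σ' ∈ d.D, lam σ' t c * (d.GG (XX η) σ' - d.GG (XX η') σ')| ≤ δ :=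
    abs_sum_lam_le _ _ _ _ hδ0 fun σ' => (h.GG_sub η η' σ').trans (by
      simpa using c0_apply_le (η - η') ⟨n, σ'⟩)
  have e2 : |∑ σ' ∈ d.D, (lam σ' t c - lam σ' t' c') * d.GG (XX η') σ'| ≤
      (∑ σ' ∈ d.D, |lam σ' t c - lam σ' t' c'|) * tl n η' := by
    rw [Finset.sum_mul]
    refine (Finset.abs_sum_le_sum_abs _ _).trans (Finset.sum_le_sum fun σ' _ => ?_)
    rw [abs_mul]
    exact mul_le_mul_of_nonneg_left (h.GG_le η' σ') (abs_nonneg _)
  have e3 : |∑ σ' ∈ d.D, lam σ' t' c' * d.GG (XX η') σ'| ≤ tl n η' :=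
    abs_sum_lam_le _ _ _ _ hT0 (h.GG_le η')
  have key : d.base σ (XX η) - d.base σ (XX η') =
      uu σ t c * (∑ σ' ∈ d.D, lam σ' t c * (d.GG (XX η) σ' - d.GG (XX η') σ')) +
      uu σ t c * (∑ σ' ∈ d.D, (lam σ' t c - lam σ' t' c') * d.GG (XX η') σ') +
      (uu σ t c - uu σ t' c') * ∑ σ' ∈ d.D, lam σ' t' c' * d.GG (XX η') σ' := by
    unfold base
    simp only [mul_sub, sub_mul, Finset.sum_sub_distrib]
    ring
  have u0 := uu_nonneg σ t c
  have u1 := uu_le_one σ t c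
  set S := ∑ σ' ∈ d.D, |lam σ' t c - lam σ' t' c'|
  have hS0 : 0 ≤ S := Finset.sum_nonneg fun _ _ => abs_nonneg _
  have f2 : S * tl n η' ≤ (1 + bb ^ 3) * (δ / 50) := by
    calc S * tl n η' ≤ S * ((1 + bb ^ 3) * t') := mul_le_mul_of_nonneg_left hT hS0
      _ = (1 + bb ^ 3) * (S * t') := by ring
      _ ≤ _ := mul_le_mul_of_nonneg_left hl (by positivity)
  have f3 : |uu σ t c - uu σ t' c'| * tl n η' ≤ (1 + bb ^ 3) * (δ / 50) := by
    calc _ ≤ |uu σ t c - uu σ t' c'| * ((1 + bb ^ 3) * t') :=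
          mul_le_mul_of_nonneg_left hT (abs_nonneg _)
      _ = (1 + bb ^ 3) * (|uu σ t c - uu σ t' c'| * t') := by ring
      _ ≤ _ := mul_le_mul_of_nonneg_left hu (by positivity)
  rw [key]
  refine (abs_add_three _ _ _).trans ?_
  rw [abs_mul, abs_mul, abs_mul, abs_of_nonneg u0]
  have g1 := (mul_le_of_le_one_left (abs_nonneg _) u1).trans e1
  have g2 := (mul_le_of_le_one_left (abs_nonneg _) u1).trans (e2.trans f2)
  have g3 := (mul_le_mul_of_nonneg_left e3 (abs_nonneg (uu σ t c - uu σ t' c'))).trans f3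
  nlinarith

theorem Good.base_lip (h : Good q σ d) : Lip (2 + bb ^ 3) (fun η => d.base σ (XX η)) := by
  intro η η'
  rcases le_total (d.tt σ (XX η')) (d.tt σ (XX η)) with hle | hle
  · exact h.base_lip_aux η η' hle
  · rw [abs_sub_comm, norm_sub_rev]; exact h.base_lip_aux η' η hle

end AD

theorem abs_prod_le_one' {ι : Type} (s : Finset ι) (a : ι → ℝ) (ha : ∀ i, |a i| ≤ 1) :
    |∏ i ∈ s, a i| ≤ 1 := by
  rw [Finset.abs_prod]
  exact Finset.prod_le_one (fun _ _ => abs_nonneg _) fun i _ => ha i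

theorem abs_prod_sub_le' {ι : Type} (s : Finset ι) (a b : ι → ℝ) (ha : ∀ i, |a i| ≤ 1)
    (hb : ∀ i, |b i| ≤ 1) : |∏ i ∈ s, a i - ∏ i ∈ s, b i| ≤ ∑ i ∈ s, |a i - b i| := by
  classical
  induction s using Finset.induction_on with
  | empty => simp
  | insert j s hj ih =>
    rw [Finset.prod_insert hj, Finset.prod_insert hj, Finset.sum_insert hj]
    have e : a j * ∏ i ∈ s, a i - b j * ∏ i ∈ s, b i =
        (a j - b j) * ∏ i ∈ s, a i + b j * (∏ i ∈ s, a i - ∏ i ∈ s, b i) := by ring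
    rw [e]
    refine (abs_add_le _ _).trans ?_
    rw [abs_mul, abs_mul]
    have h1 := mul_le_of_le_one_right (abs_nonneg (a j - b j)) (abs_prod_le_one' s a ha)
    have h2 := mul_le_of_le_one_left (abs_nonneg (∏ i ∈ s, a i - ∏ i ∈ s, b i)) (hb j)
    linarith

/-- Lipschitz constant of atoms of generation `q` -/
noncomputable def LL (q : ℕ) : ℝ := 2 + bb ^ 3 + 2 * bb ^ 2 * q / th q

theorem LL_pos (q : ℕ) : 0 < LL q := by
  have := zero_lt_one.trans one_lt_bb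
  have := th_pos q
  unfold LL; positivity

namespace AD

variable {n q : ℕ} {σ : Cell n} {d : AD n}

theorem Good.pre_le (h : Good q σ d) (y : Co → ℝ) : |d.pre y| ≤ 1 :=
  abs_prod_le_one' _ _ fun M => h.f1 M _

theorem Good.pre_lip (h : Good q σ d) (η η' : EE) :
    |d.pre (XX η) - d.pre (XX η')| * (th q * rho σ.2) ≤ q * ‖η - η'‖ := by
  have h0 : 0 ≤ th q * rho σ.2 := (mul_pos (th_pos q) (rho_pos _)).le
  refine (mul_le_mul_of_nonneg_right
    (abs_prod_sub_le' _ _ _ (fun M => h.f1 M _) (fun M => h.f1 M _)) h0).trans ?_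
  rw [Finset.sum_mul]
  refine (Finset.sum_le_card_nsmul _ _ ‖η - η'‖ fun M _ => (h.f2 _ _ _).trans ?_).trans ?_
  · simpa using XX_lip (Sum.inr M) η η'
  · rw [nsmul_eq_mul]
    exact mul_le_mul_of_nonneg_right (by exact_mod_cast h.card) (norm_nonneg _)

theorem Good.lip (h : Good q σ d) : Lip (LL q) (fun η => d.ev σ (XX η)) := by
  intro η η'
  have e : d.ev σ (XX η) - d.ev σ (XX η') =
      d.pre (XX η) * (d.base σ (XX η) - d.base σ (XX η')) +
        (d.pre (XX η) - d.pre (XX η')) * d.base σ (XX η') := by unfold ev; ring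
  show |d.ev σ (XX η) - d.ev σ (XX η')| ≤ _
  rw [e]
  refine (abs_add_le _ _).trans ?_
  rw [abs_mul, abs_mul]
  have h1 := (mul_le_of_le_one_left (abs_nonneg _) (h.pre_le (XX η))).trans (h.base_lip η η')
  have h2 := mul_le_mul_of_nonneg_left (h.base_le η') (abs_nonneg (d.pre (XX η) - d.pre (XX η')))
  have h3 := h.pre_lip η η'
  have hth := th_pos q
  have h4 : |d.pre (XX η) - d.pre (XX η')| * (2 * bb ^ 2 * rho σ.2) ≤
      2 * bb ^ 2 * q / th q * ‖η - η'‖ := by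
    have : |d.pre (XX η) - d.pre (XX η')| * (2 * bb ^ 2 * rho σ.2) =
        2 * bb ^ 2 / th q * (|d.pre (XX η) - d.pre (XX η')| * (th q * rho σ.2)) := by
      field_simp
    rw [this]
    refine (mul_le_mul_of_nonneg_left h3 (by positivity)).trans (le_of_eq (by ring))
  unfold LL
  linarith

theorem Good.ev_zero (h : Good q σ d) : d.ev σ (XX 0) = 0 := by
  unfold ev base
  simp [h.GG_zero]

end AD

end Vale.Agent.P124
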