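import Mathlib

/-! P124: basic notions shared by all parts. -/

open Filter Topology

namespace Vale.Agent.P124

/-- finitely supported functional on functions -/
def FinSupp {E : Type} (Λ : (E → ℝ) →ₗ[ℝ] ℝ) : Prop :=
  ∃ (P : Finset E) (a : E → ℝ), ∀ F, Λ F = ∑ η ∈ P, a η * F η

/-- a choice of signs -/
def Sgn (ε : ℕ → ℝ) : Prop := ∀ k, ε k = 1 ∨ ε k = -1

/-- all signed finite sums are bounded by `C` on the test class `K` -/
def Bdd {E : Type} (K : Set (E → ℝ)) (Λ : ℕ → (E → ℝ) →ₗ[ℝ] ℝ) (C : ℝ) : Prop :=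
  ∀ (A : Finset ℕ) (ε : ℕ → ℝ), Sgn ε → ∀ F ∈ K, ∑ k ∈ A, ε k * Λ k F ≤ C

/-- the sequence tends to zero (from above) uniformly on the test class `K` -/
def Null {E : Type} (K : Set (E → ℝ)) (Λ : ℕ → (E → ℝ) →ₗ[ℝ] ℝ) : Prop :=
  ∀ c : ℝ, 0 < c → ∀ᶠ k in atTop, ∀ F ∈ K, Λ k F ≤ c

/-- `L`-Lipschitz real function -/
def Lip {E : Type} [NormedAddCommGroup E] (L : ℝ) (F : E → ℝ) : Prop :=
  ∀ x y, |F x - F y| ≤ L * ‖x - y‖

/-- weighted finite combinations of members of the classes `K τ` -/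
def comb {E T : Type} (w : T → ℝ) (K : T → Set (E → ℝ)) : Set (E → ℝ) :=
  {F | ∃ (D : Finset T) (f : T → E → ℝ), (∀ τ ∈ D, f τ ∈ K τ) ∧ F = ∑ τ ∈ D, w τ • f τ}

end Vale.Agent.P124
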