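import Vale.Agent.P124.Rep

/-! P124: the three gluing situations for sequences of atoms. -/

open Filter Topology

namespace Vale.Agent.P124

def IsAtom (q : ℕ) (a : EE → ℝ) : Prop :=
  ∃ (n : ℕ) (σ : Cell n) (d : AD n), AD.Good q σ d ∧ a = fun η => d.ev σ (XX η)

theorem IsAtom.lip {q : ℕ} {a : EE → ℝ} (h : IsAtom q a) : Lip (LL q) a := by
  obtain ⟨n, σ, d, hd, rfl⟩ := h; exact hd.lip

theorem IsAtom.zero_apply {q : ℕ} {a : EE → ℝ} (h : IsAtom q a) : a 0 = 0 := by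
  obtain ⟨n, σ, d, hd, rfl⟩ := h; exact hd.ev_zero

theorem IsAtom.smul {q : ℕ} {a : EE → ℝ} (h : IsAtom q a) {r : ℝ} (hr : |r| ≤ 1) :
    IsAtom q (r • a) := by
  obtain ⟨n, σ, d, hd, rfl⟩ := h
  exact ⟨n, σ, d.scal r, hd.scal hr, funext fun η => (AD.ev_scal d r σ _).symm⟩

theorem IsAtom.zero {q : ℕ} {a : EE → ℝ} (h : IsAtom q a) : IsAtom q 0 := by
  simpa using h.smul (r := 0) (by simp)

/-- normalised Lipschitz sums of `N` differences of atoms of generation `q` -/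
def KA (q N : ℕ) : Set (EE → ℝ) :=
  {F | Lip 1 F ∧ ∃ a a' : ℕ → EE → ℝ, (∀ l, IsAtom q (a l)) ∧ (∀ l, IsAtom q (a' l)) ∧
    (2 * LL q) • F = ∑ l ∈ Finset.range N, (a l - a' l)}

theorem final_step {Λ : ℕ → (EE → ℝ) →ₗ[ℝ] ℝ} {q N : ℕ} {C c : ℝ} (hB : Bdd (KA q N) Λ C)
    (κ : ℕ → ℕ) (hκ : Function.Injective κ) (a a' : ℕ → EE → ℝ) (ha : ∀ l, IsAtom q (a l))
    (ha' : ∀ l, IsAtom q (a' l)) (S : ℕ → Set EE)
    (h1 : ∀ l < N, ∀ x, x ∉ S l → ∀ᶠ y in 𝓝 x, (a l - a' l) y = (a l - a' l) x)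
    (h2 : ∀ l l', l < l' → l' < N → ∀ x ∈ S l', ∀ᶠ y in 𝓝 x, (a l - a' l) y = (a l - a' l) x)
    (hc : ∀ l < N, c ≤ Λ (κ l) (a l - a' l)) : N * c ≤ 2 * LL q * C := by
  classical
  have hL := LL_pos q
  obtain ⟨ε, hε, hs⟩ := signs (fun l l' => Λ (κ l) (a l' - a' l')) N
  have hlip := glue (fun l => a l - a' l) N (2 * LL q) (by positivity) (fun l _ x y => by
    have e1 := (ha l).lip x y
    have e2 := (ha' l).lip x y
    have e : (a l - a' l) x - (a l - a' l) y = (a l x - a l y) - (a' l x - a' l y) := by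
      simp only [Pi.sub_apply]; ring
    rw [e]
    exact (abs_sub _ _).trans (by linarith)) S h1 h2 ε hε
  set G : EE → ℝ := ∑ l ∈ Finset.range N, ε l • (a l - a' l) with hG
  have hmem : (2 * LL q)⁻¹ • G ∈ KA q N := by
    refine ⟨fun x y => ?_, fun l => if ε l = 1 then a l else a' l,
      fun l => if ε l = 1 then a' l else a l, fun l => ?_, fun l => ?_, ?_⟩
    · have := hlip x y
      simp only [Pi.smul_apply, smul_eq_mul, hG, Finset.sum_apply] at this ⊢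
      rw [← mul_sub, abs_mul, abs_of_pos (by positivity), inv_mul_le_iff₀ (by positivity)]
      linarith
    · beta_reduce; split_ifs; exacts [ha l, ha' l]
    · beta_reduce; split_ifs; exacts [ha' l, ha l]
    · rw [smul_inv_smul₀ (by positivity), hG]
      refine Finset.sum_congr rfl fun l _ => ?_
      rcases hε l with h | h
      · simp [h]
      · have : ε l ≠ 1 := by rw [h]; norm_num
        simp only [this, if_false]
        rw [h]; simp
  have hb := hB.chain κ hκ N ε hε _ hmem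
  simp only [map_smul, smul_eq_mul, hG, map_sum] at hb
  have e : ∑ l ∈ Finset.range N, ε l * ((2 * LL q)⁻¹ *
      ∑ l' ∈ Finset.range N, ε l' * Λ (κ l) (a l' - a' l')) = (2 * LL q)⁻¹ *
      ∑ l ∈ Finset.range N, ∑ l' ∈ Finset.range N, ε l * (ε l' * Λ (κ l) (a l' - a' l')) := by
    rw [Finset.mul_sum]
    refine Finset.sum_congr rfl fun l _ => ?_
    rw [← Finset.mul_sum]; ring
  rw [e, inv_mul_le_iff₀ (by positivity)] at hb
  have h3 : (N : ℝ) * c ≤ ∑ l ∈ Finset.range N, Λ (κ l) (a l - a' l) := by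
    have := Finset.card_nsmul_le_sum (Finset.range N) _ c
      (fun l hl => hc l (Finset.mem_range.1 hl))
    simpa using this
  linarith

theorem Lip.continuous {E : Type} [NormedAddCommGroup E] {F : E → ℝ} (h : Lip 1 F) :
    Continuous F :=
  (LipschitzWith.of_dist_le' (K := 1) fun x y => by
    rw [Real.dist_eq, dist_eq_norm]; exact h x y).continuous

/-- the closed set carrying the atoms of a cell -/
def Supp {n : ℕ} (σ : Cell n) : Set EE := {η | Box σ (tl n η) (fun κ => XX η (en κ))}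

theorem isClosed_supp {n : ℕ} (σ : Cell n) : IsClosed (Supp σ) := by
  have h1 := (tl_lip n).continuous
  have h2 : IsClosed (⋂ κ : Fin n, {η : EE |
      |XX η (en κ) - σ.1 κ * (wt κ * rho σ.2)| ≤ 3 * (wt κ * rho σ.2)}) :=
    isClosed_iInter fun κ =>
      isClosed_le (((XX_lip _).continuous.sub continuous_const).abs) continuous_const
  convert (isClosed_le (continuous_const (y := th0 * rho σ.2)) h1).inter
    ((isClosed_le h1 (continuous_const (y := 2 * bb ^ 2 * rho σ.2))).inter h2) using 1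
  ext η
  simp [Supp, Box]

theorem AD.Good.loc {n q : ℕ} {σ : Cell n} {d : AD n} (h : AD.Good q σ d) {x : EE}
    (hx : x ∉ Supp σ) : ∀ᶠ y in 𝓝 x, d.ev σ (XX y) = d.ev σ (XX x) := by
  have h0 : ∀ y, y ∉ Supp σ → d.ev σ (XX y) = 0 := fun y hy => by
    by_contra hne; exact hy (h.supp hne)
  filter_upwards [(isClosed_supp σ).isOpen_compl.mem_nhds hx] with y hy
  rw [h0 y hy, h0 x hx]

theorem chain' (U : Filter ℕ) [U.NeBot] (hU : U ≤ atTop) (R : ℕ → ℕ → Prop)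
    (h : ∀ᶠ k in U, ∀ᶠ k' in U, R k k') :
    ∃ κ : ℕ → ℕ, StrictMono κ ∧ ∀ l l', l < l' → R (κ l) (κ l') := by
  obtain ⟨κ, hκ⟩ := chain U (fun k k' => k < k' ∧ R k k')
    (h.mono fun k hk => ((eventually_gt_atTop k).filter_mono hU).and hk)
  exact ⟨κ, fun l l' hl => (hκ l l' hl).1, fun l l' hl => (hκ l l' hl).2⟩

section

variable {Λ : ℕ → (EE → ℝ) →ₗ[ℝ] ℝ} {q N : ℕ} {C c : ℝ} (U : Filter ℕ) [U.NeBot]
  {n : ℕ → ℕ} {σ : ∀ k, Cell (n k)} {d : ∀ k, AD (n k)}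

theorem case_disj (hU : U ≤ atTop) (hG : ∀ k, AD.Good q (σ k) (d k))
    (hc : ∀ᶠ k in U, c < Λ k (fun η => (d k).ev (σ k) (XX η)))
    (hd : ∀ᶠ k in U, ∀ᶠ k' in U, Disjoint (Supp (σ k)) (Supp (σ k')))
    (hB : Bdd (KA (q + 1) N) Λ C) : N * c ≤ 2 * LL (q + 1) * C := by
  obtain ⟨κ, hκ, hR⟩ := chain' U hU (fun k k' => c < Λ k (fun η => (d k).ev (σ k) (XX η)) ∧
    Disjoint (Supp (σ k)) (Supp (σ k'))) 
    ((hc.and hd).mono fun k hk => hk.2.mono fun k' hk' => ⟨hk.1, hk'⟩)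
  have ha : ∀ l, IsAtom (q + 1) (fun η => (d (κ l)).ev (σ (κ l)) (XX η)) := fun l =>
    ⟨_, _, _, (hG (κ l)).succ, rfl⟩
  refine final_step hB κ hκ.injective _ (fun _ => 0) ha (fun _ => (ha 0).zero)
    (fun l => Supp (σ (κ l))) (fun l _ x hx => ?_) (fun l l' hl _ x hx => ?_) (fun l _ => ?_)
  · simpa using (hG (κ l)).loc hx
  · simpa using (hG (κ l)).loc (fun hx' => Set.disjoint_left.1 (hR l l' hl).2 hx' hx)
  · simpa using (hR l (l + 1) (Nat.lt_succ_self l)).1.le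

theorem case_cut (hU : U ≤ atTop) (hΛ : ∀ k, FinSupp (Λ k)) (hG : ∀ k, AD.Good q (σ k) (d k))
    (hc : ∀ᶠ k in U, c < Λ k (fun η => (d k).ev (σ k) (XX η)))
    (hρ : ∀ᶠ k in U, ∀ᶠ k' in U, rho (σ k).2 ≤ rho (σ k').2)
    (hT : ∀ M, ∀ᶠ k in U, ∃ d' : AD (n k), AD.Good q (σ k) d' ∧ d'.A ⊆ (d k).A ∧
      Λ k (fun η => d'.ev (σ k) (XX η)) ≤ c / 2 ∧
      ∀ η, tl M η < th q * rho (σ k).2 → d'.ev (σ k) (XX η) = (d k).ev (σ k) (XX η))
    (hB : Bdd (KA (q + 1) N) Λ C) : N * (c / 2) ≤ 2 * LL (q + 1) * C := by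
  choose P w hP using hΛ
  have ha : ∀ k, 0 < th q * rho (σ k).2 := fun k => mul_pos (th_pos q) (rho_pos _)
  have hM : ∀ k, ∃ M, k ≤ M ∧ M ∉ (d k).A ∧ ∀ η ∈ P k, tl M η ≤ th q * rho (σ k).2 / 2 := by
    intro k
    have e1 : ∀ᶠ M in atTop, ∀ η ∈ P k, tl M η ≤ th q * rho (σ k).2 / 2 :=
      (eventually_all_finset _).2 fun η _ =>
        (tl_tendsto η).eventually (ge_mem_nhds (half_pos (ha k)))
    have e2 : ∀ᶠ M in atTop, M ∉ (d k).A := by
      rw [← Nat.cofinite_eq_atTop]; exact (d k).A.eventually_cofinite_notMem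
    exact ((eventually_ge_atTop k).and (e2.and e1)).exists
  choose M hM1 hM2 hM3 using hM
  obtain ⟨κ, hκ, hR⟩ := chain' U hU (fun k k' => c < Λ k (fun η => (d k).ev (σ k) (XX η)) ∧
    rho (σ k).2 ≤ rho (σ k').2 ∧ M k ≤ k' ∧ ∃ d' : AD (n k'), AD.Good q (σ k') d' ∧
      d'.A ⊆ (d k').A ∧ Λ k' (fun η => d'.ev (σ k') (XX η)) ≤ c / 2 ∧
      ∀ η, tl (M k) η < th q * rho (σ k').2 → d'.ev (σ k') (XX η) = (d k').ev (σ k') (XX η))
    ((hc.and hρ).mono fun k hk => by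
      filter_upwards [hk.2, hT (M k), (eventually_ge_atTop (M k)).filter_mono hU] with k' a1 a2 a3
      exact ⟨hk.1, a1, a3, a2⟩)
  choose d' hd1 hd2 hd3 hd4 using fun l => (hR l (l + 1) (Nat.lt_succ_self l)).2.2.2
  have e1 : ∀ l η, ((d (κ (l + 1))).cut (M (κ (l + 1))) (th q * rho (σ (κ (l + 1))).2)).ev
      (σ (κ (l + 1))) (XX η) - ((d' l).cut (M (κ (l + 1))) (th q * rho (σ (κ (l + 1))).2)).ev
      (σ (κ (l + 1))) (XX η) = chi (th q * rho (σ (κ (l + 1))).2) (tl (M (κ (l + 1))) η) *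
        ((d (κ (l + 1))).ev (σ (κ (l + 1))) (XX η) - (d' l).ev (σ (κ (l + 1))) (XX η)) := by
    intro l η
    rw [AD.ev_cut _ (hM2 _), AD.ev_cut _ (fun h => hM2 _ (hd2 l h)), mul_sub]
    rfl
  refine final_step hB (fun l => κ (l + 1)) (fun l l' h => Nat.succ_injective (hκ.injective h))
    _ _ (fun l => ⟨_, _, _, (hG (κ (l + 1))).cut (M (κ (l + 1))), rfl⟩)
    (fun l => ⟨_, _, _, (hd1 l).cut (M (κ (l + 1))), rfl⟩)
    (fun l => {η | th q * rho (σ (κ (l + 1))).2 ≤ tl (M (κ l)) η})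
    (fun l _ x hx => ?_) (fun l l' hl _ x hx => ?_) (fun l _ => ?_)
  · simp only [Set.mem_ofPred_eq, not_le] at hx
    filter_upwards [(tl_lip _).continuous.continuousAt.eventually (gt_mem_nhds hx)] with y hy
    simp only [Pi.sub_apply]
    rw [e1, e1, hd4 l y hy, hd4 l x hx, sub_self, sub_self, mul_zero, mul_zero]
  · have b1 : M (κ (l + 1)) ≤ M (κ l') := by
      rcases (Nat.succ_le_of_lt hl).eq_or_lt with h | h
      · rw [← h]
      · exact (hR _ _ h).2.2.1.trans (hM1 _)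
    have b2 := mul_le_mul_of_nonneg_left (hR (l + 1) (l' + 1) (Nat.succ_lt_succ hl)).2.1
      (th_pos q).le
    have b3 : 3 * (th q * rho (σ (κ (l + 1))).2) / 4 < tl (M (κ (l + 1))) x := by
      have := tl_anti b1 x
      have hx' : th q * rho (σ (κ (l' + 1))).2 ≤ tl (M (κ l')) x := hx
      linarith [ha (κ (l + 1))]
    filter_upwards [(tl_lip _).continuous.continuousAt.eventually (lt_mem_nhds b3)] with y hy
    simp only [Pi.sub_apply]
    rw [e1, e1, chi_zero (ha _) hy.le, chi_zero (ha _) b3.le, zero_mul, zero_mul]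
  · have b1 := (hR (l + 1) (l + 2) (Nat.lt_succ_self _)).1
    have b2 := hd3 l
    rw [hP] at b1 b2 ⊢
    have b3 : ∑ η ∈ P (κ (l + 1)), w (κ (l + 1)) η * (d (κ (l + 1))).ev (σ (κ (l + 1))) (XX η) -
        ∑ η ∈ P (κ (l + 1)), w (κ (l + 1)) η * (d' l).ev (σ (κ (l + 1))) (XX η) ≥ c / 2 := by
      linarith
    refine b3.le.trans (le_of_eq ?_)
    rw [← Finset.sum_sub_distrib]
    refine Finset.sum_congr rfl fun η hη => ?_
    simp only [Pi.sub_apply]
    rw [e1, chi_one (ha _) (hM3 _ η hη)]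
    ring

end

end Vale.Agent.P124
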