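import Vale.Agent.P124.Space

/-! P124: the bi-Lipschitz map `E → c₀ × E`. -/

open Filter Topology
open scoped ZeroAtInfty

namespace Vale.Agent.P124

noncomputable def lamE (p : EE) {n : ℕ} (σ : Cell n) : ℝ :=
  lam σ (tl n p) (fun κ => XX p (en κ))

noncomputable def uE (p : EE) {n : ℕ} (σ : Cell n) : ℝ :=
  uu σ (tl n p) (fun κ => XX p (en κ))

noncomputable def beta (p ξ : EE) (n : ℕ) : Fib := ∑' σ : Cell n, lamE p σ • ξ ⟨n, σ⟩

/-- a finite set of cells carrying the partition of unity at `p` -/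
theorem exists_carrier (p : EE) (n : ℕ) : ∃ D₀ : Finset (Cell n), ∀ D : Finset (Cell n), D₀ ⊆ D →
    (∀ σ, σ ∉ D → uE p σ = 0) ∧ ∑ σ ∈ D, lamE p σ = 1 ∧
      ∀ ξ : EE, beta p ξ n = ∑ σ ∈ D, lamE p σ • ξ ⟨n, σ⟩ := by
  obtain ⟨D₀, h0, h1⟩ := lam_fin n (tl n p) (fun κ => XX p (en κ))
  have hl : ∀ σ, σ ∉ D₀ → lamE p σ = 0 := by
    intro σ hσ
    unfold lamE
    rw [← lam_mul_uu, h0 σ hσ, mul_zero]
  refine ⟨D₀, fun D hD => ⟨fun σ hσ => h0 σ fun h => hσ (hD h), ?_, fun ξ => ?_⟩⟩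
  · rw [← h1]
    exact (Finset.sum_subset hD fun σ _ hσ => hl σ hσ).symm
  · unfold beta
    apply tsum_eq_sum
    intro σ hσ
    rw [hl σ fun h => hσ (hD h), zero_smul]

theorem norm_beta_le (p ξ : EE) (n : ℕ) {B : ℝ} (h : ∀ σ : Cell n, ‖ξ ⟨n, σ⟩‖ ≤ B) :
    ‖beta p ξ n‖ ≤ B := by
  obtain ⟨D, hD⟩ := exists_carrier p n
  obtain ⟨-, h1, h2⟩ := hD D subset_rfl
  rw [h2]
  calc _ ≤ ∑ σ ∈ D, lamE p σ * B := by
        refine (norm_sum_le _ _).trans (Finset.sum_le_sum fun σ _ => ?_)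
        have h3 : 0 ≤ lamE p σ := lam_nonneg _ _ _
        rw [norm_smul, Real.norm_of_nonneg h3]
        exact mul_le_mul_of_nonneg_left (h σ) h3
    _ = B := by rw [← Finset.sum_mul, h1, one_mul]

theorem Psi_shift_le (v : Fib) : ‖shift v‖ ≤ ‖v‖ := by
  have := norm_eq_shift v
  have := abs_nonneg (v 0)
  linarith

theorem Psi_head_le (v : Fib) : |v 0| ≤ ‖v‖ := by
  have := norm_eq_shift v
  have := norm_nonneg (shift v)
  linarith

theorem Psi_sub_shift_le (v : Fib) : ‖v - shift v‖ ≤ 2 * ‖v‖ := by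
  have := norm_sub_le v (shift v)
  have := Psi_shift_le v
  linarith

theorem Psi_tens_le (p : EE) {n : ℕ} (σ : Cell n) (v : Fib) :
    ‖uE p σ • (v - shift v)‖ ≤ 2 * ‖v‖ := by
  have h0 : 0 ≤ uE p σ := uu_nonneg _ _ _
  have h1 : uE p σ ≤ 1 := uu_le_one _ _ _
  rw [norm_smul, Real.norm_of_nonneg h0]
  exact (mul_le_of_le_one_left (norm_nonneg _) h1).trans (Psi_sub_shift_le v)

theorem tendsto_tens (p : EE) (b : ℕ → Fib) (hb : Tendsto b atTop (𝓝 0)) :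
    Tendsto (fun i : Idx => uE p i.2 • (b i.1 - shift (b i.1))) cofinite (𝓝 0) := by
  refine tendsto_of_levels _ (fun n => 2 * ‖b n‖) ?_ (fun n σ => Psi_tens_le p σ (b n)) fun n => ?_
  · simpa using hb.norm.const_mul 2
  · obtain ⟨D, hD⟩ := exists_carrier p n
    refine D.finite_toSet.subset fun σ hσ => ?_
    by_contra h
    apply hσ
    simp only [(hD D subset_rfl).1 σ h, zero_smul]

theorem tendsto_beta (p ξ : EE) : Tendsto (beta p ξ) atTop (𝓝 0) := by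
  exact squeeze_zero_norm (fun n => norm_beta_le p ξ n fun σ => le_tl le_rfl ξ σ) (tl_tendsto ξ)

theorem tendsto_head (η : EE) : Tendsto (fun n => beta η η n 0) cofinite (𝓝 0) := by
  rw [Nat.cofinite_eq_atTop]
  refine squeeze_zero_norm (fun n => Psi_head_le (beta η η n)) ?_
  simpa using (tendsto_beta η η).norm

noncomputable def gam (η : EE) : EE :=
  mkC (fun i : Idx => uE η i.2 • (beta η η i.1 - shift (beta η η i.1)))
    (tendsto_tens η _ (tendsto_beta η η))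

noncomputable def xx (η : EE) : C₀(ℕ, ℝ) := mkC (fun n => beta η η n 0) (tendsto_head η)

theorem Psi_beta_sub (p ξ ξ' : EE) (n : ℕ) :
    beta p (ξ - ξ') n = beta p ξ n - beta p ξ' n := by
  obtain ⟨D, hD⟩ := exists_carrier p n
  obtain ⟨-, -, h2⟩ := hD D subset_rfl
  rw [h2, h2, h2, ← Finset.sum_sub_distrib]
  refine Finset.sum_congr rfl fun σ _ => ?_
  rw [← smul_sub]
  rfl

theorem Psi_beta_add (p ξ ξ' : EE) (n : ℕ) :
    beta p (ξ + ξ') n = beta p ξ n + beta p ξ' n := by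
  obtain ⟨D, hD⟩ := exists_carrier p n
  obtain ⟨-, -, h2⟩ := hD D subset_rfl
  rw [h2, h2, h2, ← Finset.sum_add_distrib]
  refine Finset.sum_congr rfl fun σ _ => ?_
  rw [← smul_add]
  rfl

theorem Psi_beta_tens (p ξ : EE) (n : ℕ) (v : Fib)
    (h : ∀ σ : Cell n, ξ ⟨n, σ⟩ = uE p σ • v) : beta p ξ n = v := by
  obtain ⟨D, hD⟩ := exists_carrier p n
  obtain ⟨-, h1, h2⟩ := hD D subset_rfl
  rw [h2]
  calc ∑ σ ∈ D, lamE p σ • ξ ⟨n, σ⟩ = ∑ σ ∈ D, lamE p σ • v := by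
        refine Finset.sum_congr rfl fun σ _ => ?_
        rw [h σ, smul_smul]
        congr 1
        exact lam_mul_uu _ _ _
    _ = v := by rw [← Finset.sum_smul, h1, one_smul]

theorem Psi_uE_diff (p p' : EE) {n : ℕ} (σ : Cell n) {m : ℝ} (hm : 0 ≤ m) (h : m ≤ tl n p)
    (h' : m ≤ tl n p') : |uE p σ - uE p' σ| * m ≤ ‖p - p'‖ / 50 := by
  refine uu_diff σ hm h h' ?_ fun κ => ?_
  · simpa using tl_lip n p p'
  · simpa using XX_lip (en κ) p p'

theorem Psi_beta_diff (p p' ξ : EE) (n : ℕ) {m k : ℝ} (hm : 0 ≤ m) (hk : 0 ≤ k)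
    (h : m ≤ tl n p) (h' : m ≤ tl n p') (hξ : ∀ σ : Cell n, ‖ξ ⟨n, σ⟩‖ ≤ k * m) :
    ‖beta p ξ n - beta p' ξ n‖ ≤ k * (‖p - p'‖ / 50) := by
  classical
  obtain ⟨D, hD⟩ := exists_carrier p n
  obtain ⟨D', hD'⟩ := exists_carrier p' n
  have h1 : (∑ σ ∈ D ∪ D', |lamE p σ - lamE p' σ|) * m ≤ ‖p - p'‖ / 50 := by
    refine lam_diff (D ∪ D') hm h h' ?_ fun κ => ?_
    · simpa using tl_lip n p p'
    · simpa using XX_lip (en κ) p p'
  rw [(hD (D ∪ D') Finset.subset_union_left).2.2, (hD' (D ∪ D') Finset.subset_union_right).2.2,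
    ← Finset.sum_sub_distrib]
  calc _ ≤ ∑ σ ∈ D ∪ D', |lamE p σ - lamE p' σ| * (k * m) := by
        refine (norm_sum_le _ _).trans (Finset.sum_le_sum fun σ _ => ?_)
        rw [← sub_smul, norm_smul, Real.norm_eq_abs]
        exact mul_le_mul_of_nonneg_left (hξ σ) (abs_nonneg _)
    _ = k * ((∑ σ ∈ D ∪ D', |lamE p σ - lamE p' σ|) * m) := by
        rw [← Finset.sum_mul]
        ring
    _ ≤ _ := mul_le_mul_of_nonneg_left h1 hk

theorem Psi_beta_two (p p' ξ ξ' : EE) (n : ℕ) {m k : ℝ} (hm : 0 ≤ m) (hk : 0 ≤ k)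
    (h : m ≤ tl n p) (h' : m ≤ tl n p') (hξ : ∀ σ : Cell n, ‖ξ' ⟨n, σ⟩‖ ≤ k * m) :
    ‖beta p ξ n - beta p' ξ' n‖ ≤ ‖ξ - ξ'‖ + k * (‖p - p'‖ / 50) := by
  have h1 := Psi_beta_diff p p' ξ' n hm hk h h' hξ
  have h2 : ‖beta p ξ n - beta p ξ' n‖ ≤ ‖ξ - ξ'‖ := by
    rw [← Psi_beta_sub]
    exact norm_beta_le _ _ _ fun σ => c0_apply_le _ _
  have h3 := norm_sub_le_norm_sub_add_norm_sub (beta p ξ n) (beta p ξ' n) (beta p' ξ' n)
  linarith

theorem Psi_bb_diff (η η' : EE) (n : ℕ) :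
    ‖beta η η n - beta η' η' n‖ ≤ ‖η - η'‖ + ‖η - η'‖ / 50 := by
  have key : ∀ η η' : EE, tl n η' ≤ tl n η →
      ‖beta η η n - beta η' η' n‖ ≤ ‖η - η'‖ + ‖η - η'‖ / 50 := by
    intro η η' h
    have := Psi_beta_two η η' η η' n (tl_nonneg n η') zero_le_one h le_rfl
      (fun σ => by simpa using le_tl le_rfl η' σ)
    simpa using this
  rcases le_total (tl n η') (tl n η) with h | h
  · exact key η η' h
  · rw [norm_sub_rev, norm_sub_rev η]
    exact key η' η h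

theorem Psi_tens_diff (p p' : EE) {n : ℕ} (σ : Cell n) (b b' : Fib) {m k : ℝ} (hm : 0 ≤ m)
    (hk : 0 ≤ k) (h : m ≤ tl n p) (h' : m ≤ tl n p') (hb : ‖b'‖ ≤ k * m) :
    ‖uE p σ • (b - shift b) - uE p' σ • (b' - shift b')‖ ≤
      2 * ‖b - b'‖ + 2 * k * (‖p - p'‖ / 50) := by
  have e : uE p σ • (b - shift b) - uE p' σ • (b' - shift b') =
      uE p σ • ((b - b') - shift (b - b')) + (uE p σ - uE p' σ) • (b' - shift b') := by
    rw [map_sub]
    module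
  rw [e]
  refine (norm_add_le _ _).trans (add_le_add (Psi_tens_le p σ _) ?_)
  have h1 := Psi_uE_diff p p' σ hm h h'
  have h2 := Psi_sub_shift_le b'
  rw [norm_smul, Real.norm_eq_abs]
  calc _ ≤ |uE p σ - uE p' σ| * (2 * (k * m)) := by
        apply mul_le_mul_of_nonneg_left _ (abs_nonneg _)
        linarith
    _ = 2 * k * (|uE p σ - uE p' σ| * m) := by ring
    _ ≤ _ := mul_le_mul_of_nonneg_left h1 (by positivity)

theorem Psi_gam_diff (η η' : EE) {n : ℕ} (σ : Cell n) (h : tl n η' ≤ tl n η) :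
    ‖gam η ⟨n, σ⟩ - gam η' ⟨n, σ⟩‖ ≤
      2 * ‖beta η η n - beta η' η' n‖ + 2 * (‖η - η'‖ / 50) := by
  have := Psi_tens_diff η η' σ (beta η η n) (beta η' η' n) (tl_nonneg n η') zero_le_one h le_rfl
    (by
      rw [one_mul]
      exact norm_beta_le _ _ _ fun σ => le_tl le_rfl η' σ)
  rw [mul_one] at this
  exact this

theorem gam_lip (η η' : EE) : ‖gam η - gam η'‖ ≤ 3 * ‖η - η'‖ := by
  refine c0_norm_le _ (by positivity) ?_
  rintro ⟨n, σ⟩
  have key : ∀ η η' : EE, tl n η' ≤ tl n η →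
      ‖gam η ⟨n, σ⟩ - gam η' ⟨n, σ⟩‖ ≤ 3 * ‖η - η'‖ := by
    intro η η' h
    have h1 := Psi_gam_diff η η' σ h
    have h2 := Psi_bb_diff η η' n
    have := norm_nonneg (η - η')
    linarith
  change ‖gam η ⟨n, σ⟩ - gam η' ⟨n, σ⟩‖ ≤ _
  rcases le_total (tl n η') (tl n η) with h | h
  · exact key η η' h
  · rw [norm_sub_rev, norm_sub_rev η]
    exact key η' η h

theorem xx_lip (η η' : EE) : ‖xx η - xx η'‖ ≤ 2 * ‖η - η'‖ := by
  refine c0_norm_le _ (by positivity) fun n => ?_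
  have h1 := Psi_bb_diff η η' n
  have h2 := Psi_head_le (beta η η n - beta η' η' n)
  have := norm_nonneg (η - η')
  change |(beta η η n - beta η' η' n) 0| ≤ _
  linarith

theorem Psi_beta_w (η : EE) (n : ℕ) : beta η (η - gam η) n = shift (beta η η n) := by
  rw [Psi_beta_sub, Psi_beta_tens η (gam η) n (beta η η n - shift (beta η η n)) fun σ => rfl,
    sub_sub_cancel]

theorem psi_colip (η η' : EE) :
    ‖η - η'‖ ≤ 10 * max ‖xx η - xx η'‖ ‖(η - gam η) - (η' - gam η')‖ := by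
  have key : ∀ η η' : EE, ∀ (n : ℕ) (σ : Cell n), tl n η' ≤ tl n η →
      ‖η ⟨n, σ⟩ - η' ⟨n, σ⟩‖ ≤ 5 * max ‖xx η - xx η'‖ ‖(η - gam η) - (η' - gam η')‖ +
        8 * (‖η - η'‖ / 50) := by
    intro η η' n σ h
    have hD1 := le_max_left ‖xx η - xx η'‖ ‖(η - gam η) - (η' - gam η')‖
    have hD2 := le_max_right ‖xx η - xx η'‖ ‖(η - gam η) - (η' - gam η')‖
    have h1 := Psi_beta_two η η' (η - gam η) (η' - gam η') n (tl_nonneg n η')
      (by norm_num : (0 : ℝ) ≤ 3) h le_rfl (by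
        intro σ
        have a1 := le_tl le_rfl η' σ
        have a2 : ‖gam η' ⟨n, σ⟩‖ ≤ 2 * ‖beta η' η' n‖ := Psi_tens_le η' σ _
        have a3 : ‖beta η' η' n‖ ≤ tl n η' := norm_beta_le _ _ _ fun σ => le_tl le_rfl η' σ
        have a4 := norm_sub_le (η' ⟨n, σ⟩) (gam η' ⟨n, σ⟩)
        change ‖η' ⟨n, σ⟩ - gam η' ⟨n, σ⟩‖ ≤ _
        linarith)
    rw [Psi_beta_w, Psi_beta_w, ← map_sub] at h1
    have h2 := norm_eq_shift (beta η η n - beta η' η' n)
    have h3 : |(beta η η n - beta η' η' n) 0| ≤ ‖xx η - xx η'‖ := c0_apply_le (xx η - xx η') n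
    have h4 := Psi_gam_diff η η' σ h
    have h5 : ‖(η ⟨n, σ⟩ - gam η ⟨n, σ⟩) - (η' ⟨n, σ⟩ - gam η' ⟨n, σ⟩)‖ ≤
        ‖(η - gam η) - (η' - gam η')‖ := c0_apply_le ((η - gam η) - (η' - gam η')) ⟨n, σ⟩
    have h6 : η ⟨n, σ⟩ - η' ⟨n, σ⟩ = ((η ⟨n, σ⟩ - gam η ⟨n, σ⟩) - (η' ⟨n, σ⟩ - gam η' ⟨n, σ⟩)) +
        (gam η ⟨n, σ⟩ - gam η' ⟨n, σ⟩) := by abel
    have h7 := norm_add_le ((η ⟨n, σ⟩ - gam η ⟨n, σ⟩) - (η' ⟨n, σ⟩ - gam η' ⟨n, σ⟩))
      (gam η ⟨n, σ⟩ - gam η' ⟨n, σ⟩)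
    rw [← h6] at h7
    linarith
  have hD : 0 ≤ max ‖xx η - xx η'‖ ‖(η - gam η) - (η' - gam η')‖ :=
    (norm_nonneg _).trans (le_max_left _ _)
  have h : ‖η - η'‖ ≤ 5 * max ‖xx η - xx η'‖ ‖(η - gam η) - (η' - gam η')‖ +
      8 * (‖η - η'‖ / 50) := by
    refine c0_norm_le _ (by positivity) ?_
    rintro ⟨n, σ⟩
    change ‖η ⟨n, σ⟩ - η' ⟨n, σ⟩‖ ≤ _
    rcases le_total (tl n η') (tl n η) with h | h
    · exact key η η' n σ h
    · rw [norm_sub_rev, norm_sub_rev η, norm_sub_rev (xx η), norm_sub_rev (η - gam η)]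
      exact key η' η n σ h
  linarith

theorem Psi_norm_cons (a : ℝ) (v : Fib) : ‖cons a v‖ = |a| + ‖v‖ := by
  rw [norm_eq_shift, cons_zero, shift_cons]

/-- the prescribed block averages -/
noncomputable def PsiB (x : C₀(ℕ, ℝ)) (w η : EE) (n : ℕ) : Fib := cons (x n) (beta η w n)

theorem Psi_tendsto_B (x : C₀(ℕ, ℝ)) (w η : EE) : Tendsto (PsiB x w η) atTop (𝓝 0) := by
  rw [tendsto_zero_iff_norm_tendsto_zero]
  simp only [PsiB, Psi_norm_cons]
  have h1 : Tendsto x atTop (𝓝 0) := by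
    have := x.zero_at_infty'
    rwa [cocompact_eq_cofinite, Nat.cofinite_eq_atTop] at this
  simpa using h1.abs.add (tendsto_beta η w).norm

/-- the map whose fixed points invert `psi` -/
noncomputable def PsiT (x : C₀(ℕ, ℝ)) (w η : EE) : EE :=
  w + mkC (fun i : Idx => uE η i.2 • (PsiB x w η i.1 - shift (PsiB x w η i.1)))
    (tendsto_tens η _ (Psi_tendsto_B x w η))

theorem Psi_T_apply (x : C₀(ℕ, ℝ)) (w η : EE) {n : ℕ} (σ : Cell n) :
    PsiT x w η ⟨n, σ⟩ = w ⟨n, σ⟩ + uE η σ • (PsiB x w η n - shift (PsiB x w η n)) := rfl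

theorem Psi_beta_T (x : C₀(ℕ, ℝ)) (w η : EE) (n : ℕ) :
    beta η (PsiT x w η) n = PsiB x w η n := by
  rw [PsiT, Psi_beta_add,
    Psi_beta_tens η (mkC _ _) n (PsiB x w η n - shift (PsiB x w η n)) fun σ => rfl]
  rw [PsiB, shift_cons]
  abel

theorem psi_surj (x : C₀(ℕ, ℝ)) (w : EE) : ∃ η : EE, xx η = x ∧ η - gam η = w := by
  let S : Set EE := {η | ∀ n, |x n| ≤ 3 * tl n η ∧ ∀ σ : Cell n, ‖w ⟨n, σ⟩‖ ≤ 3 * tl n η}
  have hc : ∀ n, Continuous (tl n) := by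
    intro n
    refine (LipschitzWith.of_dist_le_mul (K := 1) fun a b => ?_).continuous
    rw [Real.dist_eq, dist_eq_norm]
    simpa using tl_lip n a b
  have hS : IsClosed S := by
    simp only [S, Set.ofPred_forall, Set.ofPred_and]
    refine isClosed_iInter fun n => IsClosed.inter ?_ (isClosed_iInter fun σ => ?_)
    · exact isClosed_le continuous_const (continuous_const.mul (hc n))
    · exact isClosed_le continuous_const (continuous_const.mul (hc n))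
  have hT : ∀ η, PsiT x w η ∈ S := by
    intro η n
    have h1 : ‖PsiB x w η n‖ ≤ tl n (PsiT x w η) := by
      rw [← Psi_beta_T]
      exact norm_beta_le _ _ _ fun σ => le_tl le_rfl _ σ
    have h0 := tl_nonneg n (PsiT x w η)
    refine ⟨?_, fun σ => ?_⟩
    · have h2 := Psi_head_le (PsiB x w η n)
      rw [PsiB, cons_zero] at h2
      rw [PsiB] at h1
      linarith
    · have h2 := le_tl le_rfl (PsiT x w η) σ
      have h3 := Psi_tens_le η σ (PsiB x w η n)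
      have h4 : w ⟨n, σ⟩ = PsiT x w η ⟨n, σ⟩ - uE η σ • (PsiB x w η n - shift (PsiB x w η n)) := by
        rw [Psi_T_apply, add_sub_cancel_right]
      have h5 := norm_sub_le (PsiT x w η ⟨n, σ⟩)
        (uE η σ • (PsiB x w η n - shift (PsiB x w η n)))
      rw [← h4] at h5
      linarith
  have key : ∀ η η' : EE, η' ∈ S → ∀ (n : ℕ) (σ : Cell n), tl n η' ≤ tl n η →
      ‖PsiT x w η ⟨n, σ⟩ - PsiT x w η' ⟨n, σ⟩‖ ≤ 1 / 2 * ‖η - η'‖ := by
    intro η η' hη' n σ h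
    rw [Psi_T_apply, Psi_T_apply, add_sub_add_left_eq_sub]
    have h1 := Psi_beta_diff η η' w n (tl_nonneg n η') (by norm_num : (0 : ℝ) ≤ 3) h le_rfl
      (hη' n).2
    have h2 : ‖PsiB x w η n - PsiB x w η' n‖ = ‖beta η w n - beta η' w n‖ := by
      rw [norm_eq_shift, map_sub]
      simp only [PsiB, shift_cons]
      have : (cons (x n) (beta η w n) - cons (x n) (beta η' w n)) 0 =
          cons (x n) (beta η w n) 0 - cons (x n) (beta η' w n) 0 := rfl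
      rw [this, cons_zero, cons_zero, sub_self, abs_zero, zero_add]
    have h3 : ‖PsiB x w η' n‖ ≤ 6 * tl n η' := by
      rw [PsiB, Psi_norm_cons]
      have a1 := (hη' n).1
      have a2 := norm_beta_le η' w n (hη' n).2
      linarith
    have h4 := Psi_tens_diff η η' σ (PsiB x w η n) (PsiB x w η' n) (tl_nonneg n η')
      (by norm_num : (0 : ℝ) ≤ 6) h le_rfl h3
    have := norm_nonneg (η - η')
    linarith
  have hmaps : Set.MapsTo (PsiT x w) S S := fun η _ => hT η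
  have hcon : ContractingWith (1 / 2) (hmaps.restrict (PsiT x w) S S) := by
    refine ⟨by norm_num, LipschitzWith.of_dist_le_mul ?_⟩
    rintro ⟨η, hη⟩ ⟨η', hη'⟩
    change dist (PsiT x w η) (PsiT x w η') ≤ ((1 / 2 : NNReal) : ℝ) * dist η η'
    rw [dist_eq_norm, dist_eq_norm]
    push_cast
    refine c0_norm_le _ (by positivity) ?_
    rintro ⟨n, σ⟩
    change ‖PsiT x w η ⟨n, σ⟩ - PsiT x w η' ⟨n, σ⟩‖ ≤ _
    rcases le_total (tl n η') (tl n η) with h | h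
    · exact key η η' hη' n σ h
    · rw [norm_sub_rev, norm_sub_rev η]
      exact key η' η hη n σ h
  obtain ⟨η, -, hfix, -⟩ := hcon.exists_fixedPoint' hS.isComplete hmaps (hT 0) (edist_ne_top _ _)
  have hfix' : PsiT x w η = η := hfix
  have hb : ∀ n, beta η η n = PsiB x w η n := by
    intro n
    have := Psi_beta_T x w η n
    rwa [hfix'] at this
  refine ⟨η, ?_, ?_⟩
  · ext n
    change beta η η n 0 = x n
    rw [hb, PsiB, cons_zero]
  · apply ZeroAtInftyContinuousMap.ext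
    rintro ⟨n, σ⟩
    have h1 := Psi_T_apply x w η σ
    rw [hfix'] at h1
    change η ⟨n, σ⟩ - uE η σ • (beta η η n - shift (beta η η n)) = w ⟨n, σ⟩
    rw [hb, h1, add_sub_cancel_right]

end Vale.Agent.P124
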