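import Vale.Agent.P124.NoC0
import Vale.Agent.P124.Psi

/-! P124: the test class. -/

open Filter Topology

namespace Vale.Agent.P124

abbrev TT : Type := (ℕ × ℕ) ⊕ (Σ n : ℕ, Cell n × Cell n × ℕ × ℕ)

theorem exists_weights : ∃ w : TT → ℝ, (∀ τ, 0 < w τ) ∧ Summable w ∧
    ∀ D : Finset TT, ∑ τ ∈ D, w τ ≤ 1 := by
  obtain ⟨w, h1, c, h2, h3⟩ := NNReal.exists_pos_sum_of_countable (ε := 1) one_ne_zero TT
  have h4 : HasSum (fun τ => (w τ : ℝ)) c := NNReal.hasSum_coe.2 h2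
  refine ⟨fun τ => w τ, fun τ => h1 τ, h4.summable, fun D => ?_⟩
  exact (sum_le_hasSum D (fun τ _ => (w τ).2) h4).trans (by exact_mod_cast h3.le)

noncomputable def KT (w : TT → ℝ) : TT → Set (EE → ℝ)
  | Sum.inl x => KA x.1 ⌈((x.2 : ℝ) + 1) / w (Sum.inl x)⌉₊
  | Sum.inr x => KL x.2.1 x.2.2.1 x.2.2.2.1 x.2.2.2.2

theorem KT_lip (w : TT → ℝ) (τ : TT) (F : EE → ℝ) (hF : F ∈ KT w τ) : Lip 1 F ∧ F 0 = 0 := by
  rcases τ with x | x
  · obtain ⟨h1, a, a', ha, ha', h⟩ := hF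
    refine ⟨h1, ?_⟩
    have := congrFun h 0
    simp only [Pi.smul_apply, smul_eq_mul, Finset.sum_apply, Pi.sub_apply, (ha _).zero_apply,
      (ha' _).zero_apply, sub_self, Finset.sum_const_zero] at this
    exact (mul_eq_zero.1 this).resolve_left (by have := LL_pos x.1; positivity)
  · obtain ⟨m, -, h, -⟩ := KL_spec x.2.1 x.2.2.1 x.2.2.2.1 x.2.2.2.2
    exact h F hF

theorem KT_null {w : TT → ℝ} (hw : ∀ τ, 0 < w τ) {Λ : ℕ → (EE → ℝ) →ₗ[ℝ] ℝ} {C : ℝ}
    (hΛ : ∀ k, FinSupp (Λ k)) (hB : Bdd (comb w (KT w)) Λ C) (τ : TT) : Null (KT w τ) Λ := by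
  have hL : ∀ (q n : ℕ) (σ σ' : Cell n) (M : ℕ), Null (KL σ σ' q M) Λ := fun q n σ σ' M => by
    obtain ⟨m, -, -, -, h⟩ := KL_spec σ σ' q M
    exact h Λ _ (hB.of_comb (Sum.inr ⟨n, σ, σ', q, M⟩) (hw _))
  rcases τ with ⟨q, s⟩ | x
  · have hA := atoms_null hΛ q (hL q) (fun c hc => by
      obtain ⟨s, hs⟩ := exists_nat_gt (2 * LL (q + 1) * C / c)
      have h0 := hw (Sum.inl (q + 1, s))
      refine ⟨_, _, hB.of_comb (Sum.inl (q + 1, s)) h0, ?_⟩
      have h1 := mul_le_mul_of_nonneg_right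
        (Nat.le_ceil (((s : ℝ) + 1) / w (Sum.inl (q + 1, s)))) hc.le
      refine lt_of_lt_of_le ?_ h1
      rw [div_lt_iff₀ hc] at hs
      rw [← mul_div_assoc, div_mul_eq_mul_div]
      exact div_lt_div_of_pos_right (by linarith) h0)
    intro c hc
    set N := ⌈((s : ℝ) + 1) / w (Sum.inl (q, s))⌉₊
    have hL0 := LL_pos q
    filter_upwards [hA (LL q * c / (N + 1)) (by positivity)] with k hk F hF
    obtain ⟨-, a, a', ha, ha', h⟩ := hF
    have e := congrArg (Λ k) h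
    rw [map_smul, map_sum, smul_eq_mul] at e
    have e2 : ∑ l ∈ Finset.range N, Λ k (a l - a' l) ≤ 2 * LL q * c := by
      refine (Finset.sum_le_card_nsmul _ _ (2 * (LL q * c / (N + 1))) fun l _ => ?_).trans ?_
      · have b1 := hk _ (ha l)
        have b2 := hk _ ((ha' l).smul (r := -1) (by simp))
        rw [map_smul, smul_eq_mul] at b2
        rw [map_sub]; linarith
      · rw [Finset.card_range, nsmul_eq_mul]
        refine (mul_le_mul_of_nonneg_right (by linarith : (N : ℝ) ≤ N + 1) (by positivity)).trans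
          (le_of_eq ?_)
        field_simp
    exact le_of_mul_le_mul_left (e.trans_le e2) (by positivity)
  · exact hL _ _ _ _ _

theorem core : ∃ (K : Set (EE → ℝ)) (A : ℝ), 0 < A ∧ (∀ F ∈ K, Lip 1 F ∧ F 0 = 0) ∧
    (∀ a, IsAtom 0 a → ∃ F ∈ K, a = A • F) ∧
    ∀ (Λ : ℕ → (EE → ℝ) →ₗ[ℝ] ℝ) (C : ℝ), (∀ k, FinSupp (Λ k)) → Bdd K Λ C → Null K Λ := by
  obtain ⟨w, hw, hs, h1⟩ := exists_weights
  have hL := LL_pos 0
  have hw0 := hw (Sum.inl (0, 0))
  refine ⟨comb w (KT w), 2 * LL 0 / w (Sum.inl (0, 0)), by positivity, ?_, fun a ha => ?_,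
    fun Λ C hΛ hB => hump w hw hs _ Λ C (fun k => ?_) (fun τ c hc => ?_) hB⟩
  · rintro F ⟨D, f, hf, rfl⟩
    refine ⟨fun x y => ?_, ?_⟩
    · simp only [Finset.sum_apply, Pi.smul_apply, smul_eq_mul]
      rw [← Finset.sum_sub_distrib]
      refine (Finset.abs_sum_le_sum_abs _ _).trans ?_
      calc ∑ τ ∈ D, |w τ * f τ x - w τ * f τ y| ≤ ∑ τ ∈ D, w τ * (1 * ‖x - y‖) := by
            refine Finset.sum_le_sum fun τ hτ => ?_
            rw [← mul_sub, abs_mul, abs_of_pos (hw τ)]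
            exact mul_le_mul_of_nonneg_left ((KT_lip w τ _ (hf τ hτ)).1 x y) (hw τ).le
        _ = (∑ τ ∈ D, w τ) * (1 * ‖x - y‖) := by rw [Finset.sum_mul]
        _ ≤ _ := mul_le_of_le_one_left (by positivity) (h1 D)
    · simp only [Finset.sum_apply, Pi.smul_apply, smul_eq_mul]
      exact Finset.sum_eq_zero fun τ hτ => by rw [(KT_lip w τ _ (hf τ hτ)).2, mul_zero]
  · have hmem : (2 * LL 0)⁻¹ • a ∈ KT w (Sum.inl (0, 0)) := by
      refine ⟨fun x y => ?_, fun l => if l = 0 then a else 0, fun _ => 0, fun l => ?_,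
        fun _ => ha.zero, ?_⟩
      · have := ha.lip x y
        simp only [Pi.smul_apply, smul_eq_mul]
        rw [← mul_sub, abs_mul, abs_of_pos (by positivity), inv_mul_le_iff₀ (by positivity)]
        nlinarith [norm_nonneg (x - y)]
      · beta_reduce; split_ifs; exacts [ha, ha.zero]
      · rw [smul_inv_smul₀ (by positivity)]
        simp only [sub_zero]
        rw [Finset.sum_ite_eq', if_pos]
        exact Finset.mem_range.2 (Nat.ceil_pos.2 (by positivity))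
    refine ⟨_, ⟨{Sum.inl (0, 0)}, fun _ => (2 * LL 0)⁻¹ • a, fun τ hτ => ?_, rfl⟩, ?_⟩
    · rw [Finset.mem_singleton.1 hτ]; exact hmem
    · rw [Finset.sum_singleton, smul_smul, smul_smul]
      have : 2 * LL 0 / w (Sum.inl (0, 0)) * w (Sum.inl (0, 0)) * (2 * LL 0)⁻¹ = 1 := by
        field_simp
      rw [this, one_smul]
  · obtain ⟨P, a, hP⟩ := hΛ k
    refine ⟨∑ η ∈ P, |a η| * ‖η‖, fun τ f hf => ?_⟩
    rw [hP]
    refine (Finset.abs_sum_le_sum_abs _ _).trans (Finset.sum_le_sum fun η _ => ?_)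
    have := (KT_lip w τ f hf).1 η 0
    rw [(KT_lip w τ f hf).2, sub_zero, sub_zero, one_mul] at this
    rw [abs_mul]
    exact mul_le_mul_of_nonneg_left this (abs_nonneg _)
  · have hΛ' : ∀ k, FinSupp (-Λ k) := fun k => by
      obtain ⟨P, a, hP⟩ := hΛ k
      exact ⟨P, fun η => -a η, fun F => by simp [hP]⟩
    filter_upwards [KT_null hw hΛ hB τ c hc, KT_null hw hΛ' hB.neg τ c hc] with k b1 b2 f hf
    have b3 := b2 f hf
    rw [LinearMap.neg_apply] at b3
    exact abs_le.2 ⟨by linarith, b1 f hf⟩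

/-- the basic atoms -/
def lin {n : ℕ} (D : Finset (Cell n)) (m : ℕ) (s : ℕ → ℝ) : AD n :=
  ⟨∅, fun _ _ => 1, D, m, fun _ i t => s i * t, fun t => t, fun _ t => t⟩

theorem good_lin {n : ℕ} (σ : Cell n) (D : Finset (Cell n)) (m : ℕ) {s : ℕ → ℝ}
    (hs : ∀ i, |s i| ≤ 1) : AD.Good 0 σ (lin D m s) where
  card := le_rfl
  f1 := fun _ _ => by simp [lin]
  f2 := fun _ _ _ => by simp [lin]
  f3 := fun _ _ _ _ _ => rfl
  f4 := fun _ _ _ _ _ => rfl
  g1 := fun _ i a b => by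
    show |s i * a - s i * b| ≤ _
    rw [← mul_sub, abs_mul]
    exact mul_le_of_le_one_left (abs_nonneg _) (hs i)
  g0 := fun _ _ => mul_zero _
  p1 := fun _ _ => le_rfl
  p2 := fun _ => by simp [lin, th_zero]
  p3 := fun _ _ _ => le_rfl
  p4 := fun _ _ => by simp [lin, th_zero]

theorem ev_lin {n : ℕ} (σ : Cell n) (D : Finset (Cell n)) (m : ℕ) {s : ℕ → ℝ}
    (hs : ∀ i, |s i| ≤ 1) (η : EE) : (lin D m s).ev σ (XX η) =
      uE η σ * ∑ σ' ∈ D, lamE η σ' * ∑ i ∈ Finset.range m, s i * η ⟨n, σ'⟩ i := by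
  have e : (lin D m s).ev σ (XX η) = uu σ (max (tl n η) (rho σ.2 / bb ^ 3)) (fun κ => XX η (en κ)) *
      ∑ σ' ∈ D, lam σ' (max (tl n η) (rho σ.2 / bb ^ 3)) (fun κ => XX η (en κ)) *
        ∑ i ∈ Finset.range m, s i * η ⟨n, σ'⟩ i := one_mul _
  rw [e]
  rcases le_total (rho σ.2 / bb ^ 3) (tl n η) with h | h
  · rw [max_eq_left h]; rfl
  · have hb := one_lt_bb
    have hρ := rho_pos σ.2
    have hlt : rho σ.2 / bb ^ 3 < rho σ.2 / bb ^ 2 :=
      div_lt_div_of_pos_left hρ (by positivity) (pow_lt_pow_right₀ hb (by norm_num))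
    have h0 : ∀ t, 0 < t → t ≤ rho σ.2 / bb ^ 3 → uu σ t (fun κ => XX η (en κ)) = 0 := by
      intro t h1 h2
      by_contra hne
      linarith [(uu_supp h1 hne).1]
    rw [max_eq_right h, h0 _ (by positivity) le_rfl, zero_mul]
    rcases (tl_nonneg n η).eq_or_lt with h1 | h1
    · refine (mul_eq_zero_of_right _ (Finset.sum_eq_zero fun σ' _ => ?_)).symm
      have := (good_lin σ D m hs).GG_le η σ'
      rw [← h1, abs_nonpos_iff] at this
      exact mul_eq_zero_of_right _ this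
    · exact (mul_eq_zero_of_left (h0 _ h1 h) _).symm

theorem c0_sum_apply {ι : Type} (P : Finset ι) (f : ι → EE) (i : Idx) :
    (∑ η ∈ P, f η) i = ∑ η ∈ P, f η i := by
  classical
  induction P using Finset.induction_on with
  | empty => simp
  | insert x t hx ih => rw [Finset.sum_insert hx, Finset.sum_insert hx, ← ih]; rfl

theorem gam_bound (P : Finset EE) (a : EE → ℝ) {B : ℝ} (hB : 0 ≤ B)
    (h : ∀ b, IsAtom 0 b → ∑ η ∈ P, a η * b η ≤ B) : ‖∑ η ∈ P, a η • gam η‖ ≤ 2 * B := by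
  classical
  refine c0_norm_le _ (by positivity) fun ⟨n, σ⟩ => norm_le_of_sum _ _ fun m => ?_
  set v : Fib := (∑ η ∈ P, a η • gam η) ⟨n, σ⟩ with hv
  choose D₀ hD₀ using fun η => exists_carrier η n
  set D := P.biUnion D₀
  set s : ℕ → ℝ := fun i => if 0 ≤ v i then 1 else -1 with hs
  have hs1 : ∀ i, |s i| ≤ 1 := fun i => by simp only [hs]; split_ifs <;> simp
  set s' : ℕ → ℝ := fun i => Nat.casesOn i 0 (fun i => -s i) with hs'
  have hs2 : ∀ i, |s' i| ≤ 1 := fun i => by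
    cases i with
    | zero => simp [hs']
    | succ i => simpa [hs'] using hs1 i
  have b1 := h _ ⟨n, σ, _, good_lin σ D m hs1, rfl⟩
  have b2 := h _ ⟨n, σ, _, good_lin σ D (m + 1) hs2, rfl⟩
  simp only [ev_lin σ D _ hs1, ev_lin σ D _ hs2] at b1 b2
  have hβ : ∀ η ∈ P, ∀ i, beta η η n i = ∑ σ' ∈ D, lamE η σ' * η ⟨n, σ'⟩ i := fun η hη i => by
    rw [(hD₀ η D (Finset.subset_biUnion_of_mem D₀ hη)).2.2 η, lp.coeFn_sum]
    simp
  have hvi : ∀ i, v i = ∑ η ∈ P, a η * (uE η σ * (beta η η n i - beta η η n (i + 1))) := by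
    intro i
    rw [hv, c0_sum_apply, lp.coeFn_sum, Finset.sum_apply]
    refine Finset.sum_congr rfl fun η _ => ?_
    rw [← shift_apply]
    rfl
  have e1 : ∑ i ∈ Finset.range m, |v i| = ∑ i ∈ Finset.range m, s i * v i :=
    Finset.sum_congr rfl fun i _ => by
      simp only [hs]
      split_ifs with hi
      · rw [abs_of_nonneg hi, one_mul]
      · rw [abs_of_neg (not_le.1 hi), neg_one_mul]
  rw [e1, two_mul]
  refine le_trans (le_of_eq ?_) (add_le_add b1 b2)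
  simp only [hvi, Finset.mul_sum, ← Finset.sum_add_distrib]
  rw [Finset.sum_comm]
  refine Finset.sum_congr rfl fun η hη => ?_
  simp only [hβ η hη, Finset.sum_range_succ', hs', ← Finset.sum_sub_distrib, Finset.mul_sum]
  rw [Finset.sum_comm]
  refine Finset.sum_congr rfl fun σ' _ => ?_
  simp only [Nat.rec_zero, zero_mul, mul_zero, add_zero, ← Finset.sum_add_distrib]
  refine Finset.sum_congr rfl fun i _ => ?_
  ring

end Vale.Agent.P124
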