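import Vale.Agent.P124.Core

/-! P124: the space `Y`, the bi-Lipschitz bijection `Y → c₀ × Y`, and the absence of `c₀`. -/

open Filter Topology
open scoped ZeroAtInfty ENNReal

namespace Vale.Agent.P124

theorem bilip {Y : Type} [NormedAddCommGroup Y] [NormedSpace ℝ Y] (π : Y →L[ℝ] EE) (G : EE → Y)
    (hπ : ∀ y, ‖π y‖ ≤ ‖y‖) (hG : ∀ η η', ‖G η - G η'‖ ≤ 3 * ‖η - η'‖)
    (hπG : ∀ η, π (G η) = gam η) :
    ∃ g : Y → C₀(ℕ, ℝ) × Y, Function.Bijective g ∧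
      ∀ y y', 1 / 31 * ‖y - y'‖ ≤ ‖g y - g y'‖ ∧ ‖g y - g y'‖ ≤ 4 * ‖y - y'‖ := by
  set g : Y → C₀(ℕ, ℝ) × Y := fun y => (xx (π y), y - G (π y)) with hg
  have key : ∀ y y', 1 / 31 * ‖y - y'‖ ≤ ‖g y - g y'‖ ∧ ‖g y - g y'‖ ≤ 4 * ‖y - y'‖ := by
    intro y y'
    have a0 : ‖π y - π y'‖ ≤ ‖y - y'‖ := by rw [← map_sub]; exact hπ _
    have a1 : ‖xx (π y) - xx (π y')‖ ≤ ‖g y - g y'‖ := norm_fst_le (g y - g y')
    have a2 : ‖(y - G (π y)) - (y' - G (π y'))‖ ≤ ‖g y - g y'‖ := norm_snd_le (g y - g y')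
    have a3 : ‖(π y - gam (π y)) - (π y' - gam (π y'))‖ ≤ ‖g y - g y'‖ := by
      refine le_trans (le_of_eq ?_) ((hπ _).trans a2)
      simp only [map_sub, hπG]
    have a4 := (psi_colip (π y) (π y')).trans
      (mul_le_mul_of_nonneg_left (max_le a1 a3) (by norm_num))
    have a5 := hG (π y) (π y')
    have e : y - y' = ((y - G (π y)) - (y' - G (π y'))) + (G (π y) - G (π y')) := by abel
    have e' : (y - G (π y)) - (y' - G (π y')) = (y - y') - (G (π y) - G (π y')) := by abel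
    have a6 := norm_add_le ((y - G (π y)) - (y' - G (π y'))) (G (π y) - G (π y'))
    rw [← e] at a6
    have a7 := norm_sub_le (y - y') (G (π y) - G (π y'))
    rw [← e'] at a7
    have a8 := xx_lip (π y) (π y')
    refine ⟨by linarith, ?_⟩
    rw [Prod.norm_def]
    have := norm_nonneg (y - y')
    refine max_le ?_ ?_
    · show ‖xx (π y) - xx (π y')‖ ≤ _
      linarith
    · show ‖(y - G (π y)) - (y' - G (π y'))‖ ≤ _
      linarith
  refine ⟨g, ⟨fun y y' h => ?_, fun ⟨x, y'⟩ => ?_⟩, key⟩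
  · have := (key y y').1
    rw [h, sub_self, norm_zero] at this
    exact sub_eq_zero.1 (norm_le_zero_iff.1 (by linarith))
  · obtain ⟨η, h1, h2⟩ := psi_surj x (π y')
    have h3 : π (y' + G η) = η := by rw [map_add, hπG, ← h2, sub_add_cancel]
    exact ⟨y' + G η, by simp only [hg, h3, h1, add_sub_cancel_right]⟩

/-- evaluation on the test class -/
noncomputable def G0 {K : Set (EE → ℝ)} (hK : ∀ F ∈ K, Lip 1 F ∧ F 0 = 0) (η : EE) :
    lp (fun _ : K => ℝ) ∞ :=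
  ⟨fun F => F.1 η, memℓp_infty ⟨‖η‖, by
    rintro _ ⟨F, rfl⟩
    simpa [(hK F.1 F.2).2] using (hK F.1 F.2).1 η 0⟩⟩

noncomputable def G1 {K : Set (EE → ℝ)} (hK : ∀ F ∈ K, Lip 1 F ∧ F 0 = 0) (η : EE) :
    EE × lp (fun _ : K => ℝ) ∞ := (gam η, G0 hK η)

theorem G1_lip {K : Set (EE → ℝ)} (hK : ∀ F ∈ K, Lip 1 F ∧ F 0 = 0) (η η' : EE) :
    ‖G1 hK η - G1 hK η'‖ ≤ 3 * ‖η - η'‖ := by
  rw [Prod.norm_def]
  refine max_le (gam_lip η η') (lp.norm_le_of_forall_le (by positivity) fun F => ?_)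
  have := (hK F.1 F.2).1 η η'
  have h0 := norm_nonneg (η - η')
  show |F.1 η - F.1 η'| ≤ _
  linarith

theorem perturb {W : Type} [NormedAddCommGroup W] [NormedSpace ℝ W] (y z : ℕ → W)
    (h : ∀ k, ‖y k - z k‖ ≤ (1 / 2) ^ k) (s : Finset ℕ) (ε : ℕ → ℝ) (hε : Sgn ε) {C : ℝ}
    (hC : ‖∑ k ∈ s, ε k • y k‖ ≤ C) : ‖∑ k ∈ s, ε k • z k‖ ≤ C + 2 := by
  have e2 : ∑ k ∈ s, ε k • z k = ∑ k ∈ s, ε k • y k - ∑ k ∈ s, ε k • (y k - z k) := by
    rw [← Finset.sum_sub_distrib]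
    exact Finset.sum_congr rfl fun k _ => by rw [smul_sub, sub_sub_cancel]
  have e3 : ‖∑ k ∈ s, ε k • (y k - z k)‖ ≤ 2 := by
    refine (norm_sum_le _ _).trans (le_trans (Finset.sum_le_sum fun k _ => ?_)
      (sum_le_hasSum s (fun _ _ => by positivity) hasSum_geometric_two))
    rw [norm_smul]
    rcases hε k with h' | h' <;> simpa [h'] using h k
  rw [e2]
  exact (norm_sub_le _ _).trans (add_le_add hC e3)

theorem no_c0 {K : Set (EE → ℝ)} (hK : ∀ F ∈ K, Lip 1 F ∧ F 0 = 0) {A : ℝ} (hA : 0 < A)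
    (hat : ∀ a, IsAtom 0 a → ∃ F ∈ K, a = A • F)
    (hN : ∀ (Λ : ℕ → (EE → ℝ) →ₗ[ℝ] ℝ) (C : ℝ), (∀ k, FinSupp (Λ k)) → Bdd K Λ C → Null K Λ)
    (y : ℕ → EE × lp (fun _ : K => ℝ) ∞)
    (hy : ∀ k, y k ∈ closure (Submodule.span ℝ (Set.range (G1 hK)) : Set _)) {C : ℝ}
    (hC : ∀ (s : Finset ℕ) (ε : ℕ → ℝ), Sgn ε → ‖∑ k ∈ s, ε k • y k‖ ≤ C) :
    Tendsto (fun k => ‖y k‖) atTop (𝓝 0) := by
  have h1 : ∀ k, ∃ μ : EE →₀ ℝ, ‖y k - ∑ η ∈ μ.support, μ η • G1 hK η‖ ≤ (1 / 2) ^ k := by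
    intro k
    obtain ⟨z, hz, h⟩ := Metric.mem_closure_iff.1 (hy k) ((1 / 2) ^ k) (by positivity)
    obtain ⟨μ, rfl⟩ := Finsupp.mem_span_range_iff_exists_finsupp.1 hz
    exact ⟨μ, by rw [← dist_eq_norm]; exact h.le⟩
  choose μ hμ using h1
  set z : ℕ → EE × lp (fun _ : K => ℝ) ∞ := fun k => ∑ η ∈ (μ k).support, μ k η • G1 hK η with hz
  set Λ : ℕ → (EE → ℝ) →ₗ[ℝ] ℝ := fun k =>
    ∑ η ∈ (μ k).support, μ k η • LinearMap.proj η with hΛ
  have hΛ1 : ∀ k F, Λ k F = ∑ η ∈ (μ k).support, μ k η * F η := fun k F => by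
    simp [hΛ]
  have hz2 : ∀ k (F : K), (z k).2 F = Λ k F := fun k F => by
    rw [hΛ1]
    simp only [hz, Prod.snd_sum, lp.coeFn_sum, Finset.sum_apply]
    rfl
  have hz1 : ∀ k, (z k).1 = ∑ η ∈ (μ k).support, μ k η • gam η := fun k => by
    simp only [hz, Prod.fst_sum]
    rfl
  have hF : ∀ k, FinSupp (Λ k) := fun k => ⟨_, _, hΛ1 k⟩
  have hF' : ∀ k, FinSupp (-Λ k) := fun k =>
    ⟨(μ k).support, fun η => -μ k η, fun F => by simp [hΛ1]⟩
  have hB : Bdd K Λ (C + 2) := by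
    intro s ε hε F hF
    have e1 : ∑ k ∈ s, ε k * Λ k F = (∑ k ∈ s, ε k • z k).2 ⟨F, hF⟩ := by
      simp only [Prod.snd_sum, lp.coeFn_sum, Finset.sum_apply]
      exact Finset.sum_congr rfl fun k _ => by rw [← hz2 k ⟨F, hF⟩]; rfl
    rw [e1]
    exact (le_abs_self _).trans ((lp.norm_apply_le_norm ENNReal.top_ne_zero
      (∑ k ∈ s, ε k • z k).2 ⟨F, hF⟩).trans ((norm_snd_le _).trans
        (perturb y z hμ s ε hε (hC s ε hε))))
  have hz0 : Tendsto (fun k => ‖z k‖) atTop (𝓝 0) := by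
    refine tendsto_order.2 ⟨fun c hc => Eventually.of_forall fun k =>
      hc.trans_le (norm_nonneg _), fun c hc => ?_⟩
    have hc' : 0 < c / (2 * A + 2) := by positivity
    filter_upwards [hN Λ _ hF hB _ hc', hN _ _ hF' hB.neg _ hc'] with k b1 b2
    have b3 : ‖(z k).1‖ ≤ 2 * (A * (c / (2 * A + 2))) := by
      rw [hz1]
      refine gam_bound _ _ (by positivity) fun b hb => ?_
      obtain ⟨F, hF, rfl⟩ := hat b hb
      rw [← hΛ1, map_smul, smul_eq_mul]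
      exact mul_le_mul_of_nonneg_left (b1 F hF) hA.le
    have b4 : ‖(z k).2‖ ≤ c / (2 * A + 2) := by
      refine lp.norm_le_of_forall_le hc'.le fun F => ?_
      have b5 := b2 F.1 F.2
      rw [LinearMap.neg_apply] at b5
      rw [hz2, Real.norm_eq_abs]
      exact abs_le.2 ⟨by linarith, b1 F.1 F.2⟩
    have e : (2 * A + 2) * (c / (2 * A + 2)) = c := by field_simp
    have b6 := mul_pos hA hc'
    rw [Prod.norm_def]
    exact max_lt (by linarith) (by linarith)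
  have h2 := hz0.add (tendsto_pow_atTop_nhds_zero_of_lt_one (r := (1 / 2 : ℝ)) (by norm_num)
    (by norm_num))
  rw [add_zero] at h2
  refine squeeze_zero (fun _ => norm_nonneg _) (fun k => ?_) h2
  have := norm_add_le (z k) (y k - z k)
  rw [add_sub_cancel] at this
  exact this.trans (add_le_add_right (hμ k) _)

/-- the unit vectors of `c₀` -/
noncomputable def ee (k : ℕ) : C₀(ℕ, ℝ) :=
  mkC (fun j => if j = k then 1 else 0) (tendsto_const_nhds.congr' (by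
    filter_upwards [eventually_cofinite_ne k] with j hj
    rw [if_neg hj]))

theorem ee_sum (s : Finset ℕ) (ε : ℕ → ℝ) (hε : Sgn ε) : ‖∑ k ∈ s, ε k • ee k‖ ≤ 1 := by
  refine c0_norm_le _ zero_le_one fun j => ?_
  have e : ∀ t : Finset ℕ, (∑ k ∈ t, ε k • ee k) j = ∑ k ∈ t, ε k * (if j = k then 1 else 0) := by
    intro t
    induction t using Finset.induction_on with
    | empty => simp
    | insert x t hx ih => rw [Finset.sum_insert hx, Finset.sum_insert hx, ← ih]; rfl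
  rw [e]
  simp only [mul_ite, mul_one, mul_zero, Finset.sum_ite_eq]
  split_ifs
  · rcases hε j with h | h <;> simp [h]
  · simp

theorem one_le_ee (k : ℕ) : 1 ≤ ‖ee k‖ := by
  simpa [ee] using c0_apply_le (ee k) k

theorem not_iso {Y : Type} [NormedAddCommGroup Y] [NormedSpace ℝ Y] [CompleteSpace Y]
    (h : ∀ (y : ℕ → Y) (C : ℝ), (∀ (s : Finset ℕ) (ε : ℕ → ℝ), Sgn ε →
      ‖∑ k ∈ s, ε k • y k‖ ≤ C) → Tendsto (fun k => ‖y k‖) atTop (𝓝 0)) :
    ¬ ∃ T : Y →L[ℝ] C₀(ℕ, ℝ) × Y, Function.Bijective T := by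
  rintro ⟨T, hT⟩
  obtain ⟨S, hS⟩ : ∃ S : C₀(ℕ, ℝ) →L[ℝ] Y, ∀ x, T (S x) = (x, 0) := by
    set e := ContinuousLinearEquiv.ofBijective T (LinearMap.ker_eq_bot.2 hT.1)
      (LinearMap.range_eq_top.2 hT.2)
    exact ⟨(e.symm : C₀(ℕ, ℝ) × Y →L[ℝ] Y).comp (ContinuousLinearMap.inl ℝ C₀(ℕ, ℝ) Y),
      fun x => e.apply_symm_apply (x, 0)⟩
  have h1 := h (fun k => S (ee k)) ‖S‖ (fun s ε hε => by
    have e1 : ∑ k ∈ s, ε k • S (ee k) = S (∑ k ∈ s, ε k • ee k) := by simp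
    rw [e1]
    exact (S.le_opNorm _).trans (mul_le_of_le_one_right (norm_nonneg _) (ee_sum s ε hε)))
  have h2 := h1.const_mul ‖T‖
  rw [mul_zero] at h2
  refine absurd (ge_of_tendsto' h2 fun k => ?_) (not_le.2 zero_lt_one)
  have e3 := T.le_opNorm (S (ee k))
  rw [hS] at e3
  exact (one_le_ee k).trans ((norm_fst_le ((ee k, 0) : C₀(ℕ, ℝ) × Y)).trans e3)

theorem main_aux {W : Type} [NormedAddCommGroup W] [NormedSpace ℝ W] [CompleteSpace W]
    (π : W →L[ℝ] EE) (G : EE → W) (hπ : ∀ y, ‖π y‖ ≤ ‖y‖)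
    (hG : ∀ η η', ‖G η - G η'‖ ≤ 3 * ‖η - η'‖) (hπG : ∀ η, π (G η) = gam η)
    (h : ∀ (y : ℕ → W), (∀ k, y k ∈ closure (Submodule.span ℝ (Set.range G) : Set W)) →
      ∀ C : ℝ, (∀ (s : Finset ℕ) (ε : ℕ → ℝ), Sgn ε → ‖∑ k ∈ s, ε k • y k‖ ≤ C) →
        Tendsto (fun k => ‖y k‖) atTop (𝓝 0)) :
    ∃ (X Y : Type) (_ : NormedAddCommGroup X) (_ : NormedSpace ℝ X)
    (_ : CompleteSpace X) (_ : TopologicalSpace.SeparableSpace X)
    (_ : NormedAddCommGroup Y) (_ : NormedSpace ℝ Y)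
    (_ : CompleteSpace Y) (_ : TopologicalSpace.SeparableSpace Y),
    (∃ (f : X → Y) (c C : ℝ), Function.Bijective f ∧ 0 < c ∧ c ≤ C ∧
      ∀ x x' : X, c * ‖x - x'‖ ≤ ‖f x - f x'‖ ∧ ‖f x - f x'‖ ≤ C * ‖x - x'‖) ∧
    ¬ ∃ T : X →L[ℝ] Y, Function.Bijective T := by
  set Y := (Submodule.span ℝ (Set.range G)).topologicalClosure with hY
  have hmem : ∀ η, G η ∈ Y := fun η =>
    Submodule.le_topologicalClosure _ (Submodule.subset_span ⟨η, rfl⟩)
  have : CompleteSpace Y := (Submodule.isClosed_topologicalClosure _).completeSpace_coe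
  have := separable_EE
  have hcont : Continuous G :=
    (LipschitzWith.of_dist_le' (K := 3) fun x y => by
      rw [dist_eq_norm, dist_eq_norm]; exact hG x y).continuous
  have : TopologicalSpace.SeparableSpace Y :=
    (TopologicalSpace.isSeparable_range hcont).span.closure.separableSpace
  obtain ⟨g, hg1, hg2⟩ := bilip (π.comp Y.subtypeL) (fun η => (⟨G η, hmem η⟩ : Y))
    (fun y => hπ y.1) hG hπG
  have hgc : Continuous g :=
    (LipschitzWith.of_dist_le' (K := 4) fun x y => by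
      rw [dist_eq_norm, dist_eq_norm]; exact (hg2 x y).2).continuous
  refine ⟨Y, C₀(ℕ, ℝ) × Y, inferInstance, inferInstance, inferInstance, inferInstance,
    inferInstance, inferInstance, inferInstance, hg1.2.denseRange.separableSpace hgc,
    ⟨g, 1 / 31, 4, hg1, by norm_num, by norm_num, hg2⟩, not_iso fun y C hC => ?_⟩
  refine h (fun k => (y k).1) (fun k => (y k).2) C fun s ε hε => ?_
  have e1 : ∑ k ∈ s, ε k • (y k).1 = (∑ k ∈ s, ε k • y k).1 := by simp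
  rw [e1]
  exact hC s ε hε

theorem main : ∃ (X Y : Type) (_ : NormedAddCommGroup X) (_ : NormedSpace ℝ X)
    (_ : CompleteSpace X) (_ : TopologicalSpace.SeparableSpace X)
    (_ : NormedAddCommGroup Y) (_ : NormedSpace ℝ Y)
    (_ : CompleteSpace Y) (_ : TopologicalSpace.SeparableSpace Y),
    (∃ (f : X → Y) (c C : ℝ), Function.Bijective f ∧ 0 < c ∧ c ≤ C ∧
      ∀ x x' : X, c * ‖x - x'‖ ≤ ‖f x - f x'‖ ∧ ‖f x - f x'‖ ≤ C * ‖x - x'‖) ∧
    ¬ ∃ T : X →L[ℝ] Y, Function.Bijective T := by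
  obtain ⟨K, A, hA, hK, hat, hN⟩ := core
  refine main_aux (W := EE × lp (fun _ : K => ℝ) ∞)
    (ContinuousLinearMap.fst ℝ EE (lp (fun _ : K => ℝ) ∞)) (G1 hK) ?_ ?_ ?_ ?_
  · exact fun y => norm_fst_le y
  · exact G1_lip hK
  · exact fun _ => rfl
  · exact fun y hy C hC => no_c0 hK hA hat hN y hy hC

end Vale.Agent.P124
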