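import Vale.Agent.P124.Cases

/-! P124: flattening of atoms on much smaller later cells. -/

open Filter Topology

namespace Vale.Agent.P124

theorem FinSupp.tol {Λ : (EE → ℝ) →ₗ[ℝ] ℝ} (hΛ : FinSupp Λ) {Φ : (Co → ℝ) → ℝ}
    (hΦ : Continuous Φ) {c : ℝ} (hc : c < Λ (fun η => Φ (XX η))) :
    ∃ τ : ℝ, 0 < τ ∧ ∀ ψ : Co → ℝ → ℝ, (∀ x s, |ψ x s - s| ≤ τ) →
      c < Λ (fun η => Φ (fun x => ψ x (XX η x))) := by
  obtain ⟨P, a, hP⟩ := hΛ
  by_contra hne
  push Not at hne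
  choose ψ h1 h2 using fun j : ℕ => hne (1 / ((j : ℝ) + 1)) (by positivity)
  have ht : Tendsto (fun j => Λ (fun η => Φ (fun x => ψ j x (XX η x)))) atTop
      (𝓝 (Λ (fun η => Φ (XX η)))) := by
    simp only [hP]
    refine tendsto_finsetSum _ fun η _ => Tendsto.const_mul _ ((hΦ.tendsto _).comp ?_)
    refine tendsto_pi_nhds.2 fun x => tendsto_iff_dist_tendsto_zero.2 ?_
    exact squeeze_zero (fun _ => dist_nonneg) (fun j => h1 j x _)
      tendsto_one_div_add_atTop_nhds_zero_nat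
  exact absurd (le_of_tendsto' ht h2) (not_le.2 hc)

theorem case_flat {Λ : ℕ → (EE → ℝ) →ₗ[ℝ] ℝ} {q N : ℕ} {C c : ℝ} (U : Filter ℕ) [U.NeBot]
    {n : ℕ → ℕ} {σ : ∀ k, Cell (n k)} {d : ∀ k, AD (n k)}
    (hU : U ≤ atTop) (hΛ : ∀ k, FinSupp (Λ k)) (hG : ∀ k, AD.Good q (σ k) (d k))
    (hc : ∀ᶠ k in U, c < Λ k (fun η => (d k).ev (σ k) (XX η)))
    (hn : ∀ M, ∀ᶠ k in U, M ≤ n k) (hρ : ∀ δ : ℝ, 0 < δ → ∀ᶠ k in U, rho (σ k).2 ≤ δ)
    (hB : Bdd (KA (q + 1) N) Λ C) : N * c ≤ 2 * LL (q + 1) * C := by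
  classical
  have hw : ∀ κ, 0 < wt κ := fun κ => zero_lt_one.trans_le (one_le_wt κ)
  have hτ : ∀ k, ∃ τ : ℝ, 0 < τ ∧ τ ≤ (th q - th (q + 1)) * rho (σ k).2 ∧
      (c < Λ k (fun η => (d k).ev (σ k) (XX η)) → ∀ ψ : Co → ℝ → ℝ, (∀ x s, |ψ x s - s| ≤ τ) →
        c < Λ k (fun η => (d k).ev (σ k) (fun x => ψ x (XX η x)))) := by
    intro k
    have h0 : 0 < (th q - th (q + 1)) * rho (σ k).2 :=
      mul_pos (by rw [th_succ]; linarith [th_pos q]) (rho_pos _)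
    by_cases h : c < Λ k (fun η => (d k).ev (σ k) (XX η))
    · obtain ⟨τ, h1, h2⟩ := (hΛ k).tol (hG k).continuous h
      exact ⟨min τ _, lt_min h1 h0, min_le_right _ _, fun _ ψ hψ =>
        h2 ψ fun x s => (hψ x s).trans (min_le_left _ _)⟩
    · exact ⟨_, h0, le_rfl, fun h' => absurd h' h⟩
  choose τ hτ0 hτ1 hτ2 using hτ
  choose Dep hDep using fun k => (d k).exists_dep (σ k)
  choose ix hix using en_surj
  obtain ⟨κ, hκ, hR⟩ := chain' U hU (fun k k' => c < Λ k (fun η => (d k).ev (σ k) (XX η)) ∧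
    ∀ x ∈ Dep k, ix x < n k' ∧ 2 * (4 * (wt (ix x) * rho (σ k').2)) ≤ τ k / (N + 1))
    (hc.mono fun k hk => by
      have : ∀ᶠ k' in U, ∀ x ∈ Dep k,
          ix x < n k' ∧ 2 * (4 * (wt (ix x) * rho (σ k').2)) ≤ τ k / (N + 1) := by
        refine (eventually_all_finset _).2 fun x _ => (hn (ix x + 1)).and ?_
        have h1 := hw (ix x)
        have h2 := hτ0 k
        filter_upwards [hρ (τ k / (N + 1) / (8 * wt (ix x))) (by positivity)] with k' hk'
        rw [le_div_iff₀ (by positivity)] at hk'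
        linarith
      exact this.mono fun k' hk' => ⟨hk, hk'⟩)
  choose ψ hψ1 hψ0 hψ2 hψ3 using fun (l : ℕ) (x : Co) =>
    flat (if x ∈ Dep (κ l) then Finset.Ioo l N else ∅)
      (fun l' => (if h : ix x < n (κ l') then ((σ (κ l')).1 ⟨ix x, h⟩ : ℝ) else 0) *
        (wt (ix x) * rho (σ (κ l')).2))
      (fun l' => 4 * (wt (ix x) * rho (σ (κ l')).2))
      (fun l' _ => by have := hw (ix x); have := rho_pos (σ (κ l')).2; positivity)
  have hdisp : ∀ l x s, |ψ l x s - s| ≤ τ (κ l) := by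
    intro l x s
    refine (hψ2 l x s).trans ?_
    by_cases hx : x ∈ Dep (κ l)
    · rw [if_pos hx]
      refine (Finset.sum_le_card_nsmul _ _ (τ (κ l) / (N + 1)) fun l' hl' =>
        ((hR l l' (Finset.mem_Ioo.1 hl').1).2 x hx).2).trans ?_
      have h1 : ((Finset.Ioo l N).card : ℝ) ≤ N + 1 := by
        rw [Nat.card_Ioo]; exact_mod_cast (by omega)
      have h2 := hτ0 (κ l)
      rw [nsmul_eq_mul]
      refine (mul_le_mul_of_nonneg_right h1 (by positivity)).trans (le_of_eq ?_)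
      field_simp
    · rw [if_neg hx]; simpa using (hτ0 (κ l)).le
  have hG' : ∀ l, AD.Good (q + 1) (σ (κ l)) ((d (κ l)).comp (ψ l)) := fun l =>
    (hG (κ l)).comp (hψ1 l) (hψ0 l) fun x s => (hdisp l x s).trans (hτ1 _)
  have ha : ∀ l, IsAtom (q + 1) (fun η => ((d (κ l)).comp (ψ l)).ev (σ (κ l)) (XX η)) := fun l =>
    ⟨_, _, _, hG' l, rfl⟩
  refine final_step hB κ hκ.injective _ (fun _ => 0) ha (fun _ => (ha 0).zero)
    (fun l => Supp (σ (κ l))) (fun l _ x hx => ?_) (fun l l' hl hl' η hη => ?_) (fun l _ => ?_)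
  · simpa using (hG' l).loc hx
  · have hρ' := rho_pos (σ (κ l')).2
    filter_upwards [Metric.ball_mem_nhds η hρ'] with η' hη'
    simp only [sub_zero, AD.ev_comp]
    refine hDep (κ l) _ _ fun x hx => ?_
    have h1 := ((hR l l' hl).2 x hx).1
    have h2 := hη.2.2 ⟨ix x, h1⟩
    simp only [hix] at h2
    have h3 : |XX η' x - XX η x| ≤ wt (ix x) * rho (σ (κ l')).2 := by
      have e1 := XX_lip x η' η
      rw [mem_ball_iff_norm] at hη'
      have e2 := le_mul_of_one_le_left hρ'.le (one_le_wt (ix x))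
      linarith
    have h4 := mul_pos (hw (ix x)) hρ'
    refine hψ3 l x l' (by rw [if_pos hx]; exact Finset.mem_Ioo.2 ⟨hl, hl'⟩) _ _ ?_ ?_
    · simp only [dif_pos h1]
      rw [abs_le] at h2 h3 ⊢
      constructor <;> linarith [h2.1, h2.2, h3.1, h3.2]
    · simp only [dif_pos h1]
      linarith
  · simpa [AD.ev_comp] using (hτ2 (κ l) (hR l (l + 1) (Nat.lt_succ_self l)).1 (ψ l) (hdisp l)).le

end Vale.Agent.P124
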