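import Vale.Agent.P124.Basic

/-! P124: elementary tools (gluing, signs, gliding hump, flattening, chains). -/

open Filter Topology

namespace Vale.Agent.P124

theorem glue_local {E : Type} [NormedAddCommGroup E] [NormedSpace ℝ E] (F : E → ℝ) (L : ℝ)
    (hF : Continuous F) (h : ∀ x, ∀ᶠ y in 𝓝 x, |F y - F x| ≤ L * ‖y - x‖) : Lip L F := by
  intro y x
  have hγ : Continuous fun t : ℝ => x + t • (y - x) := by fun_prop
  have key : Set.Icc (0 : ℝ) 1 ⊆ {t | |F (x + t • (y - x)) - F x| ≤ L * (t * ‖y - x‖)} := by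
    refine IsClosed.Icc_subset_of_forall_mem_nhdsWithin (IsClosed.inter ?_ isClosed_Icc)
      (by simp) ?_
    · exact isClosed_le (((hF.comp hγ).sub continuous_const).abs) (by fun_prop)
    · rintro t ⟨ht, -⟩
      have h1 := (hγ.tendsto t).eventually (h (x + t • (y - x)))
      filter_upwards [mem_nhdsWithin_of_mem_nhds h1, self_mem_nhdsWithin] with u hu hut
      have hut' : t < u := hut
      have e : x + u • (y - x) - (x + t • (y - x)) = (u - t) • (y - x) := by
        rw [sub_smul]; abel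
      rw [e, norm_smul, Real.norm_eq_abs, abs_of_pos (sub_pos.mpr hut')] at hu
      have ht' : |F (x + t • (y - x)) - F x| ≤ L * (t * ‖y - x‖) := ht
      have h3 := abs_sub_le (F (x + u • (y - x))) (F (x + t • (y - x))) (F x)
      have e2 : L * (u * ‖y - x‖) = L * ((u - t) * ‖y - x‖) + L * (t * ‖y - x‖) := by ring
      change |F (x + u • (y - x)) - F x| ≤ L * (u * ‖y - x‖)
      linarith
  have := key (Set.right_mem_Icc.mpr zero_le_one)
  simpa using this

theorem glue_clamp (lo hi : ℝ) (h : lo ≤ hi) (a b : ℝ) :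
    |(a - max lo (min a hi)) - (b - max lo (min b hi))| ≤ |a - b| := by
  have h1 := le_abs_self (a - b)
  have h2 := neg_abs_le (a - b)
  have h3 := abs_nonneg (a - b)
  rw [abs_le]
  simp only [max_def, min_def]
  split_ifs <;> constructor <;> linarith

theorem glue_abs_comb {E T : Type} (w : T → ℝ) (hw : ∀ τ, 0 < w τ) (Λ : (E → ℝ) →ₗ[ℝ] ℝ)
    (D : Finset T) (f : T → E → ℝ) (η : ℝ) (h : ∀ τ ∈ D, |Λ (f τ)| ≤ η) :
    |Λ (∑ τ ∈ D, w τ • f τ)| ≤ (∑ τ ∈ D, w τ) * η := by
  rw [map_sum, Finset.sum_mul]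
  refine (Finset.abs_sum_le_sum_abs _ _).trans (Finset.sum_le_sum fun τ hτ => ?_)
  rw [map_smul, smul_eq_mul, abs_mul, abs_of_pos (hw τ)]
  exact mul_le_mul_of_nonneg_left (h τ hτ) (hw τ).le

theorem glue {E : Type} [NormedAddCommGroup E] [NormedSpace ℝ E] (b : ℕ → E → ℝ) (N : ℕ)
    (L : ℝ) (hL : 0 ≤ L) (hb : ∀ l < N, Lip L (b l)) (S : ℕ → Set E)
    (h1 : ∀ l < N, ∀ x, x ∉ S l → ∀ᶠ y in 𝓝 x, b l y = b l x)
    (h2 : ∀ l l', l < l' → l' < N → ∀ x ∈ S l', ∀ᶠ y in 𝓝 x, b l y = b l x)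
    (ε : ℕ → ℝ) (hε : Sgn ε) :
    Lip L (fun x => ∑ l ∈ Finset.range N, ε l * b l x) := by
  have hcont : ∀ l < N, Continuous (b l) := fun l hl =>
    (LipschitzWith.of_dist_le' (K := L) fun x y => by
      rw [Real.dist_eq, dist_eq_norm]; exact hb l hl x y).continuous
  refine glue_local _ L (continuous_finsetSum _ fun l hl =>
    continuous_const.mul (hcont l (Finset.mem_range.mp hl))) fun x => ?_
  classical
  by_cases hx : ((Finset.range N).filter fun l => x ∈ S l).Nonempty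
  · obtain ⟨l0, hl0, hmax⟩ := Finset.exists_max_image _ id hx
    obtain ⟨hl0N, hl0S⟩ := Finset.mem_filter.mp hl0
    have h3 : ∀ᶠ y in 𝓝 x, ∀ l ∈ Finset.range N, l ≠ l0 → b l y = b l x := by
      rw [Filter.eventually_all_finset]
      intro l hl
      rcases lt_trichotomy l l0 with h | h | h
      · exact (h2 l l0 h (Finset.mem_range.mp hl0N) x hl0S).mono fun y hy _ => hy
      · exact Filter.Eventually.of_forall fun y hy => absurd h hy
      · refine (h1 l (Finset.mem_range.mp hl) x fun hS => ?_).mono fun y hy _ => hy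
        exact absurd (hmax l (Finset.mem_filter.mpr ⟨hl, hS⟩)) (not_le.mpr h)
    filter_upwards [h3] with y hy
    rw [← Finset.sum_sub_distrib, Finset.sum_eq_single_of_mem l0 hl0N
      (fun l hl hne => by rw [hy l hl hne, sub_self]), ← mul_sub, abs_mul]
    have h4 : |ε l0| = 1 := by rcases hε l0 with h | h <;> simp [h]
    rw [h4, one_mul]
    exact hb l0 (Finset.mem_range.mp hl0N) y x
  · have h3 : ∀ᶠ y in 𝓝 x, ∀ l ∈ Finset.range N, b l y = b l x := by
      rw [Filter.eventually_all_finset]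
      intro l hl
      exact h1 l (Finset.mem_range.mp hl) x fun hS => hx ⟨l, Finset.mem_filter.mpr ⟨hl, hS⟩⟩
    filter_upwards [h3] with y hy
    rw [Finset.sum_congr rfl fun l hl => by rw [hy l hl], sub_self, abs_zero]
    exact mul_nonneg hL (norm_nonneg _)

theorem signs (a : ℕ → ℕ → ℝ) (N : ℕ) : ∃ ε : ℕ → ℝ, Sgn ε ∧
    ∑ l ∈ Finset.range N, a l l ≤
      ∑ l ∈ Finset.range N, ∑ l' ∈ Finset.range N, ε l * (ε l' * a l l') := by
  induction N with
  | zero => exact ⟨fun _ => 1, fun _ => Or.inl rfl, by simp⟩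
  | succ N ih =>
    obtain ⟨ε, hε, h⟩ := ih
    obtain ⟨σ, hσ, hσ'⟩ : ∃ σ : ℝ, (σ = 1 ∨ σ = -1) ∧
        0 ≤ σ * ∑ l ∈ Finset.range N, ε l * (a l N + a N l) := by
      rcases le_total 0 (∑ l ∈ Finset.range N, ε l * (a l N + a N l)) with h0 | h0
      · exact ⟨1, Or.inl rfl, by linarith⟩
      · exact ⟨-1, Or.inr rfl, by linarith⟩
    have hσ2 : σ * σ = 1 := by rcases hσ with h | h <;> simp [h]
    refine ⟨Function.update ε N σ, fun k => ?_, ?_⟩
    · by_cases hk : k = N
      · rw [hk, Function.update_self]; exact hσ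
      · rw [Function.update_of_ne hk]; exact hε k
    · have hu : ∀ l ∈ Finset.range N, Function.update ε N σ l = ε l := fun l hl =>
        Function.update_of_ne (Finset.mem_range.mp hl).ne _ _
      have e1 : ∑ l ∈ Finset.range N, ∑ l' ∈ Finset.range (N + 1),
          Function.update ε N σ l * (Function.update ε N σ l' * a l l') =
          ∑ l ∈ Finset.range N, ∑ l' ∈ Finset.range N, ε l * (ε l' * a l l') +
            ∑ l ∈ Finset.range N, ε l * (σ * a l N) := by
        rw [← Finset.sum_add_distrib]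
        refine Finset.sum_congr rfl fun l hl => ?_
        rw [Finset.sum_range_succ, Function.update_self, hu l hl]
        exact congrArg (· + _) (Finset.sum_congr rfl fun l' hl' => by rw [hu l' hl'])
      have e2 : ∑ l' ∈ Finset.range N,
          Function.update ε N σ N * (Function.update ε N σ l' * a N l') =
          ∑ l' ∈ Finset.range N, σ * (ε l' * a N l') :=
        Finset.sum_congr rfl fun l' hl' => by rw [hu l' hl', Function.update_self]
      have e3 : σ * ∑ l ∈ Finset.range N, ε l * (a l N + a N l) =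
          ∑ l ∈ Finset.range N, ε l * (σ * a l N) + ∑ l' ∈ Finset.range N, σ * (ε l' * a N l') := by
        rw [Finset.mul_sum, ← Finset.sum_add_distrib]
        exact Finset.sum_congr rfl fun l _ => by ring
      rw [Finset.sum_range_succ, Finset.sum_range_succ (fun l => ∑ l' ∈ Finset.range (N + 1), _),
        e1, Finset.sum_range_succ (fun l' => Function.update ε N σ N * _), e2,
        Function.update_self, ← mul_assoc, hσ2, one_mul]
      linarith

theorem Bdd.chain {E : Type} {K : Set (E → ℝ)} {Λ : ℕ → (E → ℝ) →ₗ[ℝ] ℝ} {C : ℝ}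
    (h : Bdd K Λ C) (κ : ℕ → ℕ) (hκ : Function.Injective κ) (N : ℕ) (ε : ℕ → ℝ) (hε : Sgn ε)
    (F : E → ℝ) (hF : F ∈ K) : ∑ l ∈ Finset.range N, ε l * Λ (κ l) F ≤ C := by
  classical
  have h1 := h ((Finset.range N).image κ) (fun k => ε (Function.invFun κ k)) (fun k => hε _) F hF
  rw [Finset.sum_image fun _ _ _ _ e => hκ e] at h1
  simpa only [Function.leftInverse_invFun hκ _] using h1

theorem Bdd.neg {E : Type} {K : Set (E → ℝ)} {Λ : ℕ → (E → ℝ) →ₗ[ℝ] ℝ} {C : ℝ}
    (h : Bdd K Λ C) : Bdd K (fun k => -Λ k) C := by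
  intro A ε hε F hF
  have h1 := h A (fun k => -ε k) (fun k => by rcases hε k with e | e <;> simp [e]) F hF
  simpa only [LinearMap.neg_apply, mul_neg, neg_mul] using h1

theorem Bdd.of_comb {E T : Type} {w : T → ℝ} {K : T → Set (E → ℝ)}
    {Λ : ℕ → (E → ℝ) →ₗ[ℝ] ℝ} {C : ℝ} (h : Bdd (comb w K) Λ C) (τ : T) (hw : 0 < w τ) :
    Bdd (K τ) Λ (C / w τ) := by
  intro A ε hε F hF
  have h1 := h A ε hε (w τ • F) ⟨{τ}, fun _ => F, fun σ hσ => by
    rw [Finset.mem_singleton.mp hσ]; exact hF, by simp⟩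
  rw [le_div_iff₀ hw, Finset.sum_mul]
  refine le_trans (le_of_eq (Finset.sum_congr rfl fun k _ => ?_)) h1
  rw [map_smul, smul_eq_mul]
  ring

theorem hump {E T : Type} (w : T → ℝ) (hw : ∀ τ, 0 < w τ) (hs : Summable w)
    (K : T → Set (E → ℝ)) (Λ : ℕ → (E → ℝ) →ₗ[ℝ] ℝ) (C : ℝ)
    (hB : ∀ k, ∃ B, ∀ τ, ∀ f ∈ K τ, |Λ k f| ≤ B)
    (hn : ∀ τ, ∀ c : ℝ, 0 < c → ∀ᶠ k in atTop, ∀ f ∈ K τ, |Λ k f| ≤ c)
    (hC : Bdd (comb w K) Λ C) : Null (comb w K) Λ := by
  classical
  intro c hc
  by_contra hcon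
  have hfr : ∃ᶠ k in atTop, ∃ F ∈ comb w K, c < Λ k F := by
    rw [Filter.not_eventually] at hcon
    refine hcon.mono fun k hk => ?_
    push Not at hk
    exact hk
  choose B hB using hB
  have claim : ∀ r : ℕ, ∃ (A : Finset ℕ) (D : Finset T) (f : T → E → ℝ), (∀ τ ∈ D, f τ ∈ K τ) ∧
      r * (c / 2) ≤ ∑ k ∈ A, Λ k (∑ τ ∈ D, w τ • f τ) := by
    intro r
    induction r with
    | zero => exact ⟨∅, ∅, fun _ => 0, by simp, by simp⟩
    | succ r ih =>
      obtain ⟨A, D, f, hf, hr⟩ := ih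
      set M : ℝ := ∑ k ∈ A, |B k| with hM
      have hM0 : 0 ≤ M := Finset.sum_nonneg fun _ _ => abs_nonneg _
      obtain ⟨D1, hD1⟩ := (summable_iff_vanishing_norm.mp hs) (c / 6 / (M + 1)) (by positivity)
      set W : ℝ := ∑ τ ∈ D1 ∪ D, w τ with hW
      have hW0 : 0 ≤ W := Finset.sum_nonneg fun τ _ => (hw τ).le
      have hev : ∀ᶠ k in atTop, k ∉ A ∧
          ∀ τ ∈ D1 ∪ D, ∀ g ∈ K τ, |Λ k g| ≤ c / 6 / (W + 1) := by
        refine Filter.Eventually.and ?_ ?_
        · rw [← Nat.cofinite_eq_atTop]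
          exact A.eventually_cofinite_notMem
        · rw [Filter.eventually_all_finset]
          exact fun τ _ => hn τ _ (by positivity)
      obtain ⟨k, ⟨_, ⟨D2, g, hg, rfl⟩, hk⟩, hkA, hkη⟩ := (hfr.and_eventually hev).exists
      have hdisj : Disjoint D (D2 \ (D1 ∪ D)) :=
        Finset.disjoint_of_subset_left Finset.subset_union_right Finset.disjoint_sdiff
      have hsmall : ∀ (D' : Finset T) (u : T → E → ℝ), D' ⊆ D1 ∪ D → (∀ τ ∈ D', u τ ∈ K τ) →
          |Λ k (∑ τ ∈ D', w τ • u τ)| ≤ c / 6 := by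
        intro D' u hD' hu
        refine (glue_abs_comb w hw _ D' u _ fun τ hτ => hkη τ (hD' hτ) _ (hu τ hτ)).trans ?_
        have h1 : ∑ τ ∈ D', w τ ≤ W + 1 :=
          (Finset.sum_le_sum_of_subset_of_nonneg hD' fun τ _ _ => (hw τ).le).trans (by linarith)
        calc _ ≤ (W + 1) * (c / 6 / (W + 1)) := mul_le_mul_of_nonneg_right h1 (by positivity)
          _ = c / 6 := by field_simp
      refine ⟨insert k A, D ∪ (D2 \ (D1 ∪ D)), fun τ => if τ ∈ D then f τ else g τ, ?_, ?_⟩
      · intro τ hτ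
        by_cases h : τ ∈ D
        · simp only [if_pos h]; exact hf τ h
        · simp only [if_neg h]
          exact hg τ (Finset.mem_sdiff.mp ((Finset.mem_union.mp hτ).resolve_left h)).1
      · have e1 : ∑ τ ∈ D ∪ (D2 \ (D1 ∪ D)), w τ • (if τ ∈ D then f τ else g τ) =
            ∑ τ ∈ D, w τ • f τ + ∑ τ ∈ D2 \ (D1 ∪ D), w τ • g τ := by
          rw [Finset.sum_union hdisj]
          refine congrArg₂ (· + ·) (Finset.sum_congr rfl fun τ hτ => by rw [if_pos hτ])
            (Finset.sum_congr rfl fun τ hτ => ?_)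
          rw [if_neg (Finset.disjoint_right.mp hdisj hτ)]
        have e2 : ∑ τ ∈ D2, w τ • g τ =
            ∑ τ ∈ D2 ∩ (D1 ∪ D), w τ • g τ + ∑ τ ∈ D2 \ (D1 ∪ D), w τ • g τ :=
          (Finset.sum_inter_add_sum_sdiff _ _ _).symm
        rw [e2, map_add] at hk
        have h1 := abs_le.mp (hsmall D f Finset.subset_union_right hf)
        have h2 := abs_le.mp (hsmall (D2 ∩ (D1 ∪ D)) g Finset.inter_subset_right
          fun τ hτ => hg τ (Finset.mem_inter.mp hτ).1)
        have h3 : ∑ τ ∈ D2 \ (D1 ∪ D), w τ ≤ c / 6 / (M + 1) := by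
          refine (le_abs_self _).trans (hD1 _ ?_).le
          exact Finset.disjoint_of_subset_right Finset.subset_union_left Finset.sdiff_disjoint
        have h4 : -(c / 6) ≤ ∑ j ∈ A, Λ j (∑ τ ∈ D2 \ (D1 ∪ D), w τ • g τ) := by
          refine le_trans ?_ (neg_abs_le _)
          rw [neg_le_neg_iff]
          refine (Finset.abs_sum_le_sum_abs _ _).trans ?_
          refine (Finset.sum_le_sum fun j _ => glue_abs_comb w hw (Λ j) _ g |B j| fun τ hτ =>
            (hB j τ _ (hg τ (Finset.mem_sdiff.mp hτ).1)).trans (le_abs_self _)).trans ?_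
          rw [← Finset.mul_sum, ← hM]
          calc _ ≤ c / 6 / (M + 1) * (M + 1) :=
                mul_le_mul h3 (by linarith) hM0 (by positivity)
            _ = c / 6 := by field_simp
        rw [e1, Finset.sum_insert hkA]
        simp only [map_add (Λ _), Finset.sum_add_distrib]
        push_cast
        linarith [h1.1, h2.2]
  obtain ⟨r, hr⟩ := exists_nat_gt (C / (c / 2))
  obtain ⟨A, D, f, hf, h⟩ := claim r
  have h1 := hC A (fun _ => 1) (fun _ => Or.inl rfl) _ ⟨D, f, hf, rfl⟩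
  simp only [one_mul] at h1
  rw [div_lt_iff₀ (by positivity)] at hr
  linarith

theorem flat {ι : Type} (s : Finset ι) (p d : ι → ℝ) (hd : ∀ i ∈ s, 0 ≤ d i) :
    ∃ ψ : ℝ → ℝ, (∀ a b, |ψ a - ψ b| ≤ |a - b|) ∧ ψ 0 = 0 ∧
      (∀ t, |ψ t - t| ≤ ∑ i ∈ s, 2 * d i) ∧
      ∀ i ∈ s, ∀ a b, |a - p i| ≤ d i → |b - p i| ≤ d i → ψ a = ψ b := by
  classical
  induction s using Finset.induction_on with
  | empty => exact ⟨id, fun a b => le_rfl, rfl, by simp, by simp⟩
  | insert i s hi ih =>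
    obtain ⟨ψ, h1, h2, h3, h4⟩ := ih fun j hj => hd j (Finset.mem_insert_of_mem hj)
    have hdi := hd i (Finset.mem_insert_self i s)
    set lo := ψ (p i) - d i with hlo
    set hi' := ψ (p i) + d i with hhi
    have hle : lo ≤ hi' := by linarith
    refine ⟨fun t => ψ t - max lo (min (ψ t) hi') + max lo (min 0 hi'), fun a b => ?_, ?_,
      fun t => ?_, fun j hj a b ha hb => ?_⟩
    · rw [add_sub_add_right_eq_sub]
      exact (glue_clamp lo hi' hle _ _).trans (h1 a b)
    · simp only [h2]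
      ring
    · rw [Finset.sum_insert hi]
      have k1 : ∀ u, lo ≤ max lo (min u hi') ∧ max lo (min u hi') ≤ hi' := fun u =>
        ⟨le_max_left _ _, max_le hle (min_le_right _ _)⟩
      have k2 := abs_le.mp (h3 t)
      have k3 := k1 (ψ t)
      have k4 := k1 0
      rw [abs_le]
      constructor <;> linarith [k2.1, k2.2, k3.1, k3.2, k4.1, k4.2]
    · rcases Finset.mem_insert.mp hj with rfl | hj
      · have k : ∀ u, |u - p j| ≤ d j → max lo (min (ψ u) hi') = ψ u := by
          intro u hu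
          have := abs_le.mp ((h1 u (p j)).trans hu)
          rw [min_eq_left (by linarith [this.2]), max_eq_right (by linarith [this.1])]
        simp only [k a ha, k b hb, sub_self]
      · simp only [h4 j hj a b ha hb]

theorem chain (U : Filter ℕ) [U.NeBot] (R : ℕ → ℕ → Prop)
    (h : ∀ᶠ k in U, ∀ᶠ k' in U, R k k') : ∃ κ : ℕ → ℕ, ∀ l l', l < l' → R (κ l) (κ l') := by
  obtain ⟨κ, -, hκ⟩ := exists_seq_of_forall_finset_exists (fun k => ∀ᶠ k' in U, R k k') R
    fun s hs => (h.and ((Filter.eventually_all_finset s).mpr hs)).exists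
  exact ⟨κ, hκ⟩

end Vale.Agent.P124
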