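import Vale.Agent.P124.Basic

/-! P124: partitions of unity on cells (location and logarithmic scale). -/

open Filter Topology

namespace Vale.Agent.P124

noncomputable def hat (s : ℝ) : ℝ := max 0 (1 - |s|)
noncomputable def plat (s : ℝ) : ℝ := min 1 (max 0 (2 - |s|))
noncomputable def bb : ℝ := Real.exp 400
noncomputable def sc (t : ℝ) : ℝ := Real.log t / 400
noncomputable def rho (j : ℤ) : ℝ := Real.exp (400 * j)
noncomputable def wt (κ : ℕ) : ℝ := 2 ^ (κ + 1) * 400 * bb ^ 2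
noncomputable def th0 : ℝ := 1 / (2 * bb ^ 2)

/-- a cell of level `n`: a location in `ℤ^n` and a scale -/
abbrev Cell (n : ℕ) : Type := (Fin n → ℤ) × ℤ

noncomputable def lam {n : ℕ} (σ : Cell n) (t : ℝ) (c : ℕ → ℝ) : ℝ :=
  hat (sc t - σ.2) * ∏ κ : Fin n, hat (c κ / (wt κ * rho σ.2) - σ.1 κ)

noncomputable def uu {n : ℕ} (σ : Cell n) (t : ℝ) (c : ℕ → ℝ) : ℝ :=
  plat (sc t - σ.2) * ∏ κ : Fin n, plat (c κ / (wt κ * rho σ.2) - σ.1 κ)

/-- the enlarged closed cell -/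
def Box {n : ℕ} (σ : Cell n) (t : ℝ) (c : ℕ → ℝ) : Prop :=
  th0 * rho σ.2 ≤ t ∧ t ≤ 2 * bb ^ 2 * rho σ.2 ∧
    ∀ κ : Fin n, |c κ - σ.1 κ * (wt κ * rho σ.2)| ≤ 3 * (wt κ * rho σ.2)

theorem one_lt_bb : 1 < bb := by
  unfold bb
  exact Real.one_lt_exp_iff.mpr (by norm_num)

theorem rho_pos (j : ℤ) : 0 < rho j := Real.exp_pos _

theorem rho_mono {j j' : ℤ} (h : j ≤ j') : rho j ≤ rho j' := by
  unfold rho
  apply Real.exp_le_exp.mpr
  have : (j : ℝ) ≤ j' := by exact_mod_cast h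
  linarith

theorem rho_small (δ : ℝ) (hδ : 0 < δ) : ∃ j₀ : ℤ, ∀ j ≤ j₀, rho j ≤ δ := by
  refine ⟨⌊Real.log δ / 400⌋, fun j hj => ?_⟩
  unfold rho
  rw [← Real.exp_log hδ]
  apply Real.exp_le_exp.mpr
  have h1 : (j : ℝ) ≤ (⌊Real.log δ / 400⌋ : ℤ) := by exact_mod_cast hj
  have h2 := Int.floor_le (Real.log δ / 400)
  linarith

theorem one_le_wt (κ : ℕ) : 1 ≤ wt κ := by
  unfold wt
  have h1 : (1 : ℝ) ≤ 2 ^ (κ + 1) := one_le_pow₀ (by norm_num)
  have h2 : (1 : ℝ) ≤ bb ^ 2 := one_le_pow₀ one_lt_bb.le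
  nlinarith

theorem th0_pos : 0 < th0 := by
  unfold th0
  have := one_lt_bb
  positivity

theorem th0_le : th0 ≤ 1 / 2 := by
  unfold th0
  have h2 : (1 : ℝ) ≤ bb ^ 2 := one_le_pow₀ one_lt_bb.le
  apply one_div_le_one_div_of_le (by norm_num)
  linarith

theorem hat_nonneg (s : ℝ) : 0 ≤ hat s := le_max_left _ _

theorem hat_le_one (s : ℝ) : hat s ≤ 1 := by
  unfold hat
  have := abs_nonneg s
  exact max_le (by norm_num) (by linarith)

theorem plat_nonneg (s : ℝ) : 0 ≤ plat s := by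
  unfold plat
  exact le_min (by norm_num) (le_max_left _ _)

theorem plat_le_one (s : ℝ) : plat s ≤ 1 := min_le_left _ _

theorem hat_lip (s t : ℝ) : |hat s - hat t| ≤ |s - t| := by
  unfold hat
  have h1 := abs_max_sub_max_le_abs (1 - |s|) (1 - |t|) 0
  rw [max_comm (1 - |s|), max_comm (1 - |t|)] at h1
  have h2 : |1 - |s| - (1 - |t|)| ≤ |s - t| := by
    have : 1 - |s| - (1 - |t|) = |t| - |s| := by ring
    rw [this, abs_sub_comm s t]
    exact abs_abs_sub_abs_le_abs_sub t s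
  exact h1.trans h2

theorem plat_lip (s t : ℝ) : |plat s - plat t| ≤ |s - t| := by
  unfold plat
  have h0 := abs_min_sub_min_le_max 1 (max 0 (2 - |s|)) 1 (max 0 (2 - |t|))
  have h1 := abs_max_sub_max_le_abs (2 - |s|) (2 - |t|) 0
  rw [max_comm (2 - |s|), max_comm (2 - |t|)] at h1
  have h2 : |2 - |s| - (2 - |t|)| ≤ |s - t| := by
    have : 2 - |s| - (2 - |t|) = |t| - |s| := by ring
    rw [this, abs_sub_comm s t]
    exact abs_abs_sub_abs_le_abs_sub t s
  refine h0.trans (max_le ?_ (h1.trans h2))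
  simp

theorem plat_eq_zero {s : ℝ} (h : 2 ≤ |s|) : plat s = 0 := by
  unfold plat
  rw [max_eq_left (by linarith)]
  simp

theorem continuous_hat : Continuous hat := by
  unfold hat
  fun_prop

theorem continuous_plat : Continuous plat := by
  unfold plat
  fun_prop

theorem Hat_log_lip {m s t : ℝ} (hm : 0 < m) (hs : m ≤ s) (ht : m ≤ t) :
    Real.log s - Real.log t ≤ |s - t| / m := by
  have hs0 : 0 < s := hm.trans_le hs
  have ht0 : 0 < t := hm.trans_le ht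
  rw [← Real.log_div hs0.ne' ht0.ne']
  have h1 := Real.log_le_sub_one_of_pos (div_pos hs0 ht0)
  have h2 : s / t - 1 = (s - t) / t := by field_simp
  rw [h2] at h1
  refine h1.trans ?_
  calc (s - t) / t ≤ |s - t| / t := by gcongr; exact le_abs_self _
    _ ≤ |s - t| / m := by gcongr

theorem sc_lip {m s t : ℝ} (hm : 0 < m) (hs : m ≤ s) (ht : m ≤ t) :
    |sc s - sc t| ≤ |s - t| / (400 * m) := by
  unfold sc
  have h := Hat_log_lip hm hs ht
  have h' := Hat_log_lip hm ht hs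
  have e : Real.log s / 400 - Real.log t / 400 = (Real.log s - Real.log t) / 400 := by ring
  rw [e, abs_div, abs_of_pos (by norm_num : (0 : ℝ) < 400)]
  have h3 : |Real.log s - Real.log t| ≤ |s - t| / m := by
    rw [abs_le]
    rw [abs_sub_comm] at h'
    constructor <;> linarith
  calc |Real.log s - Real.log t| / 400 ≤ |s - t| / m / 400 := by gcongr
    _ = |s - t| / (400 * m) := by rw [div_div, mul_comm]

/-- where the scale plateau is nonzero -/
theorem plat_sc {t : ℝ} {j : ℤ} (ht : 0 < t) (h : plat (sc t - j) ≠ 0) :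
    rho j / bb ^ 2 < t ∧ t < bb ^ 2 * rho j := by
  have h2 : |sc t - j| < 2 := by
    by_contra hh
    exact h (plat_eq_zero (not_lt.mp hh))
  rw [abs_lt] at h2
  unfold sc at h2
  unfold rho bb
  rw [← Real.exp_nat_mul, ← Real.exp_sub, ← Real.exp_add]
  constructor
  · rw [← Real.lt_log_iff_exp_lt ht]
    push_cast
    linarith [h2.1]
  · rw [← Real.log_lt_iff_lt_exp ht]
    push_cast
    linarith [h2.2]

theorem lam_nonneg {n : ℕ} (σ : Cell n) (t : ℝ) (c : ℕ → ℝ) : 0 ≤ lam σ t c := by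
  unfold lam
  exact mul_nonneg (hat_nonneg _) (Finset.prod_nonneg fun _ _ => hat_nonneg _)

theorem uu_nonneg {n : ℕ} (σ : Cell n) (t : ℝ) (c : ℕ → ℝ) : 0 ≤ uu σ t c := by
  unfold uu
  exact mul_nonneg (plat_nonneg _) (Finset.prod_nonneg fun _ _ => plat_nonneg _)

theorem uu_le_one {n : ℕ} (σ : Cell n) (t : ℝ) (c : ℕ → ℝ) : uu σ t c ≤ 1 := by
  unfold uu
  exact mul_le_one₀ (plat_le_one _) (Finset.prod_nonneg fun _ _ => plat_nonneg _)
    (Finset.prod_le_one (fun _ _ => plat_nonneg _) fun _ _ => plat_le_one _)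

theorem Hat_hat_mul_plat (s : ℝ) : hat s * plat s = hat s := by
  unfold hat plat
  rcases le_total 1 |s| with h | h
  · rw [max_eq_left (by linarith)]
    simp
  · rw [min_eq_left (le_max_of_le_right (by linarith))]
    simp

theorem lam_mul_uu {n : ℕ} (σ : Cell n) (t : ℝ) (c : ℕ → ℝ) :
    lam σ t c * uu σ t c = lam σ t c := by
  unfold lam uu
  rw [mul_mul_mul_comm, ← Finset.prod_mul_distrib, Hat_hat_mul_plat]
  simp only [Hat_hat_mul_plat]

theorem Hat_sum_supp {ι : Type} (Z S : Finset ι) (f : ι → ℝ) (h0 : ∀ x, 0 ≤ f x)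
    (hS : ∀ x, x ∉ S → f x = 0) : ∑ x ∈ Z, f x ≤ ∑ x ∈ S, f x := by
  classical
  calc ∑ x ∈ Z, f x ≤ ∑ x ∈ Z ∪ S, f x :=
        Finset.sum_le_sum_of_subset_of_nonneg Finset.subset_union_left fun x _ _ => h0 x
    _ = ∑ x ∈ S, f x :=
        (Finset.sum_subset Finset.subset_union_right fun x _ hx => hS x hx).symm

theorem Hat_hat_zero {s : ℝ} {x : ℤ} (h : x ∉ ({⌊s⌋, ⌊s⌋ + 1} : Finset ℤ)) :
    hat (s - x) = 0 := by
  simp only [Finset.mem_insert, Finset.mem_singleton, not_or] at h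
  unfold hat
  apply max_eq_left
  have h1 := Int.floor_le s
  have h2 := Int.lt_floor_add_one s
  rcases lt_or_ge x ⌊s⌋ with hx | hx
  · have : (x : ℝ) + 1 ≤ (⌊s⌋ : ℤ) := by exact_mod_cast hx
    have := le_abs_self (s - x)
    linarith
  · have hx2 : ⌊s⌋ + 2 ≤ x := by omega
    have : ((⌊s⌋ : ℤ) : ℝ) + 2 ≤ x := by exact_mod_cast hx2
    have := neg_abs_le (s - x)
    linarith

theorem Hat_two (s : ℝ) : ∑ x ∈ ({⌊s⌋, ⌊s⌋ + 1} : Finset ℤ), hat (s - x) = 1 := by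
  rw [Finset.sum_pair (by omega)]
  have h1 := Int.floor_le s
  have h2 := Int.lt_floor_add_one s
  unfold hat
  push_cast
  rw [abs_of_nonneg (by linarith), abs_of_nonpos (by linarith), max_eq_right (by linarith),
    max_eq_right (by linarith)]
  ring

theorem Hat_sum_le (Z : Finset ℤ) (s : ℝ) : ∑ x ∈ Z, hat (s - x) ≤ 1 := by
  rw [← Hat_two s]
  exact Hat_sum_supp Z _ (fun x : ℤ => hat (s - x)) (fun _ => hat_nonneg _) fun x hx => Hat_hat_zero hx

theorem Hat_sum_Icc (s : ℝ) : ∑ x ∈ Finset.Icc (⌊s⌋ - 2) (⌊s⌋ + 2), hat (s - x) = 1 := by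
  rw [← Hat_two s]
  symm
  apply Finset.sum_subset
  · intro x hx
    simp only [Finset.mem_insert, Finset.mem_singleton] at hx
    rw [Finset.mem_Icc]
    omega
  · intro x _ hx
    exact Hat_hat_zero hx

theorem Hat_plat_mem {s : ℝ} {x : ℤ} (h : plat (s - x) ≠ 0) :
    x ∈ Finset.Icc (⌊s⌋ - 2) (⌊s⌋ + 2) := by
  have h2 : |s - x| < 2 := by
    by_contra hh
    exact h (plat_eq_zero (not_lt.mp hh))
  rw [abs_lt] at h2
  have h3 := Int.floor_le s
  have h4 := Int.lt_floor_add_one s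
  rw [Finset.mem_Icc]
  constructor
  · have : ((⌊s⌋ : ℤ) : ℝ) - 2 < x := by linarith [h2.2]
    have : ⌊s⌋ - 2 < x := by exact_mod_cast this
    omega
  · have : (x : ℝ) < ((⌊s⌋ : ℤ) : ℝ) + 3 := by linarith [h2.1]
    have : x < ⌊s⌋ + 3 := by exact_mod_cast this
    omega

theorem Hat_diff_sum (Z : Finset ℤ) (s s' : ℝ) :
    ∑ x ∈ Z, |hat (s - x) - hat (s' - x)| ≤ 4 * |s - s'| := by
  classical
  let S : Finset ℤ := {⌊s⌋, ⌊s⌋ + 1} ∪ {⌊s'⌋, ⌊s'⌋ + 1}
  have hc : S.card ≤ 4 := by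
    refine (Finset.card_union_le _ _).trans ?_
    have h1 : ({⌊s⌋, ⌊s⌋ + 1} : Finset ℤ).card ≤ 2 := Finset.card_le_two
    have h2 : ({⌊s'⌋, ⌊s'⌋ + 1} : Finset ℤ).card ≤ 2 := Finset.card_le_two
    omega
  have h1 := Hat_sum_supp Z S (fun x : ℤ => |hat (s - x) - hat (s' - x)|) (fun _ => abs_nonneg _)
    (by
      intro x hx
      simp only [S, Finset.mem_union, not_or] at hx
      simp only [Hat_hat_zero hx.1, Hat_hat_zero hx.2, sub_self, abs_zero])
  refine h1.trans ?_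
  have h2 : ∑ x ∈ S, |hat (s - x) - hat (s' - x)| ≤ S.card • |s - s'| := by
    apply Finset.sum_le_card_nsmul
    intro x _
    have := hat_lip (s - x) (s' - x)
    rwa [sub_sub_sub_cancel_right] at this
  refine h2.trans ?_
  rw [nsmul_eq_mul]
  have : (S.card : ℝ) ≤ 4 := by exact_mod_cast hc
  gcongr

theorem lam_fin (n : ℕ) (t : ℝ) (c : ℕ → ℝ) : ∃ D : Finset (Cell n),
    (∀ σ, σ ∉ D → uu σ t c = 0) ∧ ∑ σ ∈ D, lam σ t c = 1 := by
  classical
  let a : Fin n → ℤ → ℝ := fun κ j => c κ / (wt κ * rho j)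
  let J : Finset ℤ := Finset.Icc (⌊sc t⌋ - 2) (⌊sc t⌋ + 2)
  let Z : ℤ → Fin n → Finset ℤ := fun j κ => Finset.Icc (⌊a κ j⌋ - 2) (⌊a κ j⌋ + 2)
  have hinj : Function.Injective
      (fun p : (Σ _ : ℤ, Fin n → ℤ) => ((p.2, p.1) : Cell n)) := by
    rintro ⟨j, z⟩ ⟨j', z'⟩ h
    simp only [Prod.mk.injEq] at h
    obtain ⟨rfl, rfl⟩ := h
    rfl
  let D : Finset (Cell n) := (J.sigma fun j => Fintype.piFinset (Z j)).image
    (fun p : (Σ _ : ℤ, Fin n → ℤ) => ((p.2, p.1) : Cell n))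
  refine ⟨D, fun σ hσ => ?_, ?_⟩
  · by_contra hne
    apply hσ
    unfold uu at hne
    rw [← ne_eq, mul_ne_zero_iff, Finset.prod_ne_zero_iff] at hne
    simp only [D, Finset.mem_image, Finset.mem_sigma, Fintype.mem_piFinset]
    exact ⟨⟨σ.2, σ.1⟩, ⟨Hat_plat_mem hne.1, fun κ => Hat_plat_mem (hne.2 κ (Finset.mem_univ _))⟩,
      rfl⟩
  · simp only [D]
    rw [Finset.sum_image (fun x _ y _ h => hinj h), Finset.sum_sigma]
    simp only [lam]
    have : ∀ j ∈ J, ∑ z ∈ Fintype.piFinset (Z j),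
        hat (sc t - j) * ∏ κ : Fin n, hat (c κ / (wt κ * rho j) - z κ) = hat (sc t - j) := by
      intro j _
      rw [← Finset.mul_sum, ← Finset.prod_univ_sum (Z j)
        (fun κ (x : ℤ) => hat (c κ / (wt κ * rho j) - x))]
      rw [Finset.prod_eq_one (fun κ _ => Hat_sum_Icc (a κ j)), mul_one]
    rw [Finset.sum_congr rfl this]
    exact Hat_sum_Icc _

theorem sum_lam_le {n : ℕ} (D : Finset (Cell n)) (t : ℝ) (c : ℕ → ℝ) :
    ∑ σ ∈ D, lam σ t c ≤ 1 := by
  classical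
  obtain ⟨D', h0, h1⟩ := lam_fin n t c
  rw [← h1]
  refine Hat_sum_supp D D' (fun σ => lam σ t c) (fun σ => lam_nonneg σ t c) fun σ hσ => ?_
  rw [← lam_mul_uu, h0 σ hσ, mul_zero]

theorem Hat_mul_diff (a a' P P' : ℝ) (ha : 0 ≤ a) (hP : 0 ≤ P') :
    |a * P - a' * P'| ≤ |a - a'| * P' + a * |P - P'| := by
  have e : a * P - a' * P' = (a - a') * P' + a * (P - P') := by ring
  rw [e]
  refine (abs_add_le _ _).trans ?_
  rw [abs_mul, abs_mul, abs_of_nonneg hP, abs_of_nonneg ha]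

theorem Hat_hybrid {n : ℕ} (Z : Finset ℤ) (f g : Fin n → ℤ → ℝ) (e : Fin n → ℝ)
    (hf : ∀ κ x, 0 ≤ f κ x) (hg : ∀ κ x, 0 ≤ g κ x) (hf1 : ∀ κ, ∑ x ∈ Z, f κ x ≤ 1)
    (hg1 : ∀ κ, ∑ x ∈ Z, g κ x ≤ 1) (he : ∀ κ, ∑ x ∈ Z, |f κ x - g κ x| ≤ e κ) :
    ∑ z ∈ Fintype.piFinset fun _ : Fin n => Z, |∏ κ, f κ (z κ) - ∏ κ, g κ (z κ)| ≤ ∑ κ, e κ := by
  classical
  let h : Fin n → Fin n → ℤ → ℝ := fun i j x =>
    if j = i then |f j x - g j x| else if j < i then f j x else g j x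
  have hsplit : ∀ (i : Fin n) (u : Fin n → ℝ), ∏ j, u j =
      u i * (∏ j ∈ Finset.univ.filter (· < i), u j) * ∏ j ∈ Finset.univ.filter (i < ·), u j := by
    intro i u
    rw [← Finset.mul_prod_erase Finset.univ u (Finset.mem_univ i), mul_assoc,
      ← Finset.prod_union]
    · congr 2
      ext j
      simp only [Finset.mem_erase, Finset.mem_univ, and_true, Finset.mem_union,
        Finset.mem_filter, true_and]
      exact ne_iff_lt_or_gt
    · rw [Finset.disjoint_filter]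
      intro j _ h1 h2
      exact lt_asymm h1 h2
  have h1 : ∀ z : Fin n → ℤ, |∏ κ, f κ (z κ) - ∏ κ, g κ (z κ)| ≤ ∑ i, ∏ j, h i j (z j) := by
    intro z
    have e1 := Finset.prod_add_ordered Finset.univ (fun κ => g κ (z κ))
      (fun κ => f κ (z κ) - g κ (z κ))
    simp only [add_sub_cancel] at e1
    rw [e1, add_sub_cancel_left]
    refine (Finset.abs_sum_le_sum_abs _ _).trans (Finset.sum_le_sum fun i _ => le_of_eq ?_)
    rw [hsplit i fun j => h i j (z j), abs_mul, abs_mul,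
      abs_of_nonneg (Finset.prod_nonneg fun j _ => hf j (z j)),
      abs_of_nonneg (Finset.prod_nonneg fun j _ => hg j (z j))]
    congr 1
    · congr 1
      · simp [h]
      · refine Finset.prod_congr rfl fun j hj => ?_
        have hj' : j < i := (Finset.mem_filter.mp hj).2
        simp [h, hj', hj'.ne]
    · refine Finset.prod_congr rfl fun j hj => ?_
      have hj' : i < j := (Finset.mem_filter.mp hj).2
      simp [h, hj'.ne', hj'.not_gt]
  refine (Finset.sum_le_sum fun z _ => h1 z).trans ?_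
  rw [Finset.sum_comm]
  refine Finset.sum_le_sum fun i _ => ?_
  rw [Finset.sum_prod_piFinset, ← Finset.mul_prod_erase Finset.univ _ (Finset.mem_univ i)]
  have h2 : ∑ x ∈ Z, h i i x ≤ e i := by simpa [h] using he i
  have h3 : ∏ j ∈ Finset.univ.erase i, ∑ x ∈ Z, h i j x ≤ 1 := by
    refine Finset.prod_le_one (fun j _ => Finset.sum_nonneg fun x _ => ?_) fun j hj => ?_
    · simp only [h]
      split_ifs
      · exact abs_nonneg _
      · exact hf _ _
      · exact hg _ _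
    · have hj' : j ≠ i := (Finset.mem_erase.mp hj).1
      simp only [h, hj', if_false]
      split_ifs
      · exact hf1 j
      · exact hg1 j
  have h4 : 0 ≤ ∑ x ∈ Z, h i i x := Finset.sum_nonneg fun x _ => by simp [h]
  exact (mul_le_of_le_one_right h4 h3).trans h2

theorem Hat_wt_sum (n : ℕ) (j : ℤ) {δ m t : ℝ} (hδ : 0 ≤ δ) (hm : 0 < m) (ht : m ≤ t)
    (hp : plat (sc t - j) ≠ 0) : (∑ κ : Fin n, δ / (wt κ * rho j)) * m ≤ δ / 400 := by
  have h1 := (plat_sc (hm.trans_le ht) hp).2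
  have hρ := rho_pos j
  have hb : 0 < bb := one_pos.trans one_lt_bb
  have h2 : m ≤ bb ^ 2 * rho j := by linarith
  have h3 : ∑ κ : Fin n, (1 / 2 : ℝ) ^ ((κ : ℕ) + 1) ≤ 1 := by
    rw [Fin.sum_univ_eq_sum_range (fun κ => (1 / 2 : ℝ) ^ (κ + 1))]
    have : ∀ k : ℕ, ∑ κ ∈ Finset.range k, (1 / 2 : ℝ) ^ (κ + 1) = 1 - (1 / 2) ^ k := by
      intro k
      induction k with
      | zero => simp
      | succ k ih => rw [Finset.sum_range_succ, ih]; ring
    rw [this]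
    have : (0 : ℝ) ≤ (1 / 2) ^ n := by positivity
    linarith
  rw [Finset.sum_mul]
  calc ∑ κ : Fin n, δ / (wt κ * rho j) * m
      ≤ ∑ κ : Fin n, (1 / 2 : ℝ) ^ ((κ : ℕ) + 1) * (δ / 400) := by
        refine Finset.sum_le_sum fun κ _ => ?_
        have hw : 0 < wt κ := one_pos.trans_le (one_le_wt κ)
        calc δ / (wt κ * rho j) * m ≤ δ / (wt κ * rho j) * (bb ^ 2 * rho j) := by gcongr
          _ = (1 / 2 : ℝ) ^ ((κ : ℕ) + 1) * (δ / 400) := by
            unfold wt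
            rw [one_div_pow]
            field_simp
    _ = (∑ κ : Fin n, (1 / 2 : ℝ) ^ ((κ : ℕ) + 1)) * (δ / 400) := by rw [Finset.sum_mul]
    _ ≤ δ / 400 := mul_le_of_le_one_left (by positivity) h3

theorem lam_diff {n : ℕ} (D : Finset (Cell n)) {t t' δ m : ℝ} {c c' : ℕ → ℝ} (hm : 0 ≤ m)
    (ht : m ≤ t) (ht' : m ≤ t') (hδ : |t - t'| ≤ δ) (hc : ∀ κ, |c κ - c' κ| ≤ δ) :
    (∑ σ ∈ D, |lam σ t c - lam σ t' c'|) * m ≤ δ / 50 := by
  classical
  have hδ0 : 0 ≤ δ := (abs_nonneg _).trans hδ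
  rcases hm.eq_or_lt with rfl | hm
  · rw [mul_zero]
    positivity
  let J : Finset ℤ := D.image Prod.snd
  let Z : Finset ℤ := D.biUnion fun σ => Finset.univ.image σ.1
  have hD : D ⊆ (Fintype.piFinset fun _ : Fin n => Z) ×ˢ J := by
    intro σ hσ
    rw [Finset.mem_product, Fintype.mem_piFinset]
    exact ⟨fun κ => Finset.mem_biUnion.mpr ⟨σ, hσ, Finset.mem_image_of_mem _ (Finset.mem_univ _)⟩,
      Finset.mem_image_of_mem _ hσ⟩
  have h1 : ∑ σ ∈ D, |lam σ t c - lam σ t' c'| ≤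
      ∑ σ ∈ (Fintype.piFinset fun _ : Fin n => Z) ×ˢ J, |lam σ t c - lam σ t' c'| :=
    Finset.sum_le_sum_of_subset_of_nonneg hD fun _ _ _ => abs_nonneg _
  rw [Finset.sum_product_right] at h1
  have h2 : ∀ j ∈ J, (∑ z ∈ Fintype.piFinset fun _ : Fin n => Z,
      |lam (z, j) t c - lam (z, j) t' c'|) * m ≤
        |hat (sc t - j) - hat (sc t' - j)| * m + hat (sc t - j) * (δ / 100) := by
    intro j _
    let f : Fin n → ℤ → ℝ := fun κ x => hat (c κ / (wt κ * rho j) - x)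
    let g : Fin n → ℤ → ℝ := fun κ x => hat (c' κ / (wt κ * rho j) - x)
    have hρ := rho_pos j
    have hfg := Hat_hybrid Z f g (fun κ => 4 * (δ / (wt κ * rho j))) (fun _ _ => hat_nonneg _)
      (fun _ _ => hat_nonneg _) (fun _ => Hat_sum_le _ _) (fun _ => Hat_sum_le _ _) (by
        intro κ
        refine (Hat_diff_sum Z _ _).trans ?_
        have hw : 0 < wt κ * rho j := mul_pos (one_pos.trans_le (one_le_wt κ)) hρ
        rw [← sub_div, abs_div, abs_of_pos hw]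
        gcongr
        exact hc κ)
    have hg : ∑ z ∈ Fintype.piFinset fun _ : Fin n => Z, ∏ κ, g κ (z κ) ≤ 1 := by
      rw [Finset.sum_prod_piFinset]
      exact Finset.prod_le_one (fun _ _ => Finset.sum_nonneg fun _ _ => hat_nonneg _)
        fun _ _ => Hat_sum_le _ _
    have h3 : ∀ z ∈ Fintype.piFinset fun _ : Fin n => Z, |lam (z, j) t c - lam (z, j) t' c'| ≤
        |hat (sc t - j) - hat (sc t' - j)| * ∏ κ, g κ (z κ) +
          hat (sc t - j) * |∏ κ, f κ (z κ) - ∏ κ, g κ (z κ)| := by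
      intro z _
      exact Hat_mul_diff _ _ _ _ (hat_nonneg _) (Finset.prod_nonneg fun _ _ => hat_nonneg _)
    have h4 := Finset.sum_le_sum h3
    rw [Finset.sum_add_distrib, ← Finset.mul_sum, ← Finset.mul_sum] at h4
    have h5 : hat (sc t - j) * (∑ z ∈ Fintype.piFinset fun _ : Fin n => Z,
        |∏ κ, f κ (z κ) - ∏ κ, g κ (z κ)|) * m ≤ hat (sc t - j) * (δ / 100) := by
      by_cases h0 : hat (sc t - j) = 0
      · simp [h0]
      have hp : plat (sc t - j) ≠ 0 := by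
        intro hp
        apply h0
        rw [← Hat_hat_mul_plat, hp, mul_zero]
      have h6 := Hat_wt_sum n j hδ0 hm ht hp
      rw [mul_assoc]
      apply mul_le_mul_of_nonneg_left _ (hat_nonneg _)
      rw [← Finset.mul_sum] at hfg
      calc _ ≤ (4 * ∑ κ : Fin n, δ / (wt κ * rho j)) * m := by gcongr
        _ = 4 * ((∑ κ : Fin n, δ / (wt κ * rho j)) * m) := by ring
        _ ≤ 4 * (δ / 400) := by gcongr
        _ = δ / 100 := by ring
    have h7 : |hat (sc t - j) - hat (sc t' - j)| *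
        (∑ z ∈ Fintype.piFinset fun _ : Fin n => Z, ∏ κ, g κ (z κ)) ≤
          |hat (sc t - j) - hat (sc t' - j)| := mul_le_of_le_one_right (abs_nonneg _) hg
    calc _ ≤ (|hat (sc t - j) - hat (sc t' - j)| + hat (sc t - j) *
          (∑ z ∈ Fintype.piFinset fun _ : Fin n => Z,
            |∏ κ, f κ (z κ) - ∏ κ, g κ (z κ)|)) * m := by
          apply mul_le_mul_of_nonneg_right _ hm.le
          linarith
      _ ≤ _ := by
          rw [add_mul]
          linarith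
  have h8 := Finset.sum_le_sum h2
  rw [← Finset.sum_mul, Finset.sum_add_distrib, ← Finset.sum_mul, ← Finset.sum_mul] at h8
  have h9 : (∑ j ∈ J, |hat (sc t - j) - hat (sc t' - j)|) * m ≤ δ / 100 := by
    have h10 := Hat_diff_sum J (sc t) (sc t')
    have h11 := sc_lip hm ht ht'
    calc _ ≤ (4 * (δ / (400 * m))) * m := by
          gcongr
          refine h10.trans ?_
          gcongr
          exact h11.trans (by gcongr)
      _ = δ / 100 := by field_simp; ring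
  have h12 : (∑ j ∈ J, hat (sc t - j)) * (δ / 100) ≤ δ / 100 :=
    mul_le_of_le_one_left (by positivity) (Hat_sum_le _ _)
  have h13 := mul_le_mul_of_nonneg_right h1 hm.le
  linarith

theorem Hat_prod_diff {ι : Type} (s : Finset ι) (f g : ι → ℝ) (hf : ∀ i, 0 ≤ f i)
    (hf1 : ∀ i, f i ≤ 1) (hg : ∀ i, 0 ≤ g i) (hg1 : ∀ i, g i ≤ 1) :
    |∏ i ∈ s, f i - ∏ i ∈ s, g i| ≤ ∑ i ∈ s, |f i - g i| := by
  classical
  induction s using Finset.induction_on with
  | empty => simp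
  | insert a s ha ih =>
    rw [Finset.prod_insert ha, Finset.prod_insert ha, Finset.sum_insert ha]
    refine (Hat_mul_diff _ _ _ _ (hf a) (Finset.prod_nonneg fun i _ => hg i)).trans ?_
    have h1 : ∏ i ∈ s, g i ≤ 1 := Finset.prod_le_one (fun i _ => hg i) fun i _ => hg1 i
    have h2 := mul_le_of_le_one_right (abs_nonneg (f a - g a)) h1
    have h3 := mul_le_of_le_one_left (abs_nonneg (∏ i ∈ s, f i - ∏ i ∈ s, g i)) (hf1 a)
    linarith

theorem uu_diff {n : ℕ} (σ : Cell n) {t t' δ m : ℝ} {c c' : ℕ → ℝ} (hm : 0 ≤ m)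
    (ht : m ≤ t) (ht' : m ≤ t') (hδ : |t - t'| ≤ δ) (hc : ∀ κ, |c κ - c' κ| ≤ δ) :
    |uu σ t c - uu σ t' c'| * m ≤ δ / 50 := by
  have hδ0 : 0 ≤ δ := (abs_nonneg _).trans hδ
  rcases hm.eq_or_lt with rfl | hm
  · rw [mul_zero]
    positivity
  have hρ := rho_pos σ.2
  have h1 := Hat_mul_diff (plat (sc t - σ.2)) (plat (sc t' - σ.2))
    (∏ κ : Fin n, plat (c κ / (wt κ * rho σ.2) - σ.1 κ))
    (∏ κ : Fin n, plat (c' κ / (wt κ * rho σ.2) - σ.1 κ)) (plat_nonneg _)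
    (Finset.prod_nonneg fun _ _ => plat_nonneg _)
  have h2 : |plat (sc t - σ.2) - plat (sc t' - σ.2)| *
      (∏ κ : Fin n, plat (c' κ / (wt κ * rho σ.2) - σ.1 κ)) * m ≤ δ / 400 := by
    have h3 := plat_lip (sc t - σ.2) (sc t' - σ.2)
    rw [sub_sub_sub_cancel_right] at h3
    have h4 := sc_lip hm ht ht'
    have h5 : (∏ κ : Fin n, plat (c' κ / (wt κ * rho σ.2) - σ.1 κ)) ≤ 1 :=
      Finset.prod_le_one (fun _ _ => plat_nonneg _) fun _ _ => plat_le_one _
    calc _ ≤ δ / (400 * m) * 1 * m := by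
          gcongr
          · exact Finset.prod_nonneg fun _ _ => plat_nonneg _
          · exact h3.trans (h4.trans (by gcongr))
      _ = δ / 400 := by field_simp
  have h6 : plat (sc t - σ.2) * |(∏ κ : Fin n, plat (c κ / (wt κ * rho σ.2) - σ.1 κ)) -
      ∏ κ : Fin n, plat (c' κ / (wt κ * rho σ.2) - σ.1 κ)| * m ≤ δ / 400 := by
    by_cases hp : plat (sc t - σ.2) = 0
    · rw [hp, zero_mul, zero_mul]
      positivity
    have h7 := Hat_wt_sum n σ.2 hδ0 hm ht hp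
    have h8 := Hat_prod_diff Finset.univ (fun κ : Fin n => plat (c κ / (wt κ * rho σ.2) - σ.1 κ))
      (fun κ : Fin n => plat (c' κ / (wt κ * rho σ.2) - σ.1 κ)) (fun _ => plat_nonneg _)
      (fun _ => plat_le_one _) (fun _ => plat_nonneg _) (fun _ => plat_le_one _)
    have h9 : ∑ κ : Fin n, |plat (c κ / (wt κ * rho σ.2) - σ.1 κ) -
        plat (c' κ / (wt κ * rho σ.2) - σ.1 κ)| ≤ ∑ κ : Fin n, δ / (wt κ * rho σ.2) := by
      refine Finset.sum_le_sum fun κ _ => (plat_lip _ _).trans ?_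
      have hw : 0 < wt κ * rho σ.2 := mul_pos (one_pos.trans_le (one_le_wt κ)) hρ
      rw [sub_sub_sub_cancel_right, ← sub_div, abs_div, abs_of_pos hw]
      gcongr
      exact hc κ
    calc _ ≤ 1 * (∑ κ : Fin n, δ / (wt κ * rho σ.2)) * m := by
          gcongr
          · exact plat_le_one _
          · exact h8.trans h9
      _ ≤ δ / 400 := by rwa [one_mul]
  have h10 := mul_le_mul_of_nonneg_right h1 hm.le
  rw [add_mul] at h10
  unfold uu
  linarith

theorem uu_supp {n : ℕ} {σ : Cell n} {t : ℝ} {c : ℕ → ℝ} (ht : 0 < t) (h : uu σ t c ≠ 0) :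
    rho σ.2 / bb ^ 2 < t ∧ t < bb ^ 2 * rho σ.2 ∧
      ∀ κ : Fin n, |c κ - σ.1 κ * (wt κ * rho σ.2)| ≤ 2 * (wt κ * rho σ.2) := by
  unfold uu at h
  rw [mul_ne_zero_iff, Finset.prod_ne_zero_iff] at h
  refine ⟨(plat_sc ht h.1).1, (plat_sc ht h.1).2, fun κ => ?_⟩
  have h1 := h.2 κ (Finset.mem_univ _)
  have h2 : |c κ / (wt κ * rho σ.2) - σ.1 κ| < 2 := by
    by_contra hh
    exact h1 (plat_eq_zero (not_lt.mp hh))
  have hw : 0 < wt κ * rho σ.2 := mul_pos (one_pos.trans_le (one_le_wt κ)) (rho_pos _)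
  have e : c κ - σ.1 κ * (wt κ * rho σ.2) =
      (c κ / (wt κ * rho σ.2) - σ.1 κ) * (wt κ * rho σ.2) := by
    rw [sub_mul, div_mul_cancel₀ _ hw.ne']
  rw [e, abs_mul, abs_of_pos hw]
  gcongr

theorem box_finite {n : ℕ} (σ : Cell n) :
    {σ' : Cell n | ∃ t c, Box σ t c ∧ Box σ' t c}.Finite := by
  classical
  have hb : 0 < bb := one_pos.trans one_lt_bb
  have hθ := th0_pos
  have hρ := rho_pos σ.2
  set a : ℝ := th0 * rho σ.2 / (2 * bb ^ 2) with ha
  set A : ℝ := 2 * bb ^ 2 * rho σ.2 / th0 with hA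
  have ha0 : 0 < a := by positivity
  let R : Fin n → ℝ := fun κ => (|(σ.1 κ : ℝ)| + 3) * rho σ.2 / a + 3
  have hfin := Finset.finite_toSet
    ((Fintype.piFinset fun κ : Fin n => Finset.Icc (-⌈R κ⌉) ⌈R κ⌉) ×ˢ
      Finset.Icc ⌊Real.log a / 400⌋ ⌈Real.log A / 400⌉ : Finset (Cell n))
  refine hfin.subset ?_
  rintro σ' ⟨t, c, h, h'⟩
  have hρ' := rho_pos σ'.2
  have h1 : a ≤ rho σ'.2 := by
    rw [ha, div_le_iff₀ (by positivity)]
    linarith [h.1, h'.2.1]
  have h2 : rho σ'.2 ≤ A := by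
    rw [hA, le_div_iff₀ hθ]
    linarith [h.2.1, h'.1]
  simp only [Finset.coe_product, Set.mem_prod, Finset.mem_coe, Fintype.mem_piFinset,
    Finset.mem_Icc]
  refine ⟨fun κ => ?_, ?_, ?_⟩
  · have hw : 0 < wt κ := one_pos.trans_le (one_le_wt κ)
    have h3 := h.2.2 κ
    have h4 := h'.2.2 κ
    have h5 : |(σ'.1 κ : ℝ)| * (wt κ * rho σ'.2) ≤
        3 * (wt κ * rho σ'.2) + (|(σ.1 κ : ℝ)| + 3) * (wt κ * rho σ.2) := by
      have e1 : |(σ'.1 κ : ℝ)| * (wt κ * rho σ'.2) = |(σ'.1 κ : ℝ) * (wt κ * rho σ'.2)| := by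
        rw [abs_mul (σ'.1 κ : ℝ), abs_of_pos (mul_pos hw hρ')]
      have e2 : |(σ.1 κ : ℝ)| * (wt κ * rho σ.2) = |(σ.1 κ : ℝ) * (wt κ * rho σ.2)| := by
        rw [abs_mul (σ.1 κ : ℝ), abs_of_pos (mul_pos hw hρ)]
      rw [add_mul, e1, e2]
      have h6 := abs_sub_abs_le_abs_sub ((σ'.1 κ : ℝ) * (wt κ * rho σ'.2)) (c κ)
      have h7 := abs_sub_abs_le_abs_sub (c κ) ((σ.1 κ : ℝ) * (wt κ * rho σ.2))
      rw [abs_sub_comm] at h6
      linarith
    have h8 : |(σ'.1 κ : ℝ)| ≤ R κ := by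
      have h9 : (|(σ'.1 κ : ℝ)| - 3) * rho σ'.2 ≤ (|(σ.1 κ : ℝ)| + 3) * rho σ.2 := by
        have : wt κ * ((|(σ'.1 κ : ℝ)| - 3) * rho σ'.2) ≤
            wt κ * ((|(σ.1 κ : ℝ)| + 3) * rho σ.2) := by linarith
        exact le_of_mul_le_mul_left this hw
      have h10 : |(σ'.1 κ : ℝ)| - 3 ≤ (|(σ.1 κ : ℝ)| + 3) * rho σ.2 / a := by
        rcases le_total (|(σ'.1 κ : ℝ)| - 3) 0 with h11 | h11
        · exact h11.trans (by positivity)
        · rw [le_div_iff₀ ha0]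
          exact (mul_le_mul_of_nonneg_left h1 h11).trans h9
      simp only [R]
      linarith
    have h12 := Int.le_ceil (R κ)
    rw [abs_le] at h8
    constructor
    · have : -((⌈R κ⌉ : ℤ) : ℝ) ≤ σ'.1 κ := by linarith [h8.1]
      exact_mod_cast this
    · have : (σ'.1 κ : ℝ) ≤ ((⌈R κ⌉ : ℤ) : ℝ) := by linarith [h8.2]
      exact_mod_cast this
  · unfold rho at h1
    rw [← Real.log_le_iff_le_exp ha0] at h1
    have h3 := Int.floor_le (Real.log a / 400)
    have : ((⌊Real.log a / 400⌋ : ℤ) : ℝ) ≤ σ'.2 := by linarith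
    exact_mod_cast this
  · unfold rho at h2
    rw [← Real.le_log_iff_exp_le (by positivity)] at h2
    have h3 := Int.le_ceil (Real.log A / 400)
    have : (σ'.2 : ℝ) ≤ ((⌈Real.log A / 400⌉ : ℤ) : ℝ) := by linarith
    exact_mod_cast this

end Vale.Agent.P124
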