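import Vale.Agent.P124.Glue

/-! P124: families of functions with a common integral kernel. -/

open Filter Topology MeasureTheory

namespace Vale.Agent.P124

/-- The family `𝓕` of sequences of functions is represented by bounded densities against a kernel
that is bounded and Lipschitz in the `L¹` sense. -/
def Repr {E : Type} [NormedAddCommGroup E] (𝓕 : Set (ℕ → E → ℝ)) : Prop :=
  ∃ (Ω : Type) (_ : MeasurableSpace Ω) (ν : Measure Ω) (_ : SigmaFinite ν)
    (k : ℕ → E → Ω → ℝ) (B L H : ℝ), 0 ≤ B ∧ 0 ≤ L ∧ 0 ≤ H ∧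
    (∀ i x, Integrable (k i x) ν) ∧ (∀ i ω, k i 0 ω = 0) ∧
    (∀ m x, ∑ i ∈ Finset.range m, ∫ ω, |k i x ω| ∂ν ≤ B) ∧
    (∀ m x y, ∑ i ∈ Finset.range m, ∫ ω, |k i x ω - k i y ω| ∂ν ≤ L * ‖x - y‖) ∧
    ∀ Φ ∈ 𝓕, ∃ h : ℕ → Ω → ℝ, (∀ i, Measurable (h i)) ∧ (∀ i ω, |h i ω| ≤ H) ∧
      ∀ i x, Φ i x = ∫ ω, h i ω * k i x ω ∂ν

theorem Repr.mono {E : Type} [NormedAddCommGroup E] {𝓕 𝓖 : Set (ℕ → E → ℝ)} (h : Repr 𝓖)
    (hs : 𝓕 ⊆ 𝓖) : Repr 𝓕 := by
  obtain ⟨Ω, _, ν, _, k, B, L, H, h1, h2, h3, h4, h5, h6, h7, h8⟩ := h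
  exact ⟨Ω, _, ν, inferInstance, k, B, L, H, h1, h2, h3, h4, h5, h6, h7, fun Φ hΦ => h8 Φ (hs hΦ)⟩

/-- one-variable factors: bounded by one, Lipschitz, constant outside `[-R, R]` -/
def Fac (L R : ℝ) (G : ℝ → ℝ) : Prop :=
  (∀ s, |G s| ≤ 1) ∧ (∀ s t, |G s - G t| ≤ L * |s - t|) ∧
    (∀ s, R ≤ s → G s = G R) ∧ (∀ s, s ≤ -R → G s = G (-R))

/-- the basic kernel -/
noncomputable def L1sg (s w : ℝ) : ℝ := (if w ≤ s then 1 else 0) - (if w ≤ 0 then 1 else 0)

theorem L1sg_zero (w : ℝ) : L1sg 0 w = 0 := sub_self _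

theorem L1sg_sub (s t w : ℝ) : |L1sg s w - L1sg t w| = (Set.uIoc s t).indicator 1 w := by
  simp only [L1sg, sub_sub_sub_cancel_right, Set.indicator, Set.mem_uIoc, Pi.one_apply]
  by_cases h1 : w ≤ s <;> by_cases h2 : w ≤ t <;> simp [h1, h2, not_le.1, not_lt.2]

theorem L1sg_meas (s : ℝ) : Measurable (L1sg s) :=
  (Measurable.ite measurableSet_Iic measurable_const measurable_const).sub
    (Measurable.ite measurableSet_Iic measurable_const measurable_const)

theorem L1sg_abs (s w : ℝ) : |L1sg s w| = (Set.uIoc s 0).indicator 1 w := by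
  rw [← L1sg_sub, L1sg_zero, sub_zero]

theorem L1sg_int (s : ℝ) : Integrable (L1sg s) := by
  refine (integrable_norm_iff (L1sg_meas s).aestronglyMeasurable).1 ?_
  simp only [Real.norm_eq_abs, L1sg_abs]
  exact (integrable_indicator_iff measurableSet_uIoc).2
    (integrableOn_const (by rw [Real.volume_uIoc]; exact ENNReal.ofReal_ne_top))

theorem L1sg_int_sub (s t : ℝ) : ∫ w, |L1sg s w - L1sg t w| = |s - t| := by
  simp only [L1sg_sub]
  rw [integral_indicator_one measurableSet_uIoc, Measure.real, Real.volume_uIoc,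
    ENNReal.toReal_ofReal (abs_nonneg _), abs_sub_comm]

theorem L1sg_int_abs (s : ℝ) : ∫ w, |L1sg s w| = |s| := by
  simpa only [L1sg_zero, sub_zero] using L1sg_int_sub s 0

theorem L1_deriv_le {g : ℝ → ℝ} {L : ℝ} (hL : 0 ≤ L) (hg : ∀ s t, |g s - g t| ≤ L * |s - t|)
    (w : ℝ) : |deriv g w| ≤ L := by
  have hl : LipschitzWith ⟨L, hL⟩ g := LipschitzWith.of_dist_le_mul hg
  exact norm_deriv_le_of_lipschitz hl

theorem L1sg_repr {g : ℝ → ℝ} {L : ℝ} (hL : 0 ≤ L) (hg : ∀ s t, |g s - g t| ≤ L * |s - t|)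
    (h0 : g 0 = 0) (s : ℝ) : g s = ∫ w, deriv g w * L1sg s w := by
  have hl : LipschitzWith ⟨L, hL⟩ g := LipschitzWith.of_dist_le_mul hg
  have ha : AbsolutelyContinuousOnInterval g 0 s :=
    hl.lipschitzOnWith.absolutelyContinuousOnInterval
  have h1 := ha.integral_deriv_eq_sub
  have h2 := ha.intervalIntegrable_deriv
  rw [h0, sub_zero, intervalIntegral, ← integral_indicator measurableSet_Ioc,
    ← integral_indicator measurableSet_Ioc,
    ← integral_sub ((integrable_indicator_iff measurableSet_Ioc).2 h2.1)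
      ((integrable_indicator_iff measurableSet_Ioc).2 h2.2)] at h1
  rw [← h1]
  congr 1
  funext w
  simp only [L1sg, Set.indicator, Set.mem_Ioc]
  by_cases h3 : w ≤ s <;> by_cases h4 : w ≤ 0 <;> simp [h3, h4, not_le.1, not_lt.2]

theorem repr_base {E : Type} [NormedAddCommGroup E] (v : E → ℕ → ℝ) (B L : ℝ) (hB : 0 ≤ B)
    (hL : 0 ≤ L) (h0 : ∀ i, v 0 i = 0)
    (h1 : ∀ m x, ∑ i ∈ Finset.range m, |v x i| ≤ B)
    (h2 : ∀ m x y, ∑ i ∈ Finset.range m, |v x i - v y i| ≤ L * ‖x - y‖) :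
    Repr {Φ : ℕ → E → ℝ | ∃ g : ℕ → ℝ → ℝ, (∀ i s t, |g i s - g i t| ≤ |s - t|) ∧
      (∀ i, g i 0 = 0) ∧ Φ = fun i x => g i (v x i)} := by
  refine ⟨ℝ, inferInstance, volume, inferInstance, fun i x => L1sg (v x i), B, L, 1, hB, hL,
    zero_le_one, fun i x => L1sg_int _, fun i w => by simp only [h0, L1sg_zero], fun m x => ?_,
    fun m x y => ?_, ?_⟩
  · simpa only [L1sg_int_abs] using h1 m x
  · simpa only [L1sg_int_sub] using h2 m x y
  · rintro _ ⟨g, hg, hg0, rfl⟩
    have hg' : ∀ i s t, |g i s - g i t| ≤ 1 * |s - t| := by simpa only [one_mul] using hg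
    exact ⟨fun i => deriv (g i), fun i => measurable_deriv _,
      fun i => L1_deriv_le zero_le_one (hg' i), fun i x => L1sg_repr zero_le_one (hg' i) (hg0 i) _⟩

theorem Repr.step {E : Type} [NormedAddCommGroup E] {𝓕 : Set (ℕ → E → ℝ)} (h : Repr 𝓕)
    (c : E → ℝ) (hc : Lip 1 c) (L R : ℝ) (hL : 0 ≤ L) (hR : 0 ≤ R) :
    Repr {Ψ : ℕ → E → ℝ | ∃ G : ℝ → ℝ, Fac L R G ∧ ∃ Φ ∈ 𝓕, Ψ = fun i x => G (c x) * Φ i x} := by
  obtain ⟨Ω, _, ν, _, k, B, L₀, H, hB, hL₀, hH, h1, h2, h3, h4, h5⟩ := h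
  set c' : E → ℝ := fun x => max (-R) (min R (c x)) + R + 1 with hc'
  have c1 : ∀ x, 1 ≤ c' x := fun x => by
    have := le_max_left (-R) (min R (c x))
    simp only [hc']
    linarith
  have c2 : ∀ x, |c' x| ≤ 2 * R + 1 := fun x => by
    have : max (-R) (min R (c x)) ≤ R := max_le (by linarith) (min_le_left _ _)
    rw [abs_of_nonneg (by linarith [c1 x])]
    simp only [hc']
    linarith
  have c3 : ∀ x y, |c' x - c' y| ≤ ‖x - y‖ := fun x y => by
    have a1 := abs_max_sub_max_le_max (-R) (min R (c x)) (-R) (min R (c y))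
    have a2 := abs_min_sub_min_le_max R (c x) R (c y)
    have a3 := hc x y
    rw [sub_self, abs_zero, max_eq_right (a := 0) (abs_nonneg _)] at a1 a2
    simp only [hc', add_sub_add_right_eq_sub]
    linarith
  have n1 : ∀ i x, 0 ≤ ∫ ω, |k i x ω| ∂ν := fun i x => integral_nonneg fun _ => abs_nonneg _
  refine ⟨Ω × ℝ, inferInstance, ν.prod volume, inferInstance,
    fun i x p => k i x p.1 * L1sg (c' x) p.2, B * (2 * R + 1), L₀ * (2 * R + 1) + B, H * (L + 1),
    by positivity, by positivity, by positivity, fun i x => (h1 i x).mul_prod (L1sg_int _),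
    fun i p => by simp only [h2, zero_mul], fun m x => ?_, fun m x y => ?_, ?_⟩
  · refine le_trans (Finset.sum_le_sum (g := fun i => (∫ ω, |k i x ω| ∂ν) * (2 * R + 1))
      fun i _ => ?_) ?_
    · simp only [abs_mul]
      rw [integral_prod_mul (fun ω => |k i x ω|) (fun w => |L1sg (c' x) w|), L1sg_int_abs]
      exact mul_le_mul_of_nonneg_left (c2 x) (n1 i x)
    · rw [← Finset.sum_mul]
      exact mul_le_mul_of_nonneg_right (h3 m x) (by positivity)
  · refine le_trans (Finset.sum_le_sum (g := fun i => (∫ ω, |k i x ω - k i y ω| ∂ν) * (2 * R + 1) +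
      (∫ ω, |k i y ω| ∂ν) * ‖x - y‖) fun i _ => ?_) ?_
    · have i1 : Integrable (fun p : Ω × ℝ => |k i x p.1 - k i y p.1| * |L1sg (c' x) p.2|)
          (ν.prod volume) := ((h1 i x).sub (h1 i y)).abs.mul_prod (L1sg_int _).abs
      have i2 : Integrable (fun p : Ω × ℝ => |k i y p.1| * |L1sg (c' x) p.2 - L1sg (c' y) p.2|)
          (ν.prod volume) := (h1 i y).abs.mul_prod ((L1sg_int _).sub (L1sg_int _)).abs
      have i3 : Integrable (fun p : Ω × ℝ =>
          |k i x p.1 * L1sg (c' x) p.2 - k i y p.1 * L1sg (c' y) p.2|) (ν.prod volume) :=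
        (((h1 i x).mul_prod (L1sg_int _)).sub ((h1 i y).mul_prod (L1sg_int _))).abs
      refine (integral_mono i3 (i1.add i2) fun p => ?_).trans ?_
      · simp only [Pi.add_apply, ← abs_mul]
        refine le_trans (le_of_eq ?_) (abs_add_le _ _)
        congr 1
        ring
      · simp only [Pi.add_apply]
        rw [integral_add i1 i2,
          integral_prod_mul (fun ω => |k i x ω - k i y ω|) (fun w => |L1sg (c' x) w|),
          integral_prod_mul (fun ω => |k i y ω|) (fun w => |L1sg (c' x) w - L1sg (c' y) w|),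
          L1sg_int_abs, L1sg_int_sub]
        exact add_le_add (mul_le_mul_of_nonneg_left (c2 x) (integral_nonneg fun _ => abs_nonneg _))
          (mul_le_mul_of_nonneg_left (c3 x y) (n1 i y))
    · rw [Finset.sum_add_distrib, ← Finset.sum_mul, ← Finset.sum_mul]
      have a1 := mul_le_mul_of_nonneg_right (h4 m x y) (show 0 ≤ 2 * R + 1 by positivity)
      have a2 := mul_le_mul_of_nonneg_right (h3 m y) (norm_nonneg (x - y))
      linarith
  · rintro _ ⟨G, ⟨g1, g2, g3, g4⟩, Φ, hΦ, rfl⟩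
    obtain ⟨h, m1, m2, m3⟩ := h5 Φ hΦ
    set G' : ℝ → ℝ := fun s => G (max s 1 - R - 1) + G (-R) * (min s 1 - 1) with hG'
    have l1 : ∀ s t, |G' s - G' t| ≤ (L + 1) * |s - t| := fun s t => by
      have a1 := abs_max_sub_max_le_abs s t 1
      have a2 := abs_min_sub_min_le_max s 1 t 1
      rw [sub_self, abs_zero, max_eq_left (abs_nonneg _)] at a2
      have a3 := g2 (max s 1 - R - 1) (max t 1 - R - 1)
      rw [sub_sub_sub_cancel_right, sub_sub_sub_cancel_right] at a3
      have a4 : |G (-R) * (min s 1 - min t 1)| ≤ 1 * |s - t| := by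
        rw [abs_mul]
        exact mul_le_mul (g1 _) a2 (abs_nonneg _) zero_le_one
      have a5 := mul_le_mul_of_nonneg_left a1 hL
      have e : G' s - G' t = (G (max s 1 - R - 1) - G (max t 1 - R - 1)) +
          G (-R) * (min s 1 - min t 1) := by simp only [hG']; ring
      rw [e]
      refine (abs_add_le _ _).trans ?_
      linarith
    have l2 : G' 0 = 0 := by
      simp only [hG']
      rw [max_eq_right zero_le_one, min_eq_left zero_le_one, show 1 - R - 1 = -R by ring]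
      ring
    have l3 : ∀ x, G' (c' x) = G (c x) := fun x => by
      simp only [hG']
      rw [max_eq_left (c1 x), min_eq_right (c1 x), sub_self, mul_zero, add_zero]
      simp only [hc']
      rw [show max (-R) (min R (c x)) + R + 1 - R - 1 = max (-R) (min R (c x)) by ring]
      rcases le_total R (c x) with a | a
      · rw [min_eq_left a, max_eq_right (by linarith), g3 _ a]
      · rw [min_eq_right a]
        rcases le_total (c x) (-R) with b | b
        · rw [max_eq_left b, g4 _ b]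
        · rw [max_eq_right b]
    refine ⟨fun i p => h i p.1 * deriv G' p.2, fun i => ((m1 i).comp measurable_fst).mul
      ((measurable_deriv _).comp measurable_snd), fun i p => ?_, fun i x => ?_⟩
    · rw [abs_mul]
      exact mul_le_mul (m2 i _) (L1_deriv_le (by positivity) l1 _) (abs_nonneg _) hH
    · simp only [mul_mul_mul_comm (h i _)]
      rw [integral_prod_mul (fun ω => h i ω * k i x ω) (fun w => deriv G' w * L1sg (c' x) w),
        ← m3, ← L1sg_repr (by positivity) l1 l2, l3, mul_comm]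

theorem Repr.prod {E ι : Type} [NormedAddCommGroup E] {𝓕 : Set (ℕ → E → ℝ)} (h : Repr 𝓕)
    (s : Finset ι) (c : ι → E → ℝ) (hc : ∀ j, Lip 1 (c j)) (L R : ι → ℝ) (hL : ∀ j, 0 ≤ L j)
    (hR : ∀ j, 0 ≤ R j) :
    Repr {Ψ : ℕ → E → ℝ | ∃ G : ι → ℝ → ℝ, (∀ j ∈ s, Fac (L j) (R j) (G j)) ∧ ∃ Φ ∈ 𝓕,
      Ψ = fun i x => (∏ j ∈ s, G j (c j x)) * Φ i x} := by
  classical
  induction s using Finset.induction_on with
  | empty =>
    refine h.mono ?_
    rintro _ ⟨G, -, Φ, hΦ, rfl⟩
    simpa using hΦ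
  | insert a s ha ih =>
    refine (ih.step (c a) (hc a) (L a) (R a) (hL a) (hR a)).mono ?_
    rintro _ ⟨G, hG, Φ, hΦ, rfl⟩
    refine ⟨G a, hG a (Finset.mem_insert_self _ _), _,
      ⟨G, fun j hj => hG j (Finset.mem_insert_of_mem hj), Φ, hΦ, rfl⟩, ?_⟩
    simp only [Finset.prod_insert ha, mul_assoc]

/-- the Riesz product -/
noncomputable def L1rz {r : ℕ} (ε a : Fin r → ℝ) : ℝ :=
  (∏ l, (1 + Complex.I * (ε l : ℂ) * (a l : ℂ))).im / 2

/-- sign vectors -/
noncomputable def L1sn (r : ℕ) : Finset (Fin r → ℝ) :=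
  Fintype.piFinset fun _ => ({1, -1} : Finset ℝ)

theorem L1sn_card (r : ℕ) : (L1sn r).card = 2 ^ r := by
  rw [L1sn, Fintype.card_piFinset_const, Finset.card_pair (by norm_num)]

theorem L1sn_mem {r : ℕ} {ε : Fin r → ℝ} (h : ε ∈ L1sn r) (l : Fin r) : ε l = 1 ∨ ε l = -1 := by
  simpa using Fintype.mem_piFinset.1 h l

theorem L1rz_le {r : ℕ} {ε a : Fin r → ℝ} (h : ε ∈ L1sn r) (ha : ∀ l, a l ^ 2 ≤ 1 / r) :
    |L1rz ε a| ≤ 1 := by
  have h1 : ‖∏ l, (1 + Complex.I * (ε l : ℂ) * (a l : ℂ))‖ ^ 2 ≤ 2 ^ 2 := by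
    rw [norm_prod, ← Finset.prod_pow]
    refine (Finset.prod_le_prod (g := fun _ => Real.exp (1 / r)) (fun _ _ => sq_nonneg _)
      fun l _ => ?_).trans ?_
    · have h2 := Real.add_one_le_exp (1 / r : ℝ)
      have h3 := ha l
      rw [Complex.sq_norm, Complex.normSq_apply]
      rcases L1sn_mem h l with e | e <;> simp [e] <;> simp at h2 h3 <;> nlinarith
    · rw [Finset.prod_const, Finset.card_univ, Fintype.card_fin, ← Real.exp_nat_mul]
      have h2 : (r : ℝ) * (1 / r) ≤ 1 := by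
        rw [mul_one_div]
        exact div_self_le_one _
      linarith [Real.exp_le_exp.2 h2, Real.exp_one_lt_d9]
  have h2 := (Complex.abs_im_le_norm _).trans (abs_le_of_sq_le_sq' h1 (by norm_num)).2
  rw [L1rz, abs_div, abs_two]
  linarith

theorem L1rz_sum {r : ℕ} (a : Fin r → ℝ) (l : Fin r) :
    ∑ ε ∈ L1sn r, ε l * L1rz ε a = 2 ^ r / 2 * a l := by
  have h := Finset.prod_univ_sum (fun _ : Fin r => ({1, -1} : Finset ℝ))
    (fun j e => (if j = l then (e : ℂ) else 1) * (1 + Complex.I * (e : ℂ) * (a j : ℂ)))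
  have e1 : ∀ j : Fin r, ∑ e ∈ ({1, -1} : Finset ℝ),
      (if j = l then (e : ℂ) else 1) * (1 + Complex.I * (e : ℂ) * (a j : ℂ)) =
      2 * (if j = l then Complex.I * (a j : ℂ) else 1) := fun j => by
    rw [Finset.sum_pair (by norm_num)]
    split_ifs <;> push_cast <;> ring
  simp only [e1, Finset.prod_mul_distrib, Finset.prod_ite_eq', Finset.mem_univ, if_true,
    Finset.prod_const, Finset.card_univ, Fintype.card_fin] at h
  have h2 := congrArg Complex.im h
  rw [Complex.im_sum] at h2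
  simp only [Complex.im_ofReal_mul] at h2
  simp only [L1rz, L1sn, ← mul_div_assoc, ← Finset.sum_div]
  rw [← h2]
  have e2 : (2 : ℂ) ^ r * (Complex.I * (a l : ℂ)) = ((2 ^ r * a l : ℝ) : ℂ) * Complex.I := by
    push_cast
    ring
  rw [e2, Complex.im_ofReal_mul, Complex.I_im]
  ring

/-- A represented family lies, after normalisation, in a class of `1`-Lipschitz functions on which
every sequence with bounded signed sums is null (Riesz product form of the Khintchine bound). -/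
theorem Repr.null {E : Type} [NormedAddCommGroup E] {𝓕 : Set (ℕ → E → ℝ)} (h : Repr 𝓕) :
    ∃ (K : Set (E → ℝ)) (M : ℝ), 0 < M ∧ (∀ F ∈ K, Lip 1 F ∧ F 0 = 0) ∧
      (∀ Φ ∈ 𝓕, ∀ m, ∃ F ∈ K, ∀ x, ∑ i ∈ Finset.range m, Φ i x = M * F x) ∧
      ∀ (Λ : ℕ → (E → ℝ) →ₗ[ℝ] ℝ) (C : ℝ), Bdd K Λ C → Null K Λ := by
  obtain ⟨Ω, _, ν, _, k, B, L, H, -, hL, hH, h1, h2, -, h4, h5⟩ := h
  set T : ℕ → (ℕ → Ω → ℝ) → E → ℝ := fun m g x =>
    (L + 1)⁻¹ * ∑ i ∈ Finset.range m, ∫ ω, g i ω * k i x ω ∂ν with hT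
  set P : (ℕ → Ω → ℝ) → Prop := fun g => (∀ i, Measurable (g i)) ∧ ∀ i ω, |g i ω| ≤ 1 with hP
  have hi : ∀ g, P g → ∀ i x, Integrable (fun ω => g i ω * k i x ω) ν := fun g hg i x =>
    (h1 i x).bdd_mul (hg.1 i).aestronglyMeasurable (Eventually.of_forall (hg.2 i))
  have hext : ∀ m g, P g → ∀ m', m ≤ m' → ∃ g', P g' ∧ T m' g' = T m g := by
    intro m g hg m' hm
    refine ⟨fun i => if i < m then g i else 0, ⟨fun i => ?_, fun i ω => ?_⟩, ?_⟩
    · beta_reduce
      split_ifs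
      · exact hg.1 i
      · exact measurable_zero
    · beta_reduce
      split_ifs
      · exact hg.2 i ω
      · simp
    · funext x
      simp only [hT]
      congr 1
      rw [← Finset.sum_subset (Finset.range_subset_range.2 hm) fun i _ h => by
        simp [Finset.mem_range.not.1 h]]
      exact Finset.sum_congr rfl fun i h => by simp [Finset.mem_range.1 h]
  refine ⟨{F | ∃ m g, P g ∧ F = T m g}, (H + 1) * (L + 1), by positivity, ?_, ?_, ?_⟩
  · rintro _ ⟨m, g, hg, rfl⟩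
    refine ⟨fun x y => ?_, by simp [hT, h2]⟩
    simp only [hT]
    rw [← mul_sub, ← Finset.sum_sub_distrib, abs_mul, abs_of_pos (by positivity : 0 < (L + 1)⁻¹),
      inv_mul_le_iff₀ (by positivity)]
    refine (Finset.abs_sum_le_sum_abs _ _).trans (le_trans (Finset.sum_le_sum fun i _ => ?_)
      ((h4 m x y).trans (by nlinarith [norm_nonneg (x - y)])))
    rw [← integral_sub (hi g hg i x) (hi g hg i y), ← Real.norm_eq_abs]
    refine norm_integral_le_of_norm_le ((h1 i x).sub (h1 i y)).abs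
      (Eventually.of_forall fun ω => ?_)
    rw [← mul_sub, Real.norm_eq_abs, abs_mul]
    exact mul_le_of_le_one_left (abs_nonneg _) (hg.2 i ω)
  · intro Φ hΦ m
    obtain ⟨g, m1, m2, m3⟩ := h5 Φ hΦ
    refine ⟨_, ⟨m, fun i ω => (H + 1)⁻¹ * g i ω, ⟨fun i => (m1 i).const_mul _, fun i ω => ?_⟩,
      rfl⟩, fun x => ?_⟩
    · rw [abs_mul, abs_of_pos (by positivity : 0 < (H + 1)⁻¹), inv_mul_le_iff₀ (by positivity)]
      linarith [m2 i ω]
    · simp only [hT, mul_assoc (H + 1)⁻¹, integral_const_mul, ← Finset.mul_sum, m3]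
      field_simp
  · intro Λ C hC c hc
    by_contra hcon
    simp only [not_eventually, not_forall, not_le] at hcon
    obtain ⟨κ, hκ, hF⟩ := extraction_of_frequently_atTop hcon
    choose F hF hFc using hF
    choose m g hg hF using hF
    obtain ⟨n, hn⟩ := exists_nat_gt (2 * C / c)
    set r : ℕ := (n + 1) ^ 2 with hr
    have hr' : (r : ℝ) = (n + 1) ^ 2 := by simp [hr]
    choose g' hg' hT' using fun l : Fin r => hext (m l) (g l) (hg l)
      (∑ j : Fin r, m j) (Finset.single_le_sum (f := fun j : Fin r => m j)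
        (fun _ _ => Nat.zero_le _) (Finset.mem_univ l))
    set m' := ∑ j : Fin r, m j
    set u : (Fin r → ℝ) → ℕ → Ω → ℝ := fun ε i ω =>
      L1rz ε fun l => ((n : ℝ) + 1)⁻¹ * g' l i ω with hu
    have hPu : ∀ ε ∈ L1sn r, P (u ε) := fun ε hε => by
      refine ⟨fun i => ?_, fun i ω => L1rz_le hε fun l => ?_⟩
      · have := fun l => (hg' l).1 i
        simp only [hu, L1rz]
        refine (Complex.measurable_im.comp (Finset.measurable_prod _ fun l _ => ?_)).div_const _
        exact measurable_const.add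
          (measurable_const.mul (Complex.measurable_ofReal.comp ((this l).const_mul _)))
      · rw [hr', mul_pow, one_div, inv_pow]
        exact mul_le_of_le_one_right (by positivity) (sq_le_one_iff_abs_le_one _ |>.2
          ((hg' l).2 i ω))
    have e1 : ∀ l : Fin r, ∑ ε ∈ L1sn r, ε l • T m' (u ε) =
        (2 ^ r / 2 * ((n : ℝ) + 1)⁻¹) • F l := fun l => by
      funext x
      rw [hF l, ← hT' l]
      simp only [Finset.sum_apply, Pi.smul_apply, smul_eq_mul, hT, mul_left_comm _ (L + 1)⁻¹,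
        ← Finset.mul_sum]
      congr 1
      simp only [Finset.mul_sum]
      rw [Finset.sum_comm]
      refine Finset.sum_congr rfl fun i _ => ?_
      simp only [← integral_const_mul]
      rw [← integral_finsetSum _ fun ε hε => (hi _ (hPu ε hε) i x).const_mul _]
      congr 1
      funext ω
      simp only [← mul_assoc, ← Finset.sum_mul, hu, L1rz_sum]
    have e2 : ∀ ε ∈ L1sn r, ∑ l : Fin r, ε l * Λ (κ l) (T m' (u ε)) ≤ C := fun ε hε => by
      have := hC.chain κ hκ.injective r (fun l => if h : l < r then ε ⟨l, h⟩ else 1)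
        (fun l => by
          beta_reduce
          split_ifs with h
          · exact L1sn_mem hε _
          · exact Or.inl rfl) _ ⟨m', u ε, hPu ε hε, rfl⟩
      rw [Finset.sum_range] at this
      simpa only [Fin.is_lt, dif_pos] using this
    have e3 := Finset.sum_le_sum e2
    rw [Finset.sum_comm, Finset.sum_const, L1sn_card, nsmul_eq_mul] at e3
    have e4 : ∀ l : Fin r, 2 ^ r / 2 * ((n : ℝ) + 1)⁻¹ * c ≤
        ∑ ε ∈ L1sn r, ε l * Λ (κ l) (T m' (u ε)) := fun l => by
      have := congrArg (Λ (κ l)) (e1 l)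
      simp only [map_sum, map_smul, smul_eq_mul] at this
      rw [this]
      exact mul_le_mul_of_nonneg_left (hFc l).le (by positivity)
    have e5 := (Finset.sum_le_sum fun l _ => e4 l).trans e3
    rw [Finset.sum_const, Finset.card_univ, Fintype.card_fin, nsmul_eq_mul, hr'] at e5
    push_cast at e5
    rw [div_lt_iff₀ hc] at hn
    have e6 : ((n : ℝ) + 1) ^ 2 * (2 ^ r / 2 * ((n : ℝ) + 1)⁻¹ * c) =
        2 ^ r * (((n : ℝ) + 1) * c / 2) := by field_simp
    rw [e6] at e5
    have e7 := le_of_mul_le_mul_left e5 (by positivity)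
    linarith

end Vale.Agent.P124
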