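import Vale.Agent.P124.Flat

/-! P124: atoms are null along every sequence with bounded signed sums. -/

open Filter Topology

namespace Vale.Agent.P124

/-- the integral-kernel class of a pair of cells -/
noncomputable def KL {n : ℕ} (σ σ' : Cell n) (q M : ℕ) : Set (EE → ℝ) :=
  Classical.choose (repr_atom σ σ' q M).null

theorem KL_spec {n : ℕ} (σ σ' : Cell n) (q M : ℕ) : ∃ m : ℝ, 0 < m ∧
    (∀ F ∈ KL σ σ' q M, Lip 1 F ∧ F 0 = 0) ∧
    (∀ d : AD n, AD.Good q σ d → d.A ⊆ Finset.range M → ∃ F ∈ KL σ σ' q M, ∀ η,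
      d.pre (XX η) * (uu σ (d.tt σ (XX η)) (d.cc (XX η)) *
        (lam σ' (d.tt σ (XX η)) (d.cc (XX η)) * d.GG (XX η) σ')) = m * F η) ∧
    ∀ (Λ : ℕ → (EE → ℝ) →ₗ[ℝ] ℝ) (C : ℝ), Bdd (KL σ σ' q M) Λ C → Null (KL σ σ' q M) Λ := by
  obtain ⟨m, h1, h2, h3, h4⟩ := Classical.choose_spec (repr_atom σ σ' q M).null
  refine ⟨m, h1, h2, fun d hd hA => ?_, h4⟩
  obtain ⟨F, hF, h⟩ := h3 _ ⟨d, hd, hA, rfl⟩ d.m
  refine ⟨F, hF, fun η => ?_⟩
  rw [← h η, AD.GG, Finset.mul_sum, Finset.mul_sum, Finset.mul_sum]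
  rfl

theorem box_of_uu {n : ℕ} {σ : Cell n} {t : ℝ} {c : ℕ → ℝ} (ht : 0 < t) (h : uu σ t c ≠ 0) :
    Box σ t c := by
  obtain ⟨h1, h2, h3⟩ := uu_supp ht h
  have hρ := rho_pos σ.2
  have hb := zero_lt_one.trans one_lt_bb
  have hth : rho σ.2 / bb ^ 2 = 2 * (th0 * rho σ.2) := by
    unfold th0; field_simp
  have h4 := mul_pos th0_pos hρ
  have h5 : 0 < bb ^ 2 * rho σ.2 := by positivity
  refine ⟨by linarith, by linarith, fun κ => (h3 κ).trans ?_⟩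
  have := mul_pos (zero_lt_one.trans_le (one_le_wt κ)) hρ
  linarith

theorem cell_null {Λ : ℕ → (EE → ℝ) →ₗ[ℝ] ℝ} {n : ℕ} (σ : Cell n) (q M : ℕ)
    (h : ∀ σ', Null (KL σ σ' q M) Λ) {c : ℝ} (hc : 0 < c) :
    ∀ᶠ k in atTop, ∀ d : AD n, AD.Good q σ d → d.A ⊆ Finset.range M →
      Λ k (fun η => d.ev σ (XX η)) ≤ c := by
  classical
  choose m hm _ hF _ using fun σ' => KL_spec σ σ' q M
  set Nb := (box_finite σ).toFinset with hNb
  have e : ∀ᶠ k in atTop, ∀ σ' ∈ Nb, ∀ F ∈ KL σ σ' q M, Λ k F ≤ c / (Nb.card + 1) / m σ' :=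
    (eventually_all_finset _).2 fun σ' _ => h σ' _ (by have := hm σ'; positivity)
  filter_upwards [e] with k hk d hd hA
  choose F hF1 hF2 using fun σ' => hF σ' d hd hA
  have e1 : (fun η => d.ev σ (XX η)) = ∑ σ' ∈ d.D ∩ Nb, m σ' • F σ' := by
    funext η
    simp only [Finset.sum_apply, Pi.smul_apply, smul_eq_mul, ← hF2]
    unfold AD.ev AD.base
    rw [Finset.mul_sum, Finset.mul_sum]
    refine (Finset.sum_subset Finset.inter_subset_left fun σ' h1 h2 => ?_).symm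
    by_contra hne
    refine h2 (Finset.mem_inter.2 ⟨h1, (Set.Finite.mem_toFinset _).2 ⟨d.tt σ (XX η), d.cc (XX η),
      box_of_uu (d.tt_pos _ _) fun h0 => hne (by rw [h0]; simp),
      box_of_uu (d.tt_pos _ _) fun h0 => hne ?_⟩⟩)
    rw [← lam_mul_uu σ', h0]; simp
  rw [e1, map_sum]
  refine (Finset.sum_le_card_nsmul _ _ (c / (Nb.card + 1)) fun σ' hσ' => ?_).trans ?_
  · have := hk σ' (Finset.mem_inter.1 hσ').2 _ (hF1 σ')
    rw [le_div_iff₀ (hm σ')] at this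
    rw [map_smul, smul_eq_mul]; linarith
  · have h1 : ((d.D ∩ Nb).card : ℝ) ≤ Nb.card + 1 := by
      exact_mod_cast (Finset.card_le_card Finset.inter_subset_right).trans (Nat.le_succ _)
    rw [nsmul_eq_mul]
    refine (mul_le_mul_of_nonneg_right h1 (by positivity)).trans (le_of_eq ?_)
    field_simp

theorem ultra_dich {α : Type} (U : Ultrafilter ℕ) (f : ℕ → α) :
    (∃ a, ∀ᶠ k in U, f k = a) ∨ ∀ s : Set α, s.Finite → ∀ᶠ k in U, f k ∉ s := by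
  by_cases h : ∃ a, ∀ᶠ k in U, f k = a
  · exact Or.inl h
  · refine Or.inr fun s hs => ?_
    have : ∀ᶠ k in U, ∀ a ∈ s, f k ≠ a :=
      (eventually_all_finite hs).2 fun a _ => Ultrafilter.eventually_not.2 fun h' => h ⟨a, h'⟩
    exact this.mono fun k hk hm => hk _ hm rfl

theorem atoms_null {Λ : ℕ → (EE → ℝ) →ₗ[ℝ] ℝ} (hΛ : ∀ k, FinSupp (Λ k)) (q : ℕ)
    (hL : ∀ (n : ℕ) (σ σ' : Cell n) (M : ℕ), Null (KL σ σ' q M) Λ)
    (hA : ∀ c : ℝ, 0 < c → ∃ (N : ℕ) (C : ℝ), Bdd (KA (q + 1) N) Λ C ∧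
      2 * LL (q + 1) * C < N * c) : Null {a | IsAtom q a} Λ := by
  intro c hc
  by_contra hne
  have hfr : ∃ᶠ k in atTop, ∃ a, IsAtom q a ∧ c < Λ k a := by
    refine (not_eventually.1 hne).mono fun k hk => ?_
    push Not at hk
    exact hk
  obtain ⟨N, C, hB, hN⟩ := hA (c / 2) (half_pos hc)
  obtain ⟨k₀, a₀, ha₀, -⟩ := hfr.exists
  have hch : ∀ k, ∃ (i : Idx) (d : AD i.1), AD.Good q i.2 d ∧
      ((∃ a, IsAtom q a ∧ c < Λ k a) → c < Λ k (fun η => d.ev i.2 (XX η))) := by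
    intro k
    by_cases h : ∃ a, IsAtom q a ∧ c < Λ k a
    · obtain ⟨a, ⟨n, σ, d, hd, rfl⟩, h⟩ := h
      exact ⟨⟨n, σ⟩, d, hd, fun _ => h⟩
    · obtain ⟨n, σ, d, hd, -⟩ := ha₀
      exact ⟨⟨n, σ⟩, d, hd, fun h' => absurd h' h⟩
  choose i d hG hc' using hch
  obtain ⟨U, hU1, hU2⟩ : ∃ U : Ultrafilter ℕ, (U : Filter ℕ) ≤ atTop ∧
      ∀ᶠ k in U, ∃ a, IsAtom q a ∧ c < Λ k a := by
    have := frequently_iff_neBot.1 hfr
    obtain ⟨U, hU⟩ := Ultrafilter.exists_le (atTop ⊓ 𝓟 {k | ∃ a, IsAtom q a ∧ c < Λ k a})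
    exact ⟨U, hU.trans inf_le_left, le_principal_iff.1 (hU.trans inf_le_right)⟩
  have hcU : ∀ᶠ k in U, c < Λ k (fun η => (d k).ev (i k).2 (XX η)) := hU2.mono hc'
  have hNc : (N : ℝ) * (c / 2) ≤ N * c := mul_le_mul_of_nonneg_left (by linarith) (Nat.cast_nonneg _)
  refine absurd hN (not_lt.2 ?_)
  rcases ultra_dich U i with ⟨i₀, hi⟩ | hi
  · refine case_cut U hU1 hΛ hG hcU (hi.mono fun k hk => hi.mono fun k' hk' => by rw [hk, hk'])
      (fun M => ?_) hB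
    have e := (cell_null i₀.2 q M (fun σ' => hL _ _ σ' M) (half_pos hc)).filter_mono hU1
    filter_upwards [e, hi] with k h1 h2
    subst h2
    exact ⟨(d k).trunc M, (hG k).trunc M, AD.trunc_A' _ _, h1 _ ((hG k).trunc M) (AD.trunc_A _ _),
      fun η hη => (hG k).ev_trunc hη.le⟩
  rcases ultra_dich U (fun k => (i k).1) with ⟨n₀, hn⟩ | hn
  · refine hNc.trans (case_disj (σ := fun k => (i k).2) U hU1 hG hcU ?_ hB)
    refine hn.mono fun k hk => ?_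
    have hfin := (box_finite (i k).2).image (fun σ' => (⟨(i k).1, σ'⟩ : Idx))
    filter_upwards [hi _ hfin, hn] with k' h1 h2
    refine Set.disjoint_left.2 fun η a1 a2 => h1 ?_
    generalize i k' = j at h2 a2
    obtain ⟨n', σ'⟩ := j
    obtain rfl : n' = (i k).1 := h2.trans hk.symm
    exact ⟨σ', ⟨tl (i k).1 η, fun κ => XX η (en κ), a1, a2⟩, rfl⟩
  have hn' : ∀ M, ∀ᶠ k in U, M ≤ (i k).1 := fun M =>
    (hn _ (Set.finite_Iio M)).mono fun k hk => not_lt.1 hk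
  by_cases hρ : ∀ δ : ℝ, 0 < δ → ∀ᶠ k in U, rho (i k).2.2 ≤ δ
  · exact hNc.trans (case_flat U hU1 hΛ hG hcU hn' hρ hB)
  push Not at hρ
  obtain ⟨δ, hδ, hρ⟩ := hρ
  obtain ⟨j₀, hj₀⟩ := rho_small δ hδ
  have hj : ∀ᶠ k in U, j₀ ≤ (i k).2.2 :=
    hρ.mono fun k hk =>
      le_of_not_ge fun h => absurd (hj₀ _ h) (not_le.2 hk)
  refine case_cut U hU1 hΛ hG hcU ?_ (fun M => (hn' M).mono fun k hk => ?_) hB
  · rcases ultra_dich U (fun k => (i k).2.2) with ⟨j₁, h⟩ | h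
    · exact h.mono fun k hk => h.mono fun k' hk' => by rw [hk, hk']
    · refine Eventually.of_forall fun k => ?_
      filter_upwards [h _ (Set.finite_Icc j₀ (i k).2.2), hj] with k' h1 h2
      exact rho_mono (le_of_not_ge fun h3 => h1 ⟨h2, h3⟩)
  · refine ⟨(d k).scal 0, (hG k).scal (by simp), Finset.Subset.refl _, ?_, fun η hη => ?_⟩
    · have : (fun η => ((d k).scal 0).ev (i k).2 (XX η)) = 0 := by
        funext η; rw [AD.ev_scal, zero_mul]; rfl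
      rw [this, map_zero]; linarith
    · rw [AD.ev_scal, zero_mul]
      by_contra h0
      have h1 : th0 * rho (i k).2.2 ≤ tl (i k).1 η := ((hG k).supp (Ne.symm h0)).1
      have h2 := tl_anti hk η
      have h3 := mul_le_mul_of_nonneg_right (th_le q) (rho_pos (i k).2.2).le
      linarith

end Vale.Agent.P124
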