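import Vale.Agent.P124.Atom

/-! P124: operations on atoms (negation, flattening, truncation, cut-off). -/

open Filter Topology

namespace Vale.Agent.P124

namespace AD

variable {n q : ℕ} {σ : Cell n} {d : AD n}

/-- scale the fibre functions -/
def scal (d : AD n) (a : ℝ) : AD n := { d with g := fun σ' i s => a * d.g σ' i s }

theorem base_scal (d : AD n) (a : ℝ) (σ : Cell n) (y : Co → ℝ) :
    (d.scal a).base σ y = a * d.base σ y := by
  have h : ∀ σ', (d.scal a).GG y σ' = a * d.GG y σ' := fun σ' => by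
    unfold GG; rw [Finset.mul_sum]; rfl
  unfold base
  simp only [h]
  rw [Finset.mul_sum, Finset.mul_sum, Finset.mul_sum]
  exact Finset.sum_congr rfl fun σ' _ => by
    show uu σ (d.tt σ y) (d.cc y) * (lam σ' (d.tt σ y) (d.cc y) * (a * d.GG y σ')) = _
    ring

theorem ev_scal (d : AD n) (a : ℝ) (σ : Cell n) (y : Co → ℝ) :
    (d.scal a).ev σ y = a * d.ev σ y := by
  unfold ev; rw [base_scal]
  show d.pre y * _ = _
  ring

theorem Good.scal (h : Good q σ d) {a : ℝ} (ha : |a| ≤ 1) : Good q σ (d.scal a) :=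
  { h with
    g1 := fun σ' i s t => by
      show |a * d.g σ' i s - a * d.g σ' i t| ≤ _
      rw [← mul_sub, abs_mul]
      exact (mul_le_of_le_one_left (abs_nonneg _) ha).trans (h.g1 _ _ _ _)
    g0 := fun σ' i => by
      show a * d.g σ' i 0 = 0
      rw [h.g0, mul_zero] }

/-- precompose every one-variable function with a map attached to its coordinate -/
noncomputable def comp (d : AD n) (ψ : Co → ℝ → ℝ) : AD n where
  A := d.A
  f := fun M s => d.f M (ψ (Sum.inr M) s)
  D := d.D
  m := d.m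
  g := fun σ' i s => d.g σ' i (ψ (Sum.inl (⟨n, σ'⟩, i)) s)
  p := fun s => d.p (ψ (Sum.inr n) s)
  φ := fun κ s => d.φ κ (ψ (en κ) s)

theorem ev_comp (d : AD n) (ψ : Co → ℝ → ℝ) (σ : Cell n) (y : Co → ℝ) :
    (d.comp ψ).ev σ y = d.ev σ (fun c => ψ c (y c)) := rfl

theorem Good.comp (h : Good q σ d) {ψ : Co → ℝ → ℝ} (h1 : ∀ c s t, |ψ c s - ψ c t| ≤ |s - t|)
    (h0 : ∀ c, ψ c 0 = 0) (h2 : ∀ c s, |ψ c s - s| ≤ (th q - th (q + 1)) * rho σ.2) :
    Good (q + 1) σ (d.comp ψ) where
  card := h.card.trans (Nat.le_succ q)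
  f1 := fun M s => h.f1 M _
  f2 := fun M s t => by
    refine le_trans (mul_le_mul_of_nonneg_left ?_ (abs_nonneg _)) ((h.f2 M _ _).trans (h1 _ _ _))
    refine mul_le_mul_of_nonneg_right ?_ (rho_pos _).le
    rw [th_succ]; linarith [th_pos q]
  f3 := fun M s t hs ht => h.f3 M _ _ (by linarith [(abs_le.1 (h2 (Sum.inr M) s)).2])
    (by linarith [(abs_le.1 (h2 (Sum.inr M) t)).2])
  f4 := fun M s t hs ht => h.f4 M _ _ (by linarith [(abs_le.1 (h2 (Sum.inr M) s)).1])
    (by linarith [(abs_le.1 (h2 (Sum.inr M) t)).1])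
  g1 := fun σ' i s t => (h.g1 _ _ _ _).trans (h1 _ _ _)
  g0 := fun σ' i => by
    show d.g σ' i (ψ _ 0) = 0
    rw [h0, h.g0]
  p1 := fun s t => (h.p1 _ _).trans (h1 _ _ _)
  p2 := fun s => by
    have a1 := abs_le.1 (h.p2 (ψ (Sum.inr n) s))
    have a2 := abs_le.1 (h2 (Sum.inr n) s)
    show |d.p (ψ (Sum.inr n) s) - s| ≤ _
    rw [abs_le]; constructor <;> linarith [a1.1, a1.2, a2.1, a2.2]
  p3 := fun κ s t => (h.p3 _ _ _).trans (h1 _ _ _)
  p4 := fun κ s => by
    have a1 := abs_le.1 (h.p4 κ (ψ (en κ) s))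
    have a2 := abs_le.1 (h2 (en κ) s)
    show |d.φ κ (ψ (en κ) s) - s| ≤ _
    rw [abs_le]; constructor <;> linarith [a1.1, a1.2, a2.1, a2.2]

theorem Good.succ (h : Good q σ d) : Good (q + 1) σ d :=
  h.comp (ψ := fun _ s => s) (fun _ _ _ => le_rfl) (fun _ => rfl) (fun _ s => by
    rw [sub_self, abs_zero, th_succ]
    exact mul_nonneg (by linarith [th_pos q]) (rho_pos _).le)

/-- an atom depends on finitely many coordinates -/
theorem exists_dep (d : AD n) (σ : Cell n) : ∃ s : Finset Co, ∀ y y' : Co → ℝ,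
    (∀ c ∈ s, y c = y' c) → d.ev σ y = d.ev σ y' := by
  classical
  refine ⟨d.A.image Sum.inr ∪ {Sum.inr n} ∪ (Finset.range n).image en ∪
    (d.D ×ˢ Finset.range d.m).image (fun x => Sum.inl (⟨n, x.1⟩, x.2)), fun y y' h => ?_⟩
  have h1 : d.pre y = d.pre y' := Finset.prod_congr rfl fun M hM => by
    rw [h _ (by simp [hM])]
  have h2 : d.tt σ y = d.tt σ y' := by unfold tt; rw [h _ (by simp)]
  have h3 : ∀ κ : Fin n, d.cc y κ = d.cc y' κ := fun κ => by
    unfold cc
    rw [h (en κ) (by
      simp only [Finset.mem_union, Finset.mem_image, Finset.mem_range]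
      exact Or.inl (Or.inr ⟨κ, κ.2, rfl⟩))]
  have h4 : ∀ σ' ∈ d.D, d.GG y σ' = d.GG y' σ' := fun σ' hσ' =>
    Finset.sum_congr rfl fun i hi => by
      rw [h _ (by
        simp only [Finset.mem_union, Finset.mem_image, Finset.mem_product]
        exact Or.inr ⟨(σ', i), ⟨hσ', hi⟩, rfl⟩)]
  unfold ev base
  rw [h1, h2]
  congr 2
  · unfold uu; simp only [h3]
  · refine Finset.sum_congr rfl fun σ' hσ' => ?_
    rw [h4 σ' hσ']
    unfold lam; simp only [h3]

theorem cont_of_lip {F : ℝ → ℝ} {K : ℝ} (hK : 0 < K) (h : ∀ s t, |F s - F t| * K ≤ |s - t|) :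
    Continuous F := by
  refine (LipschitzWith.of_dist_le' (K := 1 / K) fun s t => ?_).continuous
  rw [Real.dist_eq, Real.dist_eq, one_div, inv_mul_eq_div, le_div_iff₀ hK]
  exact h s t

theorem Good.continuous (h : Good q σ d) : Continuous (d.ev σ) := by
  have hf : ∀ M, Continuous (d.f M) := fun M =>
    cont_of_lip (mul_pos (th_pos q) (rho_pos _)) (h.f2 M)
  have hg : ∀ σ' i, Continuous (d.g σ' i) := fun σ' i =>
    cont_of_lip one_pos fun s t => by rw [mul_one]; exact h.g1 _ _ _ _
  have hp : Continuous d.p := cont_of_lip one_pos fun s t => by rw [mul_one]; exact h.p1 _ _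
  have hφ : ∀ κ, Continuous (d.φ κ) := fun κ =>
    cont_of_lip one_pos fun s t => by rw [mul_one]; exact h.p3 _ _ _
  have ht : Continuous (d.tt σ) := (hp.comp (continuous_apply _)).max continuous_const
  have hs : Continuous fun y => sc (d.tt σ y) :=
    (ht.log fun y => (d.tt_pos σ y).ne').div_const _
  have hc : ∀ κ, Continuous fun y => d.cc y κ := fun κ => (hφ κ).comp (continuous_apply _)
  have hG : ∀ σ', Continuous fun y => d.GG y σ' := fun σ' =>
    continuous_finsetSum _ fun i _ => (hg σ' i).comp (continuous_apply _)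
  have hpre : Continuous d.pre :=
    continuous_finsetProd _ fun M _ => (hf M).comp (continuous_apply _)
  have hu : Continuous fun y => uu σ (d.tt σ y) (d.cc y) :=
    (continuous_plat.comp (hs.sub continuous_const)).mul (continuous_finsetProd _ fun κ _ =>
      continuous_plat.comp (((hc κ).div_const _).sub continuous_const))
  have hl : ∀ σ' : Cell n, Continuous fun y => lam σ' (d.tt σ y) (d.cc y) := fun σ' =>
    (continuous_hat.comp (hs.sub continuous_const)).mul (continuous_finsetProd _ fun κ _ =>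
      continuous_hat.comp (((hc κ).div_const _).sub continuous_const))
  exact hpre.mul (hu.mul (continuous_finsetSum _ fun σ' _ => (hl σ').mul (hG σ')))

/-- forget the tail factors of index `≥ M` -/
noncomputable def trunc (d : AD n) (M : ℕ) : AD n :=
  { d.scal (∏ M' ∈ d.A with ¬ M' < M, d.f M' 0) with A := d.A.filter (· < M) }

theorem Good.trunc (h : Good q σ d) (M : ℕ) : Good q σ (d.trunc M) :=
  { h.scal (abs_prod_le_one' _ _ fun M' => h.f1 M' 0) with
    card := (Finset.card_filter_le _ _).trans h.card }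

theorem trunc_A (d : AD n) (M : ℕ) : (d.trunc M).A ⊆ Finset.range M := fun _ h =>
  Finset.mem_range.2 (Finset.mem_filter.1 h).2

theorem trunc_A' (d : AD n) (M : ℕ) : (d.trunc M).A ⊆ d.A := Finset.filter_subset _ _

theorem Good.ev_trunc (h : Good q σ d) {M : ℕ} {η : EE} (hη : tl M η ≤ th q * rho σ.2) :
    (d.trunc M).ev σ (XX η) = d.ev σ (XX η) := by
  have e1 : (d.trunc M).base σ (XX η) =
      (∏ M' ∈ d.A with ¬ M' < M, d.f M' 0) * d.base σ (XX η) := base_scal d _ σ _
  have e2 : (d.trunc M).pre (XX η) = ∏ M' ∈ d.A with M' < M, d.f M' (XX η (Sum.inr M')) := rfl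
  have e3 : ∏ M' ∈ d.A with ¬ M' < M, d.f M' 0 =
      ∏ M' ∈ d.A with ¬ M' < M, d.f M' (XX η (Sum.inr M')) :=
    Finset.prod_congr rfl fun M' hM' => h.f3 M' _ _ (mul_pos (th_pos q) (rho_pos _)).le
      ((tl_anti (not_lt.1 (Finset.mem_filter.1 hM').2) η).trans hη)
  unfold ev
  rw [e1, e2, e3, ← mul_assoc, Finset.prod_filter_mul_prod_filter_not]
  rfl

end AD

/-- the cut-off function at scale `a` -/
noncomputable def chi (a s : ℝ) : ℝ := max 0 (min 1 (3 - 4 * s / a))

theorem chi_one {a s : ℝ} (ha : 0 < a) (hs : s ≤ a / 2) : chi a s = 1 := by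
  have : 4 * s / a ≤ 2 := by rw [div_le_iff₀ ha]; linarith
  unfold chi
  rw [min_eq_left (by linarith), max_eq_right zero_le_one]

theorem chi_zero {a s : ℝ} (ha : 0 < a) (hs : 3 * a / 4 ≤ s) : chi a s = 0 := by
  have : 3 ≤ 4 * s / a := by rw [le_div_iff₀ ha]; linarith
  unfold chi
  exact max_eq_left ((min_le_right _ _).trans (by linarith))

theorem chi_abs (a s : ℝ) : |chi a s| ≤ 1 := by
  unfold chi
  rw [abs_of_nonneg (le_max_left _ _)]
  exact max_le zero_le_one (min_le_left _ _)

theorem chi_lip {a : ℝ} (ha : 0 < a) (s t : ℝ) : |chi a s - chi a t| * (a / 4) ≤ |s - t| := by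
  have h1 : |chi a s - chi a t| ≤ |(3 - 4 * s / a) - (3 - 4 * t / a)| := by
    unfold chi
    rw [max_comm, max_comm 0]
    refine (abs_max_sub_max_le_abs _ _ _).trans ?_
    refine (abs_min_sub_min_le_max _ _ _ _).trans ?_
    simp
  have h2 : (3 - 4 * s / a) - (3 - 4 * t / a) = (t - s) * (4 / a) := by ring
  rw [h2, abs_mul, abs_of_pos (by positivity : 0 < 4 / a), abs_sub_comm t s] at h1
  refine (mul_le_mul_of_nonneg_right h1 (by positivity)).trans (le_of_eq ?_)
  field_simp

namespace AD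

variable {n q : ℕ} {σ : Cell n} {d : AD n}

/-- add a cut-off factor in the tail of index `M` -/
noncomputable def cut (d : AD n) (M : ℕ) (a : ℝ) : AD n :=
  { d with A := insert M d.A, f := Function.update d.f M (chi a) }

theorem ev_cut (d : AD n) {M : ℕ} (hM : M ∉ d.A) (a : ℝ) (σ : Cell n) (y : Co → ℝ) :
    (d.cut M a).ev σ y = chi a (y (Sum.inr M)) * d.ev σ y := by
  have e : (d.cut M a).pre y = chi a (y (Sum.inr M)) * d.pre y := by
    show ∏ M' ∈ insert M d.A, Function.update d.f M (chi a) M' (y (Sum.inr M')) = _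
    rw [Finset.prod_insert hM, Function.update_self]
    congr 1
    exact Finset.prod_congr rfl fun M' hM' => by
      rw [Function.update_of_ne (ne_of_mem_of_not_mem hM' hM)]
  unfold ev
  rw [e, mul_assoc]
  rfl

theorem Good.cut (h : Good q σ d) (M : ℕ) :
    Good (q + 1) σ (d.cut M (th q * rho σ.2)) := by
  have h' := h.succ
  have ha : 0 < th q * rho σ.2 := mul_pos (th_pos q) (rho_pos _)
  have hρ := rho_pos σ.2
  have e : th (q + 1) * rho σ.2 = th q * rho σ.2 / 4 := by rw [th_succ]; ring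
  have hle : th q * rho σ.2 ≤ rho σ.2 := by nlinarith [th_le q, th0_le]
  refine { h' with
    card := (Finset.card_insert_le _ _).trans (Nat.succ_le_succ h.card)
    f1 := fun M' s => ?_, f2 := fun M' s t => ?_, f3 := fun M' s t hs ht => ?_,
    f4 := fun M' s t hs ht => ?_ }
  all_goals
    simp only [AD.cut]
    rcases eq_or_ne M' M with rfl | hne
  · rw [Function.update_self]; exact chi_abs _ _
  · rw [Function.update_of_ne hne]; exact h'.f1 _ _
  · rw [Function.update_self, e]; exact chi_lip ha _ _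
  · rw [Function.update_of_ne hne]; exact h'.f2 _ _ _
  · rw [Function.update_self, chi_one ha (by linarith), chi_one ha (by linarith)]
  · rw [Function.update_of_ne hne]; exact h'.f3 _ _ _ hs ht
  · rw [Function.update_self, chi_zero ha (by linarith), chi_zero ha (by linarith)]
  · rw [Function.update_of_ne hne]; exact h'.f4 _ _ _ hs ht

end AD

end Vale.Agent.P124
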