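import Vale.Agent.P124.Ops
import Vale.Agent.P124.L1

/-! P124: atoms of a fixed cell with boundedly many tail factors have an integral kernel. -/

open Filter Topology

namespace Vale.Agent.P124

theorem abs_mul_sub_mul_le' {a b a' b' : ℝ} (ha : |a| ≤ 1) (hb : |b'| ≤ 1) :
    |a * b - a' * b'| ≤ |a - a'| + |b - b'| := by
  have e : a * b - a' * b' = (a - a') * b' + a * (b - b') := by ring
  rw [e]
  refine (abs_add_le _ _).trans ?_
  rw [abs_mul, abs_mul]
  exact add_le_add (mul_le_of_le_one_right (abs_nonneg _) hb)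
    (mul_le_of_le_one_left (abs_nonneg _) ha)

theorem abs_plat (s : ℝ) : |plat s| ≤ 1 := by
  rw [abs_of_nonneg (plat_nonneg s)]; exact plat_le_one s

theorem abs_hat (s : ℝ) : |hat s| ≤ 1 := by
  rw [abs_of_nonneg (hat_nonneg s)]; exact hat_le_one s

theorem abs_plat_hat (s t : ℝ) : |plat s * hat t| ≤ 1 := by
  rw [abs_mul]; exact mul_le_one₀ (abs_plat s) (abs_nonneg _) (abs_hat t)

theorem fac_loc {φ : ℝ → ℝ} {a a' z z' : ℝ} (ha : 0 < a) (ha' : 0 < a')
    (h1 : ∀ s t, |φ s - φ t| ≤ |s - t|) (h2 : ∀ s, |φ s - s| ≤ a) :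
    Fac (1 / a + 1 / a') ((|z| + 3) * a) (fun s => plat (φ s / a - z) * hat (φ s / a' - z')) := by
  have hz : ∀ s, (|z| + 3) * a ≤ |s| → plat (φ s / a - z) = 0 := fun s hs => by
    refine plat_eq_zero ?_
    have e : φ s / a - z = (φ s - z * a) / a := by field_simp
    rw [e, abs_div, abs_of_pos ha, le_div_iff₀ ha]
    have h3 : |s| ≤ |φ s - z * a| + |z| * a + |φ s - s| := by
      have : s = (φ s - z * a) + z * a - (φ s - s) := by ring
      calc |s| = |(φ s - z * a) + z * a - (φ s - s)| := by rw [← this]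
        _ ≤ |(φ s - z * a) + z * a| + |φ s - s| := abs_sub _ _
        _ ≤ |φ s - z * a| + |z * a| + |φ s - s| := by gcongr; exact abs_add_le _ _
        _ = _ := by rw [abs_mul, abs_of_pos ha]
    linarith [h2 s]
  have hR : 0 ≤ (|z| + 3) * a := by positivity
  refine ⟨fun s => abs_plat_hat _ _, fun s t => ?_, fun s hs => ?_, fun s hs => ?_⟩
  · refine (abs_mul_sub_mul_le' (abs_plat _) (abs_hat _)).trans ?_
    have e : ∀ b w : ℝ, 0 < b → |φ s / b - w - (φ t / b - w)| ≤ 1 / b * |s - t| := fun b w hb => by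
      have : φ s / b - w - (φ t / b - w) = 1 / b * (φ s - φ t) := by ring
      rw [this, abs_mul, abs_of_pos (by positivity : 0 < 1 / b)]
      exact mul_le_mul_of_nonneg_left (h1 s t) (by positivity)
    have e1 := (plat_lip _ _).trans (e a z ha)
    have e2 := (hat_lip _ _).trans (e a' z' ha')
    linarith
  · simp only
    rw [hz s (hs.trans (le_abs_self s)), hz _ (le_abs_self _), zero_mul, zero_mul]
  · simp only
    rw [hz s (by linarith [neg_le_abs s]), hz _ (by rw [abs_neg]; exact le_abs_self _), zero_mul,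
      zero_mul]

theorem fac_scale {p : ℝ → ℝ} {j j' : ℤ} (h1 : ∀ s t, |p s - p t| ≤ |s - t|)
    (h2 : ∀ s, |p s - s| ≤ rho j) :
    Fac (2 / (400 * (rho j / bb ^ 3))) (2 * bb ^ 2 * rho j)
      (fun s => plat (sc (max (p s) (rho j / bb ^ 3)) - j) *
        hat (sc (max (p s) (rho j / bb ^ 3)) - j')) := by
  have hb := one_lt_bb
  have hρ := rho_pos j
  have hm : 0 < rho j / bb ^ 3 := by positivity
  have hb2 : rho j ≤ bb ^ 2 * rho j := le_mul_of_one_le_left hρ.le (one_le_pow₀ hb.le)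
  have hz : ∀ s, 2 * bb ^ 2 * rho j ≤ s → plat (sc (max (p s) (rho j / bb ^ 3)) - j) = 0 := by
    intro s hs
    by_contra hne
    have := (plat_sc (lt_max_of_lt_right hm) hne).2
    linarith [le_max_left (p s) (rho j / bb ^ 3), (abs_le.1 (h2 s)).1]
  have hc : ∀ s, s ≤ -(2 * bb ^ 2 * rho j) → max (p s) (rho j / bb ^ 3) = rho j / bb ^ 3 :=
    fun s hs => max_eq_right (by linarith [(abs_le.1 (h2 s)).2])
  refine ⟨fun s => abs_plat_hat _ _, fun s t => ?_, fun s hs => ?_, fun s hs => ?_⟩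
  · refine (abs_mul_sub_mul_le' (abs_plat _) (abs_hat _)).trans ?_
    have e : |sc (max (p s) (rho j / bb ^ 3)) - sc (max (p t) (rho j / bb ^ 3))| ≤
        |s - t| / (400 * (rho j / bb ^ 3)) :=
      (sc_lip hm (le_max_right _ _) (le_max_right _ _)).trans
        (div_le_div_of_nonneg_right ((abs_max_sub_max_le_abs _ _ _).trans (h1 s t))
          (by positivity))
    have e1 := plat_lip (sc (max (p s) (rho j / bb ^ 3)) - j) (sc (max (p t) (rho j / bb ^ 3)) - j)
    have e2 := hat_lip (sc (max (p s) (rho j / bb ^ 3)) - j') (sc (max (p t) (rho j / bb ^ 3)) - j')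
    rw [sub_sub_sub_cancel_right] at e1 e2
    have e3 : 2 / (400 * (rho j / bb ^ 3)) * |s - t| =
        2 * (|s - t| / (400 * (rho j / bb ^ 3))) := by ring
    linarith
  · simp only
    rw [hz s hs, hz _ le_rfl, zero_mul, zero_mul]
  · simp only
    rw [hc s hs, hc _ le_rfl]

theorem AD.Good.fac_tail {n q : ℕ} {σ : Cell n} {d : AD n} (h : AD.Good q σ d) (M : ℕ) :
    Fac (1 / (th q * rho σ.2)) (rho σ.2) (fun s => if M ∈ d.A then d.f M s else 1) := by
  have hρ := rho_pos σ.2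
  have ha : 0 < th q * rho σ.2 := mul_pos (th_pos q) hρ
  by_cases hM : M ∈ d.A
  · simp only [hM, if_true]
    refine ⟨h.f1 M, fun s t => ?_, fun s hs => h.f4 M _ _ (by linarith) (by linarith),
      fun s hs => h.f3 M _ _ (by linarith) (by linarith)⟩
    rw [one_div, inv_mul_eq_div, le_div_iff₀ ha]
    exact h.f2 M s t
  · simp only [hM, if_false]
    refine ⟨fun _ => by simp, fun s t => ?_, fun _ _ => rfl, fun _ _ => rfl⟩
    rw [sub_self, abs_zero]; positivity

theorem cutv_lip_aux {n : ℕ} (σ' : Cell n) {a : ℝ} (ha : 0 < a) (m : ℕ) (η η' : EE)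
    (hle : tl n η' ≤ tl n η) :
    ∑ i ∈ Finset.range m, |chi a (tl n η) * η ⟨n, σ'⟩ i - chi a (tl n η') * η' ⟨n, σ'⟩ i| ≤
      5 * ‖η - η'‖ := by
  have hδ := norm_nonneg (η - η')
  by_cases h : 3 * a / 4 ≤ tl n η'
  · rw [chi_zero ha h, chi_zero ha (h.trans hle)]
    simp only [zero_mul, sub_self, abs_zero, Finset.sum_const_zero]; positivity
  · push Not at h
    have e1 : ∑ i ∈ Finset.range m, |η ⟨n, σ'⟩ i - η' ⟨n, σ'⟩ i| ≤ ‖η - η'‖ := by
      refine le_trans (le_of_eq ?_) ((sum_abs_le ((η - η') ⟨n, σ'⟩) m).trans (c0_apply_le _ _))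
      simp
    have e2 : ∑ i ∈ Finset.range m, |η' ⟨n, σ'⟩ i| ≤ a :=
      (sum_abs_le _ m).trans ((le_tl le_rfl η' σ').trans (by linarith))
    have e3 : |chi a (tl n η) - chi a (tl n η')| * a ≤ 4 * ‖η - η'‖ := by
      have := (chi_lip ha _ _).trans (tl_lip n η η')
      linarith
    calc _ ≤ ∑ i ∈ Finset.range m, (|η ⟨n, σ'⟩ i - η' ⟨n, σ'⟩ i| +
          |chi a (tl n η) - chi a (tl n η')| * |η' ⟨n, σ'⟩ i|) := by
          refine Finset.sum_le_sum fun i _ => ?_
          have e : chi a (tl n η) * η ⟨n, σ'⟩ i - chi a (tl n η') * η' ⟨n, σ'⟩ i =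
              chi a (tl n η) * (η ⟨n, σ'⟩ i - η' ⟨n, σ'⟩ i) +
                (chi a (tl n η) - chi a (tl n η')) * η' ⟨n, σ'⟩ i := by ring
          rw [e]
          refine (abs_add_le _ _).trans ?_
          rw [abs_mul, abs_mul]
          exact add_le_add_left (mul_le_of_le_one_left (abs_nonneg _) (chi_abs _ _)) _
      _ = _ := by rw [Finset.sum_add_distrib, ← Finset.mul_sum]
      _ ≤ ‖η - η'‖ + |chi a (tl n η) - chi a (tl n η')| * a := by gcongr
      _ ≤ _ := by linarith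

theorem repr_atom {n : ℕ} (σ σ' : Cell n) (q M : ℕ) :
    Repr {Φ : ℕ → EE → ℝ | ∃ d : AD n, AD.Good q σ d ∧ d.A ⊆ Finset.range M ∧
      Φ = fun i η => d.pre (XX η) * (uu σ (d.tt σ (XX η)) (d.cc (XX η)) *
        (lam σ' (d.tt σ (XX η)) (d.cc (XX η)) * d.g σ' i (η ⟨n, σ'⟩ i)))} := by
  have hb := one_lt_bb
  have hρ := rho_pos σ.2
  have hρ' := rho_pos σ'.2
  have hw : ∀ κ, 0 < wt κ := fun κ => zero_lt_one.trans_le (one_le_wt κ)
  have hth := th_pos q
  set a := 4 * bb ^ 2 * rho σ.2 with hadef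
  have ha : 0 < a := by positivity
  have r0 := repr_base (fun (η : EE) i => chi a (tl n η) * η ⟨n, σ'⟩ i) a 5 ha.le (by norm_num)
    (fun i => by simp)
    (fun m η => by
      by_cases h : 3 * a / 4 ≤ tl n η
      · simp only [chi_zero ha h, zero_mul, abs_zero, Finset.sum_const_zero]; exact ha.le
      · push Not at h
        refine le_trans (Finset.sum_le_sum fun i _ => ?_)
          ((sum_abs_le (η ⟨n, σ'⟩) m).trans ((le_tl le_rfl η σ').trans (by linarith)))
        rw [abs_mul]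
        exact mul_le_of_le_one_left (abs_nonneg _) (chi_abs _ _))
    (fun m η η' => by
      rcases le_total (tl n η') (tl n η) with hle | hle
      · exact cutv_lip_aux σ' ha m η η' hle
      · rw [norm_sub_rev]
        simp only [abs_sub_comm (chi a (tl n η) * _)]
        exact cutv_lip_aux σ' ha m η' η hle)
  have r1 := r0.prod (Finset.univ : Finset (Fin n)) (fun κ η => XX η (en κ))
    (fun κ => XX_lip _) (fun κ => 1 / (wt κ * rho σ.2) + 1 / (wt κ * rho σ'.2))
    (fun κ => (|(σ.1 κ : ℝ)| + 3) * (wt κ * rho σ.2))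
    (fun κ => by have := hw κ; positivity) (fun κ => by have := hw κ; positivity)
  have r2 := r1.prod (Finset.range M) tl tl_lip (fun _ => 1 / (th q * rho σ.2))
    (fun _ => rho σ.2) (fun _ => by positivity) (fun _ => hρ.le)
  have r3 := r2.step (tl n) (tl_lip n) (2 / (400 * (rho σ.2 / bb ^ 3))) (2 * bb ^ 2 * rho σ.2)
    (by positivity) (by positivity)
  refine r3.mono ?_
  rintro Φ ⟨d, hd, hA, rfl⟩
  have hdisp : (th0 - th q) * rho σ.2 ≤ rho σ.2 := by nlinarith [th0_le]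
  refine ⟨_, fac_scale (j' := σ'.2) hd.p1 (fun s => (hd.p2 s).trans hdisp), _,
    ⟨_, fun M' _ => hd.fac_tail M', _,
      ⟨fun κ s => plat (d.φ κ s / (wt κ * rho σ.2) - σ.1 κ) *
          hat (d.φ κ s / (wt κ * rho σ'.2) - σ'.1 κ), fun κ _ =>
        fac_loc (mul_pos (hw κ) hρ) (mul_pos (hw κ) hρ') (hd.p3 κ) (fun s => (hd.p4 κ s).trans
          (hdisp.trans (le_mul_of_one_le_left hρ.le (one_le_wt κ)))), _,
        ⟨d.g σ', hd.g1 σ', hd.g0 σ', rfl⟩, rfl⟩, rfl⟩, ?_⟩
  funext i η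
  have e1 : ∏ M' ∈ Finset.range M, (if M' ∈ d.A then d.f M' (tl M' η) else 1) = d.pre (XX η) := by
    rw [Finset.prod_ite_mem, Finset.inter_eq_right.2 hA]; rfl
  have e2 : uu σ (d.tt σ (XX η)) (d.cc (XX η)) * d.g σ' i (η ⟨n, σ'⟩ i) =
      uu σ (d.tt σ (XX η)) (d.cc (XX η)) * d.g σ' i (chi a (tl n η) * η ⟨n, σ'⟩ i) := by
    by_cases hu : uu σ (d.tt σ (XX η)) (d.cc (XX η)) = 0
    · rw [hu, zero_mul, zero_mul]
    · have : tl n η ≤ 2 * bb ^ 2 * rho σ.2 := (hd.box hu).2.1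
      rw [chi_one ha (by linarith), one_mul]
  simp only
  rw [e1, Finset.prod_mul_distrib, mul_left_comm (uu _ _ _), e2]
  unfold uu lam AD.tt AD.cc
  simp only [XX, Sum.elim_inr]
  ring

end Vale.Agent.P124
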