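import Vale.Agent.P124.Hat

/-! P124: the base space `E = c₀(I, ℓ¹)`, tails and coordinates. -/

open Filter Topology
open scoped ZeroAtInfty

namespace Vale.Agent.P124

abbrev Fib : Type := lp (fun _ : ℕ => ℝ) 1
abbrev Idx : Type := Σ n : ℕ, Cell n
abbrev EE : Type := C₀(Idx, Fib)

theorem Space_hasSum (v : Fib) : HasSum (fun i => |v i|) ‖v‖ := by
  simpa using lp.hasSum_norm (p := 1) (by norm_num) v

theorem Space_mem {f : ℕ → ℝ} (h : Summable fun i => |f i|) : Memℓp f 1 :=
  memℓp_gen (by simpa using h)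

theorem sum_abs_le (v : Fib) (m : ℕ) : ∑ i ∈ Finset.range m, |v i| ≤ ‖v‖ := by
  exact sum_le_hasSum _ (fun _ _ => abs_nonneg _) (Space_hasSum v)

theorem norm_le_of_sum (v : Fib) (C : ℝ) (h : ∀ m, ∑ i ∈ Finset.range m, |v i| ≤ C) :
    ‖v‖ ≤ C := by
  exact le_of_tendsto' (Space_hasSum v).tendsto_sum_nat h

theorem exists_shift : ∃ S : Fib →L[ℝ] Fib, ∀ v i, S v i = v (i + 1) := by
  let S : Fib →ₗ[ℝ] Fib :=
    { toFun := fun v => ⟨fun i => v (i + 1),
        Space_mem ((summable_nat_add_iff (f := fun i => |v i|) 1).2 (Space_hasSum v).summable)⟩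
      map_add' := fun _ _ => rfl
      map_smul' := fun _ _ => rfl }
  refine ⟨S.mkContinuous 1 fun v => ?_, fun _ _ => rfl⟩
  rw [one_mul]
  refine norm_le_of_sum _ _ fun m => le_trans ?_ (sum_abs_le v (m + 1))
  rw [Finset.sum_range_succ']
  exact le_add_of_nonneg_right (abs_nonneg _)

/-- backward shift -/
noncomputable def shift : Fib →L[ℝ] Fib := Classical.choose exists_shift

theorem shift_apply (v : Fib) (i : ℕ) : shift v i = v (i + 1) :=
  Classical.choose_spec exists_shift v i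

theorem norm_eq_shift (v : Fib) : ‖v‖ = |v 0| + ‖shift v‖ := by
  rw [← (Space_hasSum v).tsum_eq, ← (Space_hasSum (shift v)).tsum_eq,
    (Space_hasSum v).summable.tsum_eq_zero_add]
  simp only [shift_apply]

theorem exists_cons (a : ℝ) (v : Fib) : ∃ u : Fib, u 0 = a ∧ shift u = v := by
  obtain ⟨f, f0, f1⟩ : ∃ f : ℕ → ℝ, f 0 = a ∧ ∀ i, f (i + 1) = v i :=
    ⟨fun i => Nat.casesOn i a fun j => v j, rfl, fun _ => rfl⟩
  have h : Summable fun i : ℕ => |f i| := by
    refine (summable_nat_add_iff 1).1 ?_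
    simp only [f1]
    exact (Space_hasSum v).summable
  refine ⟨⟨f, Space_mem h⟩, f0, ?_⟩
  ext i
  rw [shift_apply]
  exact f1 i

/-- prepend a head -/
noncomputable def cons (a : ℝ) (v : Fib) : Fib := Classical.choose (exists_cons a v)

theorem cons_zero (a : ℝ) (v : Fib) : cons a v 0 = a := (Classical.choose_spec (exists_cons a v)).1

theorem shift_cons (a : ℝ) (v : Fib) : shift (cons a v) = v :=
  (Classical.choose_spec (exists_cons a v)).2

theorem c0_apply_le {α β : Type} [TopologicalSpace α] [NormedAddCommGroup β] (η : C₀(α, β))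
    (i : α) : ‖η i‖ ≤ ‖η‖ := by
  exact η.toBCF.norm_coe_le_norm i

theorem c0_norm_le {α β : Type} [TopologicalSpace α] [NormedAddCommGroup β] (η : C₀(α, β))
    {C : ℝ} (hC : 0 ≤ C) (h : ∀ i, ‖η i‖ ≤ C) : ‖η‖ ≤ C := by
  exact (BoundedContinuousFunction.norm_le (f := η.toBCF) hC).2 h

/-- element of `C₀` of a discrete space -/
def mkC {α β : Type} [TopologicalSpace α] [DiscreteTopology α] [NormedAddCommGroup β] (f : α → β)
    (h : Tendsto f cofinite (𝓝 0)) : C₀(α, β) :=
  ⟨⟨f, continuous_of_discreteTopology⟩, by rwa [cocompact_eq_cofinite]⟩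

@[simp] theorem mkC_apply {α β : Type} [TopologicalSpace α] [DiscreteTopology α]
    [NormedAddCommGroup β] (f : α → β) (h : Tendsto f cofinite (𝓝 0)) (i : α) :
    mkC f h i = f i := rfl

theorem tendsto_of_levels (f : Idx → Fib) (b : ℕ → ℝ) (hb : Tendsto b atTop (𝓝 0))
    (h1 : ∀ n σ, ‖f ⟨n, σ⟩‖ ≤ b n) (h2 : ∀ n, {σ : Cell n | f ⟨n, σ⟩ ≠ 0}.Finite) :
    Tendsto f cofinite (𝓝 0) := by
  refine NormedAddGroup.tendsto_nhds_zero.2 fun ε hε => ?_
  obtain ⟨N, hN⟩ := eventually_atTop.1 (hb.eventually (gt_mem_nhds hε))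
  refine ((Set.finite_lt_nat N).biUnion fun n _ => (h2 n).image (Sigma.mk n)).subset ?_
  rintro ⟨n, σ⟩ h
  simp only [Set.mem_compl_iff, Set.mem_ofPred_eq, not_lt] at h
  refine Set.mem_biUnion (x := n) ?_ ⟨σ, fun h0 => ?_, rfl⟩
  · by_contra hn
    exact absurd (h.trans (h1 n σ)) (not_le.2 (hN n (not_lt.1 hn)))
  · rw [h0, norm_zero] at h
    exact absurd hε (not_lt.2 h)

theorem Space_sepFib : TopologicalSpace.SeparableSpace Fib := by
  rw [← TopologicalSpace.isSeparable_univ_iff]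
  have h := (Set.countable_range fun i : ℕ => (lp.single 1 i 1 : Fib)).isSeparable.span (R := ℝ)
  refine h.closure.mono fun v _ => ?_
  refine mem_closure_of_tendsto (lp.hasSum_single (p := 1) (by norm_num) v)
    (Eventually.of_forall fun s => Submodule.sum_mem _ fun i _ => ?_)
  have e : (lp.single 1 i (v i) : Fib) = v i • lp.single 1 i 1 := by
    rw [← lp.single_smul, smul_eq_mul, mul_one]
  rw [e]
  exact Submodule.smul_mem _ _ (Submodule.subset_span ⟨i, rfl⟩)

/-- the element of `EE` supported at one index -/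
noncomputable def SpaceSingle (i : Idx) (v : Fib) : EE :=
  mkC (fun j => if j = i then v else 0) (tendsto_nhds_of_eventually_eq
    ((Set.finite_singleton i).subset fun j hj => by
      by_contra h
      exact hj (if_neg h)))

theorem SpaceSingle_cont (i : Idx) : Continuous (SpaceSingle i) := by
  refine (LipschitzWith.of_dist_le_mul (K := 1) fun v w => ?_).continuous
  rw [dist_eq_norm, dist_eq_norm, NNReal.coe_one, one_mul]
  refine c0_norm_le _ (norm_nonneg _) fun j => ?_
  simp only [SpaceSingle, ZeroAtInftyContinuousMap.sub_apply, mkC_apply]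
  split_ifs <;> simp

theorem Space_finite (η : EE) {ε : ℝ} (hε : 0 < ε) : {i | ε ≤ ‖η i‖}.Finite := by
  have h := η.zero_at_infty'
  rw [cocompact_eq_cofinite] at h
  refine (NormedAddGroup.tendsto_nhds_zero.1 h ε hε).subset fun i hi => ?_
  exact not_lt.2 (show ε ≤ ‖η i‖ from hi)

theorem separable_EE : TopologicalSpace.SeparableSpace EE := by
  have := Space_sepFib
  rw [← TopologicalSpace.isSeparable_univ_iff]
  have h := (TopologicalSpace.IsSeparable.iUnion fun i : Idx =>
    TopologicalSpace.isSeparable_range (SpaceSingle_cont i)).span (R := ℝ)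
  refine h.closure.mono fun η _ => Metric.mem_closure_iff.2 fun ε hε => ?_
  have hf := Space_finite η (half_pos hε)
  refine ⟨∑ i ∈ hf.toFinset, SpaceSingle i (η i), Submodule.sum_mem _ fun i _ =>
    Submodule.subset_span (Set.mem_iUnion.2 ⟨i, _, rfl⟩), ?_⟩
  rw [dist_eq_norm]
  refine (c0_norm_le _ (half_pos hε).le fun j => ?_).trans_lt (half_lt_self hε)
  have e : ∀ s : Finset Idx, (∑ i ∈ s, SpaceSingle i (η i)) j = if j ∈ s then η j else 0 := by
    intro s
    have e1 : (∑ i ∈ s, SpaceSingle i (η i)) j = ∑ i ∈ s, SpaceSingle i (η i) j := by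
      induction s using Finset.induction_on with
      | empty => rfl
      | insert a s ha ih =>
        rw [Finset.sum_insert ha, Finset.sum_insert ha, ZeroAtInftyContinuousMap.add_apply, ih]
    rw [e1]
    simp only [SpaceSingle, mkC_apply]
    rw [← Finset.sum_ite_eq s j η]
  rw [ZeroAtInftyContinuousMap.sub_apply, e]
  split_ifs with hj
  · rw [sub_self, norm_zero]
    exact (half_pos hε).le
  · rw [sub_zero]
    exact (not_le.1 fun h => hj (hf.mem_toFinset.2 h)).le

/-- norm of the part of `η` at levels `≥ M` -/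
noncomputable def tl (M : ℕ) (η : EE) : ℝ := ⨆ i : {i : Idx // M ≤ i.1}, ‖η i‖

theorem le_tl {M n : ℕ} (h : M ≤ n) (η : EE) (σ : Cell n) : ‖η ⟨n, σ⟩‖ ≤ tl M η := by
  exact le_ciSup (f := fun i : {i : Idx // M ≤ i.1} => ‖η i‖)
    ⟨‖η‖, by rintro _ ⟨i, rfl⟩; exact c0_apply_le η i⟩ ⟨⟨n, σ⟩, h⟩

theorem tl_nonneg (M : ℕ) (η : EE) : 0 ≤ tl M η := by
  exact Real.iSup_nonneg fun _ => norm_nonneg _

theorem tl_le {M : ℕ} {η : EE} {C : ℝ} (hC : 0 ≤ C)
    (h : ∀ n, M ≤ n → ∀ σ : Cell n, ‖η ⟨n, σ⟩‖ ≤ C) : tl M η ≤ C := by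
  exact Real.iSup_le (fun i => h i.1.1 i.2 i.1.2) hC

theorem tl_anti {M M' : ℕ} (h : M ≤ M') (η : EE) : tl M' η ≤ tl M η := by
  exact tl_le (tl_nonneg M η) fun n hn σ => le_tl (h.trans hn) η σ

theorem tl_lip (M : ℕ) : Lip 1 (tl M) := by
  have key : ∀ x y : EE, tl M x ≤ tl M y + ‖x - y‖ := fun x y =>
    tl_le (add_nonneg (tl_nonneg M y) (norm_nonneg _)) fun n hn σ => by
      have h1 := c0_apply_le (x - y) ⟨n, σ⟩
      rw [ZeroAtInftyContinuousMap.sub_apply] at h1
      linarith [le_tl hn y σ, norm_sub_norm_le (x ⟨n, σ⟩) (y ⟨n, σ⟩)]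
  intro x y
  have h1 := key x y
  have h2 := key y x
  rw [norm_sub_rev] at h2
  rw [one_mul, abs_le]
  constructor <;> linarith

theorem tl_tendsto (η : EE) : Tendsto (fun M => tl M η) atTop (𝓝 0) := by
  refine Metric.tendsto_atTop.2 fun ε hε => ?_
  obtain ⟨N, hN⟩ := ((Space_finite η (half_pos hε)).image Sigma.fst).bddAbove
  refine ⟨N + 1, fun M hM => ?_⟩
  rw [Real.dist_eq, sub_zero, abs_of_nonneg (tl_nonneg M η)]
  refine (tl_le (half_pos hε).le fun n hn σ => ?_).trans_lt (half_lt_self hε)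
  by_contra h
  have : n ≤ N := hN ⟨⟨n, σ⟩, (not_le.1 h).le, rfl⟩
  omega

/-- generalised coordinates: fibre coordinates and tails -/
abbrev Co : Type := (Idx × ℕ) ⊕ ℕ

noncomputable def XX (η : EE) : Co → ℝ :=
  Sum.elim (fun p => η p.1 p.2) (fun M => tl M η)

theorem XX_lip (c : Co) : Lip 1 (fun η => XX η c) := by
  rcases c with ⟨i, k⟩ | M
  · intro x y
    have h1 := c0_apply_le (x - y) i
    have h2 := lp.norm_apply_le_norm (p := 1) (by norm_num) ((x - y) i) k
    rw [one_mul]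
    exact h2.trans h1
  · exact tl_lip M

/-- an enumeration of the coordinates -/
noncomputable def en : ℕ → Co := Classical.choose (exists_surjective_nat Co)

theorem en_surj : Function.Surjective en := Classical.choose_spec (exists_surjective_nat Co)

end Vale.Agent.P124
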